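import Vale.Agent.P240.R2.H164.SemiP
import Vale.Agent.P240.R2.H687.CntSU
import Vale.Agent.P240.R2.H296.Cen
import Vale.Agent.P240.R2.AS.Stmts2

/-!
`StmtA8`: chains of `n - 1` groups in `⟨PSU_n(q), τ⟩`, `τ` a field automorphism of order `p`, `p ∣ n`.
The conjugates of `τ` under `GU_{n-1}(q)`, embedded by `g ↦ diag(g, det g⁻¹)`.
-/

set_option autoImplicit false

namespace Vale.Agent.P240.R2.H164

open Matrix Vale.Agent.P240 Vale.Agent.P240.K Vale.Agent.P240.R2.AS Vale.Agent.P240.R2.H687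
open Vale.Agent.P240.R2.H986.St
open scoped Classical

universe u v w

noncomputable section

/-- the count for the conjugates under the whole unitary group -/
theorem card_lt_top {K : Type u} {Γ : Type w} [Field K] [StarRing K] [Fintype K] [Group Γ] {n : ℕ}
    {q : ℕ} (hq : 3 ≤ q) (hK : Nat.card K = q ^ 2) (hs : ∀ x : K, star x = x ^ q)
    {p : ℕ} (hp : p.Prime) (hp2 : p ≠ 2) (hn : 2 ≤ n) (σ : SA K) {a : ℕ} (ha : 4 ≤ a)
    (hqa : q = a ^ p) (hFa : Nat.card (FT σ) = a ^ 2) (hFs : ∀ x : FT σ, star x = x ^ a)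
    (ht : (Fr (FT σ) n).card < 3 * 2 ^ n * t (Fr (FT σ) n))
    (φ : K →+* K) (hφ : ∀ x, φ x = x ^ (a ^ 2)) (hφs : ∀ x, φ (star x) = star (φ x))
    (hfix : ∀ x : K, φ x = x → σ.1 x = x)
    (e : GU K n →* Γ)
    (he : ∀ g, e g = 1 → ∃ c : K, (g : Matrix (Fin n) (Fin n) K) = c • (1 : Matrix (Fin n) (Fin n) K))
    (x : Γ) (hx : ∀ g, x * e g * x⁻¹ = e (uMap n φ hφs g)) :
    (Fr K n).card < Nat.card (conjs e ⊤ x) * t (Fr (FT σ) n) := by
  have hodd : Odd p := hp.odd_of_ne_two hp2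
  have hp3 : 3 ≤ p := by
    have := hp.two_le
    omega
  obtain ⟨A, T, hA, hS⟩ := exponents hodd (by omega : 2 ≤ a)
  have hA13 := A_ge ha hp3 hA
  have hcard : Nat.card K = a ^ (2 * p) := by
    rw [hK, hqa, ← pow_mul, mul_comm]
  have hstar : ∀ x : K, star x = x ^ (a ^ p) := by
    intro x
    rw [hs, hqa]
  have hZ : ∀ g ∈ (⊤ : Subgroup (GU K n)), ∀ c : K,
      (g : Matrix (Fin n) (Fin n) K).map φ = c • (g : Matrix (Fin n) (Fin n) K) →
      c ∈ {c : K | c ^ A = 1} := by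
    intro g _ c hc
    exact scal_pow (by omega) hS hcard hstar φ hφ hc
  have h1 := card_conjs_gen φ hφs (FI σ) (FI_star σ) (fun x h => exists_FI σ (hfix x h))
    ⊤ {c : K | c ^ A = 1} hZ e he x hx
  rw [Subgroup.comap_top, Subgroup.card_top, Subgroup.card_top] at h1
  have hP0 : 0 < Nat.card (conjs e ⊤ x) := by
    have : Finite (conjs e ⊤ x) := conjs_finite e _ x
    have : Nonempty (conjs e ⊤ x) := ⟨⟨x, self_mem_conjs e _ x⟩⟩
    exact Nat.card_pos
  refine count (A := A) (a := a) (p := p) (n := n) hn ha hp3 hA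
    (U := Nat.card (unitaryGroup (Fin n) K)) (U₀ := Nat.card (unitaryGroup (Fin n) (FT σ)))
    ?_ ?_ (h1.trans (Nat.mul_le_mul_left _ (Nat.mul_le_mul_right _ (card_roots_le (by omega)))))
    hP0 ht
  · rw [H715.card_unitary_pow (by omega) hK hs, hqa]
  · rw [H715.card_unitary_pow (by omega) hFa hFs]

lemma lam_lnU {K : Type u} {K₀ : Type v} [Field K] [StarRing K] [Field K₀] [StarRing K₀] {n : ℕ}
    (f : K₀ →+* K) (hf : ∀ x, f (star x) = star (f x)) (g : GU K n) (P : Ln K₀ n) :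
    lam f hf g P = lnU g (lam f hf 1 P) := by
  apply Subtype.ext
  change (lam f hf g P).1 = (g : Matrix (Fin n) (Fin n) K) * (lam f hf 1 P).1 *
    star (g : Matrix (Fin n) (Fin n) K)
  rw [lam_coe, lam_coe, conjM, conjM]
  simp only [OneMemClass.coe_one, one_mul, star_one, mul_one]

theorem stmtA8_of (hM2 : StmtM2.{u}) (hA2 : StmtA2.{u}) : StmtA8.{u} := by
  intro K _ _ _ q hq hK hs p hp hp2 hpq h38 n hn hpn σ hσ H hPSU hσH
  obtain ⟨m, rfl⟩ : ∃ m, n = m + 1 := ⟨n - 1, by omega⟩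
  have hm : 2 ≤ m := by
    have h1 := hp.out.two_le
    have h2 := Nat.le_of_dvd (by omega) hpn
    omega
  obtain ⟨ζ, hζ, hζ1, hζs⟩ := H296.exists_zeta hK hs hp.out hpq
  obtain ⟨a, ha4, hqa, hpa, hFa, hFs, k, hk⟩ := fix_data hq hK hs hp.out hp2 hpq h38 σ hσ
  -- the power `σ' = σ ^ k`
  set σ' : SA K := σ ^ k with hσ'
  have hφ : ∀ x, (σ'.1 : K →+* K) x = x ^ (a ^ 2) := hk
  have hφs : ∀ x, (σ'.1 : K →+* K) (star x) = star ((σ'.1 : K →+* K) x) := fun x => SA_star σ' x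
  have hcardK : Nat.card K = a ^ (2 * p) := by rw [hK, hqa, ← pow_mul, mul_comm]
  have hne : σ' ≠ 1 := by
    intro h1
    obtain ⟨g, hg⟩ := IsCyclic.exists_generator (α := Kˣ)
    have ho : orderOf g = Nat.card K - 1 := by
      rw [orderOf_eq_card_of_forall_mem_zpowers hg, Nat.card_units]
    have h2 : (g : K) ^ (a ^ 2) = g := by
      rw [← hφ, h1]
      rfl
    have h3 : g ^ (a ^ 2 - 1) = 1 := by
      have h4 : g ^ (a ^ 2 - 1) * g = 1 * g := by
        rw [← pow_succ, Nat.sub_add_cancel (Nat.one_le_pow _ _ (by omega)), one_mul]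
        exact Units.ext h2
      exact mul_right_cancel h4
    have h5 := orderOf_dvd_of_pow_eq_one h3
    rw [ho, hcardK] at h5
    have h6 : 0 < a ^ 2 - 1 := by
      have : 4 ^ 2 ≤ a ^ 2 := Nat.pow_le_pow_left ha4 2
      omega
    have h7 := Nat.le_of_dvd h6 h5
    have h8 : a ^ 2 < a ^ (2 * p) :=
      Nat.pow_lt_pow_right (by omega) (by have := hp.out.two_le; omega)
    omega
  have hfixpow : ∀ (τ : SA K) (x : K), τ.1 x = x → ∀ m : ℕ, (τ ^ m).1 x = x := by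
    intro τ x h m
    induction m with
    | zero => rfl
    | succ m ih =>
      rw [pow_succ]
      show (τ ^ m).1 (τ.1 x) = x
      rw [h, ih]
  have hcop : k.Coprime (orderOf σ) := by
    rw [hσ]
    refine (Nat.Coprime.symm ((Nat.Prime.coprime_iff_not_dvd hp.out).2 fun hd => hne ?_))
    rw [hσ']
    exact orderOf_dvd_iff_pow_eq_one.1 (hσ ▸ hd)
  have hfix : ∀ x : K, (σ'.1 : K →+* K) x = x → σ.1 x = x := by
    intro x hx
    obtain ⟨m, hm⟩ := exists_pow_eq_self_of_coprime hcop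
    have h1 := hfixpow σ' x hx m
    rw [hσ', hm] at h1
    exact h1
  have hσp : σ' ^ p = 1 := by
    rw [hσ', ← pow_mul, mul_comm, pow_mul, ← hσ, pow_orderOf_eq_one, one_pow]
  have hσ'H : (SemidirectProduct.inr σ' : PGamU K (m + 1)) ∈ H := by
    rw [hσ', map_pow]
    exact H.pow_mem hσH k
  -- roots of unity
  have hζa : ζ ^ (a + 1) = 1 := by
    obtain ⟨r, hr⟩ := hpa
    rw [hr, pow_mul, hζ, one_pow]
  have hζφ : σ'.1 ζ = ζ := by
    have h1 := hφ ζ
    change σ'.1 ζ = _ at h1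
    rw [h1]
    have e1 : a ^ 2 = (a + 1) * (a - 1) + 1 := by
      obtain ⟨b, rfl⟩ : ∃ b, a = b + 1 := ⟨a - 1, by omega⟩
      simp only [Nat.add_sub_cancel]
      ring
    rw [e1, pow_add, pow_mul, hζa, one_pow, one_mul, pow_one]
  -- the homomorphism and the element
  have hcen : ∀ g ∈ Subgroup.center (GU K (m + 1)), ∃ c : K,
      (g : Matrix (Fin (m + 1)) (Fin (m + 1)) K) = c • 1 :=
    fun g hg => (H296.mem_center_iff hζ1 hζs g).1 hg
  have hx : ∀ g, (SemidirectProduct.inr σ' : PGamU K (m + 1)) * e8 K m g *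
      (SemidirectProduct.inr σ')⁻¹ = e8 K m (uMap m (σ'.1 : K →+* K) hφs g) := by
    intro g
    rw [e8_conj]
    rfl
  have hcount := card_lt_top hq hK hs hp.out hp2 hm σ ha4 hqa hFa hFs
    (hM2 (FT σ) a (by omega) hFa hFs m hm) (σ'.1 : K →+* K) hφ hφs hfix (e8 K m)
    (fun g hg => e8_ker hcen hg) (SemidirectProduct.inr σ') hx
  have hA := hA2 K q hq hK hs p ζ hζ hζ1 hζs m (by omega) hpn
  refine semi_PGamU hm (FI σ) (FI_star σ) (e8 K m) (fun g => rfl) σ' hne hσp ⊤ (eW' ζ)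
    hA.1 H (fun w hw => hPSU ⟨_, hA.2 w hw, rfl⟩) (fun g _ => hPSU (e8_mem g)) hσ'H ?_ hcount
  intro g _ u v _
  have h1 : u.map (lam (FI σ) (FI_star σ) g) =
      (u.map (lam (FI σ) (FI_star σ) 1)).map (lnU g) := by
    rw [List.map_map]
    apply List.map_congr_left
    intro P _
    exact lam_lnU _ _ g P
  have h2 : ∀ P ∈ u.map (lam (FI σ) (FI_star σ) (1 : GU K m)), P.1.map σ'.1 = P.1 := by
    intro P hP
    obtain ⟨Q, _, rfl⟩ := List.mem_map.1 hP
    rw [lam_coe, conjM]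
    simp only [OneMemClass.coe_one, one_mul, star_one, mul_one]
    ext i j
    exact hfixpow σ _ (FI_fix σ _) k
  have h3 := inr_eW' σ' hζφ h2
  rw [h1, ← e8_eW']
  set E := e8 K m g with hE
  set W := (SemidirectProduct.inl (eW' ζ (u.map (lam (FI σ) (FI_star σ) (1 : GU K m)))) :
    PGamU K (m + 1)) with hW
  set τ := (SemidirectProduct.inr σ' : PGamU K (m + 1)) with hτ
  calc E * W * E⁻¹ * (E * τ * E⁻¹) = E * (W * τ) * E⁻¹ := by group
    _ = E * (τ * W) * E⁻¹ := by rw [h3]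
    _ = E * τ * E⁻¹ * (E * W * E⁻¹) := by group

end

end Vale.Agent.P240.R2.H164
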