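import Vale.Agent.P240.R2.AS.Stmts2
import Vale.Agent.P240.R2.H687.Fld

/-!
The embedding `GU_m(q) → PSU_{m+1}(q)`, `g ↦ diag(g, det g⁻¹)`, and its action on the elements `eW'`.
-/

set_option autoImplicit false

namespace Vale.Agent.P240.R2.H164

open Matrix Vale.Agent.P240.R2.AS

universe u

noncomputable section

variable {K : Type u} [Field K] {m : ℕ}

/-- block matrices `diag(A, d)` -/
def blk (A : Matrix (Fin m) (Fin m) K) (d : K) : Matrix (Fin (m + 1)) (Fin (m + 1)) K :=
  Matrix.reindex finSumFinEquiv finSumFinEquiv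
    (Matrix.fromBlocks A 0 0 (Matrix.of fun _ _ : Fin 1 => d))

lemma blk_mul (A B : Matrix (Fin m) (Fin m) K) (d e : K) :
    blk A d * blk B e = blk (A * B) (d * e) := by
  rw [blk, blk, blk, Matrix.reindex_apply, Matrix.reindex_apply, Matrix.reindex_apply,
    Matrix.submatrix_mul_equiv, Matrix.fromBlocks_multiply]
  congr 1
  simp only [Matrix.mul_zero, Matrix.zero_mul, add_zero, zero_add]
  congr 1
  ext i j
  simp [Matrix.mul_apply]

lemma blk_smul_one (c : K) :
    blk (c • (1 : Matrix (Fin m) (Fin m) K)) c = c • (1 : Matrix (Fin (m + 1)) (Fin (m + 1)) K) := by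
  have h : Matrix.fromBlocks (c • (1 : Matrix (Fin m) (Fin m) K)) 0 0
      (Matrix.of fun _ _ : Fin 1 => c) = c • (1 : Matrix (Fin m ⊕ Fin 1) (Fin m ⊕ Fin 1) K) := by
    rw [← Matrix.fromBlocks_one, Matrix.fromBlocks_smul, smul_zero, smul_zero]
    congr 1
    ext i j
    simp [Subsingleton.elim i j]
  rw [blk, h, Matrix.reindex_apply, Matrix.submatrix_smul]
  simp

lemma blk_one : blk (1 : Matrix (Fin m) (Fin m) K) 1 = 1 := by
  have := blk_smul_one (m := m) (1 : K)
  simpa using this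

lemma blk_inj {A B : Matrix (Fin m) (Fin m) K} {d e : K} (h : blk A d = blk B e) :
    A = B ∧ d = e := by
  have h1 := (Matrix.reindex finSumFinEquiv finSumFinEquiv).injective h
  rw [Matrix.fromBlocks_inj] at h1
  refine ⟨h1.1, ?_⟩
  have := congrFun (congrFun h1.2.2.2 0) 0
  simpa using this

lemma blk_det (A : Matrix (Fin m) (Fin m) K) (d : K) : (blk A d).det = A.det * d := by
  rw [blk, Matrix.det_reindex_self, Matrix.det_fromBlocks_zero₂₁]
  simp

lemma blk_map (σ : K ≃+* K) (A : Matrix (Fin m) (Fin m) K) (d : K) :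
    (blk A d).map σ = blk (A.map σ) (σ d) := by
  have h : (Matrix.fromBlocks A 0 0 (Matrix.of fun _ _ : Fin 1 => d)).map σ =
      Matrix.fromBlocks (A.map σ) 0 0 (Matrix.of fun _ _ : Fin 1 => σ d) := by
    rw [Matrix.fromBlocks_map]
    congr 1
    · ext i j; simp
    · ext i j; simp
  rw [blk, blk, ← h]
  rfl

variable [StarRing K]

lemma blk_star (A : Matrix (Fin m) (Fin m) K) (d : K) :
    star (blk A d) = blk (star A) (star d) := by
  rw [blk, blk, Matrix.star_eq_conjTranspose, Matrix.reindex_apply, Matrix.reindex_apply,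
    Matrix.conjTranspose_submatrix, Matrix.fromBlocks_conjTranspose]
  congr 1
  simp only [Matrix.conjTranspose_zero]
  rfl

lemma det_mul_star (g : GU K m) :
    (g : Matrix (Fin m) (Fin m) K).det * star (g : Matrix (Fin m) (Fin m) K).det = 1 := by
  have h := congrArg Matrix.det (Matrix.mem_unitaryGroup_iff.1 g.2)
  rw [Matrix.det_mul, Matrix.det_one, Matrix.star_eq_conjTranspose, Matrix.det_conjTranspose] at h
  exact h

/-- `g ↦ diag(g, det g⁻¹)` -/
def hat : GU K m →* GU K (m + 1) where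
  toFun g := ⟨blk g.1 (star g.1.det), by
    rw [Matrix.mem_unitaryGroup_iff, blk_star, blk_mul, Matrix.mem_unitaryGroup_iff.1 g.2,
      star_star, mul_comm, det_mul_star, blk_one]⟩
  map_one' := Subtype.ext (by
    change blk (1 : Matrix (Fin m) (Fin m) K) (star (1 : Matrix (Fin m) (Fin m) K).det) = 1
    rw [Matrix.det_one, star_one, blk_one])
  map_mul' g h := Subtype.ext (by
    change blk (g.1 * h.1) (star (g.1 * h.1).det) =
      blk g.1 (star g.1.det) * blk h.1 (star h.1.det)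
    rw [blk_mul, Matrix.det_mul, star_mul', mul_comm (star g.1.det)])

lemma hat_coe (g : GU K m) : (hat g : Matrix (Fin (m + 1)) (Fin (m + 1)) K) =
    blk g.1 (star g.1.det) := rfl

lemma hat_mem_SU (g : GU K m) : hat g ∈ SU K (m + 1) := by
  rw [SU, MonoidHom.mem_ker]
  change (blk g.1 (star g.1.det)).det = 1
  rw [blk_det, det_mul_star]

/-- `GU_m(q) → PSU_{m+1}(q) ≤ PΓU_{m+1}(q)` -/
def e8 (K : Type u) [Field K] [StarRing K] (m : ℕ) : GU K m →* PGamU K (m + 1) :=
  (SemidirectProduct.inl.comp (QuotientGroup.mk' (Subgroup.center (GU K (m + 1))))).comp hat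

lemma e8_apply (g : GU K m) : e8 K m g = SemidirectProduct.inl (QuotientGroup.mk (hat g)) := rfl

lemma e8_mem (g : GU K m) : e8 K m g ∈ PSU' K (m + 1) :=
  ⟨_, ⟨_, hat_mem_SU g, rfl⟩, rfl⟩

lemma e8_ker (hcen : ∀ g ∈ Subgroup.center (GU K (m + 1)), ∃ c : K,
      (g : Matrix (Fin (m + 1)) (Fin (m + 1)) K) = c • 1) {g : GU K m} (h : e8 K m g = 1) :
    ∃ c : K, (g : Matrix (Fin m) (Fin m) K) = c • 1 := by
  rw [e8_apply, ← map_one SemidirectProduct.inl, SemidirectProduct.inl_injective.eq_iff] at h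
  obtain ⟨c, hc⟩ := hcen _ ((QuotientGroup.eq_one_iff _).1 h)
  refine ⟨c, ?_⟩
  rw [hat_coe, ← blk_smul_one] at hc
  exact (blk_inj hc).1

lemma mapGU_hat (σ : SA K) (g : GU K m) : mapGU σ (hat g) = hat (mapGU σ g) := by
  apply Subtype.ext
  change (blk g.1 (star g.1.det)).map σ.1 = blk (g.1.map σ.1) (star (g.1.map σ.1).det)
  rw [blk_map, SA_star]
  congr 2
  exact RingEquiv.map_det σ.1 g.1

/-- conjugation by a field automorphism -/
lemma inr_conj {n : ℕ} (σ : SA K) (g : GU K n) :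
    (SemidirectProduct.inr σ : PGamU K n) * SemidirectProduct.inl (QuotientGroup.mk g) *
      (SemidirectProduct.inr σ)⁻¹ = SemidirectProduct.inl (QuotientGroup.mk (mapGU σ g)) := by
  rw [← map_inv]
  exact (SemidirectProduct.inl_aut (φ := act n) σ (QuotientGroup.mk g : PGU K n)).symm

lemma e8_conj (σ : SA K) (g : GU K m) :
    (SemidirectProduct.inr σ : PGamU K (m + 1)) * e8 K m g * (SemidirectProduct.inr σ)⁻¹ =
      e8 K m (mapGU σ g) := by
  rw [e8_apply, e8_apply, inr_conj, mapGU_hat]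

/-- the action on letters -/
def lnU (g : GU K m) (P : Ln K m) : Ln K m :=
  ⟨(g : Matrix (Fin m) (Fin m) K) * P.1 * star (g : Matrix (Fin m) (Fin m) K), by
    obtain ⟨x, hx, hP⟩ := P.2
    refine ⟨(g : Matrix (Fin m) (Fin m) K) *ᵥ x, ?_, ?_⟩
    · rw [← hx, Matrix.star_mulVec, Matrix.dotProduct_mulVec, Matrix.vecMul_vecMul,
        ← Matrix.star_eq_conjTranspose, Matrix.mem_unitaryGroup_iff'.1 g.2, Matrix.vecMul_one]
    · rw [hP, Matrix.mul_vecMulVec, Matrix.star_mulVec, Matrix.vecMulVec_mul,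
        Matrix.star_eq_conjTranspose]⟩

lemma sm_lnU (g : GU K m) (w : List (Ln K m)) : sm (w.map (lnU g)) =
    (g : Matrix (Fin m) (Fin m) K) * sm w * star (g : Matrix (Fin m) (Fin m) K) := by
  induction w with
  | nil => simp [sm]
  | cons P w ih =>
    have h1 : sm (P :: w) = P.1 + sm w := by simp [sm]
    have h2 : sm ((P :: w).map (lnU g)) = (lnU g P).1 + sm (w.map (lnU g)) := by simp [sm]
    rw [h1, h2, ih, Matrix.mul_add, Matrix.add_mul]
    rfl

/-- the matrix in the definition of `eW'` -/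
def M' (ζ : K) (w : List (Ln K m)) : Matrix (Fin (m + 1)) (Fin (m + 1)) K :=
  blk (1 + (ζ - 1) • sm w) ((ζ⁻¹) ^ w.length)

lemma eW'_pos {ζ : K} {w : List (Ln K m)} (h : M' ζ w ∈ Matrix.unitaryGroup (Fin (m + 1)) K) :
    eW' ζ w = QuotientGroup.mk ⟨M' ζ w, h⟩ := by
  unfold eW'
  rw [dif_pos]
  · rfl

lemma eW'_neg {ζ : K} {w : List (Ln K m)} (h : M' ζ w ∉ Matrix.unitaryGroup (Fin (m + 1)) K) :
    eW' ζ w = 1 := by
  unfold eW'
  rw [dif_neg]
  exact h

lemma M'_conj (ζ : K) (g : GU K m) (w : List (Ln K m)) :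
    M' ζ (w.map (lnU g)) = (hat g).1 * M' ζ w * star (hat g).1 := by
  have h1 : star (hat g).1 = blk (star g.1) (g.1.det) := by
    rw [hat_coe, blk_star, star_star]
  rw [h1, hat_coe, M', M', blk_mul, blk_mul, sm_lnU, List.length_map]
  congr 1
  · rw [Matrix.mul_add, Matrix.add_mul, Matrix.mul_one, Matrix.mem_unitaryGroup_iff.1 g.2,
      Matrix.mul_smul, Matrix.smul_mul]
  · rw [mul_comm (star _), mul_assoc, mul_comm (star _), det_mul_star, mul_one]

/-- equivariance of `eW'` -/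
theorem e8_eW' (ζ : K) (g : GU K m) (w : List (Ln K m)) :
    e8 K m g * SemidirectProduct.inl (eW' ζ w) * (e8 K m g)⁻¹ =
      SemidirectProduct.inl (eW' ζ (w.map (lnU g))) := by
  by_cases h : M' ζ w ∈ Matrix.unitaryGroup (Fin (m + 1)) K
  · have h' : M' ζ (w.map (lnU g)) ∈ Matrix.unitaryGroup (Fin (m + 1)) K := by
      rw [M'_conj]
      exact mul_mem (mul_mem (hat g).2 h) ((hat g)⁻¹).2
    rw [eW'_pos h, eW'_pos h', e8_apply, ← map_inv, ← map_mul, ← map_mul]
    congr 1
    rw [← QuotientGroup.mk_inv, ← QuotientGroup.mk_mul, ← QuotientGroup.mk_mul]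
    congr 1
    apply Subtype.ext
    exact (M'_conj ζ g w).symm
  · have h' : M' ζ (w.map (lnU g)) ∉ Matrix.unitaryGroup (Fin (m + 1)) K := by
      intro h'
      apply h
      rw [M'_conj] at h'
      have h2 : star (hat g).1 * ((hat g).1 * M' ζ w * star (hat g).1) * (hat g).1 ∈
          Matrix.unitaryGroup (Fin (m + 1)) K := mul_mem (mul_mem ((hat g)⁻¹).2 h') (hat g).2
      have h3 : star (hat g).1 * ((hat g).1 * M' ζ w * star (hat g).1) * (hat g).1 = M' ζ w := by
        have h4 := Matrix.mem_unitaryGroup_iff'.1 (hat g).2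
        calc _ = (star (hat g).1 * (hat g).1) * M' ζ w * (star (hat g).1 * (hat g).1) := by
              simp only [Matrix.mul_assoc]
          _ = _ := by rw [h4, Matrix.one_mul, Matrix.mul_one]
      rwa [h3] at h2
    rw [eW'_neg h, eW'_neg h', map_one, mul_one, mul_inv_cancel]

lemma sm_map {σ : K ≃+* K} {w : List (Ln K m)} (hw : ∀ P ∈ w, P.1.map σ = P.1) :
    (sm w).map σ = sm w := by
  induction w with
  | nil =>
    ext i j
    simp [sm]
  | cons P w ih =>
    have h1 : sm (P :: w) = P.1 + sm w := by simp [sm]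
    rw [h1, Matrix.map_add σ (map_add σ), hw P (by simp), ih fun Q hQ => hw Q (by simp [hQ])]

/-- `eW'` of words fixed by `σ` commutes with `σ` -/
theorem inr_eW' (σ : SA K) {ζ : K} (hζ : σ.1 ζ = ζ) {w : List (Ln K m)}
    (hw : ∀ P ∈ w, P.1.map σ.1 = P.1) :
    (SemidirectProduct.inr σ : PGamU K (m + 1)) * SemidirectProduct.inl (eW' ζ w) =
      SemidirectProduct.inl (eW' ζ w) * SemidirectProduct.inr σ := by
  have hM : (M' ζ w).map σ.1 = M' ζ w := by
    rw [M', blk_map, map_pow, map_inv₀, hζ, Matrix.map_add σ.1 (map_add σ.1),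
      Matrix.map_one σ.1 (map_zero _) (map_one _)]
    congr 2
    have : ((ζ - 1) • sm w).map σ.1 = (σ.1 (ζ - 1)) • (sm w).map σ.1 := by
      ext i j
      simp
    rw [this, sm_map hw, map_sub, map_one, hζ]
  rw [← mul_inv_eq_iff_eq_mul]
  by_cases h : M' ζ w ∈ Matrix.unitaryGroup (Fin (m + 1)) K
  · rw [eW'_pos h, inr_conj]
    congr 2
    apply Subtype.ext
    exact hM
  · rw [eW'_neg h, map_one, mul_one, mul_inv_cancel]

end

end Vale.Agent.P240.R2.H164
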