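import Vale.Agent.P240.R2.H164.SemiP
import Vale.Agent.P240.R2.H986.StarSU
import Vale.Agent.P240.R2.H296.StmtsB

/-!
`StmtB7`: `p = 2`, the field automorphism of order `2`.
-/

set_option autoImplicit false

namespace Vale.Agent.P240.R2.H164

open Matrix Vale.Agent.P240 Vale.Agent.P240.K Vale.Agent.P240.R2.AS Vale.Agent.P240.R2.H687
open Vale.Agent.P240.R2.H986.St
open scoped Classical

universe u v w

noncomputable section

lemma mk_mem_PSU {K : Type u} [Field K] [StarRing K] {n : ℕ} {g : GU K n}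
    (hg : (g : Matrix (Fin n) (Fin n) K).det = 1) : e1 K n g ∈ PSU' K n :=
  ⟨_, ⟨g, by rw [SU, SetLike.mem_coe, MonoidHom.mem_ker]; exact hg, rfl⟩, rfl⟩

theorem stmtB7_of (h4c : StmtM4c.{u}) (hB1 : StmtB1.{u}) (hB6 : StmtB6.{u}) : StmtB7.{u} := by
  intro K _ _ _ q hq hq11 hK hs n hn hn3 hex σ hσ H hH hσH
  have : Fact (Nat.Prime 2) := ⟨Nat.prime_two⟩
  have h2K : (2 : F0 K) ≠ 0 := two_ne hq hK hs
  have h2K' : (2 : K) ≠ 0 := by
    intro h
    apply h2K
    apply (toK K).injective
    rw [map_ofNat, map_zero, h]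
  have hm1 : (-1 : K) ≠ 1 := by
    intro h
    apply h2K'
    have : (1 : K) + 1 = 0 := by
      nth_rewrite 1 [← h]
      ring
    rw [← one_add_one_eq_two]
    exact this
  have hnorm : (-1 : K) * star (-1 : K) = 1 := by
    rw [star_neg, star_one]
    ring
  have hσ1 : σ ≠ 1 := by
    intro h
    have h1 : ∀ y : K, star y = y := by
      intro y
      rw [← hσ, h]
      rfl
    -- all elements satisfy `x ^ q = x`
    have hc := card_F0 hK hs
    have h2 : Function.Surjective (toK K) := fun x => exists_toK (h1 x)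
    have h3 : Nat.card (F0 K) = Nat.card K :=
      Nat.card_congr (Equiv.ofBijective _ ⟨(toK K).injective, h2⟩)
    rw [hc, hK] at h3
    have : q * 1 < q * q := Nat.mul_lt_mul_of_pos_left (by omega) (by omega)
    rw [pow_two] at h3
    omega
  have hσ2 : σ ^ 2 = 1 := by
    apply Subtype.ext
    ext y
    change σ.1 (σ.1 y) = y
    rw [hσ, hσ, star_star]
  have hCo := h4c K q (by omega) hK hs 2 (-1) (by norm_num) hm1 hnorm n (by omega)
  have hn2 : ¬ 2 ∣ n := by
    exact fun h => (Nat.not_even_iff_odd.2 hn) (even_iff_two_dvd.2 h)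
  have hmemL : ∀ w : List (Ln K n), Orth w → SemidirectProduct.inl (eW (-1 : K) w) ∈ H := by
    intro w hw
    exact hH ⟨_, hB6 K 2 (-1) (by norm_num) hnorm n hn2 w hw, rfl⟩
  have hx : ∀ g, (SemidirectProduct.inr σ : PGamU K n) * e1 K n g *
      (SemidirectProduct.inr σ)⁻¹ = e1 K n (uMap n (starRingEnd K) star_comm g) := by
    intro g
    rw [e1_apply, inr_conj, e1_apply]
    congr 2
    apply Subtype.ext
    rw [uMap_coe]
    ext i j
    exact hσ _
  have hker : ∀ g, e1 K n g = 1 → ∃ c : K, (g : Matrix (Fin n) (Fin n) K) = c • 1 := by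
    intro g hg
    exact (H727.center_iff (by omega) hK hs (by omega) g).1 (e1_eq_one.1 hg)
  have ht : (Fr (F0 K) n).card < 3 * 2 ^ n * t (Fr (F0 K) n) := by
    refine hB1 (F0 K) (star_F0 K) ?_ ?_ n (by omega)
    · rw [card_F0 hK hs]; exact hq
    · rw [card_F0 hK hs]; exact hq11
  have hcount := star_count_SU (n := n) hq hK hs (by
    rcases Nat.lt_or_ge n 5 with h | h
    · right
      have h3 : n = 3 := by
        rcases hn with ⟨k, hk⟩
        omega
      refine ⟨h3, ?_⟩
      rcases hq with ⟨k, hk⟩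
      have : q ≠ 11 := fun h' => hex ⟨h3, h'⟩
      omega
    · left
      exact ⟨h, hq11⟩) (e1 K n) hker (SemidirectProduct.inr σ) hx ht
  have hneg : toK K (-1) = -1 := by rw [map_neg, map_one]
  have hew : ∀ w : List (Ln K n), (SemidirectProduct.inl (eW (-1 : K) w) : PGamU K n) =
      e1 K n (eU (toK K (-1)) (sm w)) := by
    intro w
    rw [hneg]
    rfl
  refine semi_PGamU (by omega) (toK K) (toK_star K) (e1 K n) (fun g => rfl) σ hσ1 hσ2
    (SUg K n) (eW (-1 : K)) hCo H hmemL (fun g hg => hH (mk_mem_PSU (mem_SUg.1 hg))) hσH ?_ hcount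
  intro g _ u v huv
  rw [hew]
  have hφf : ∀ y, (starRingEnd K) (toK K y) = toK K y := by
    intro y
    have := toK_star K y
    rw [star_F0] at this
    exact this.symm
  refine Fg_comm (starRingEnd K) star_comm (toK K) (toK_star K) hφf (e1 K n)
    (SemidirectProduct.inr σ) hx (ζ₀ := -1) (by rw [star_F0]; ring) g
    (v := v.map (lam (toK K) (toK_star K) g)) ?_
  rw [← List.map_append]
  exact map_mem_mapW.2 huv

end

end Vale.Agent.P240.R2.H164
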