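import Vale.Agent.P240.R2.H63.AsFin
import Vale.Agent.P240.R2.H296.StmtsB

/-!
`StmtB8`: the assembly for `p = 2`, `n` odd.
-/

set_option autoImplicit false

namespace Vale.Agent.P240.R2.H164

open Finset Matrix Vale.Agent.P240 Vale.Agent.P240.K Vale.Agent.P240.R2.AS
open Vale.Agent.P240.R2.H275 (QuillenDim quillenDim_sub Tp_map quillenDim_of_rat)
open Vale.Agent.P240.R2.H63.As
open scoped Classical

universe u v

lemma pow_mem_PSU {K : Type u} [Field K] [StarRing K] {n : ℕ} (x : PGU K n) :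
    x ^ n ∈ PSU K n := by
  obtain ⟨g, rfl⟩ := QuotientGroup.mk_surjective x
  set d : K := (g : Matrix (Fin n) (Fin n) K).det with hd
  have hdd : star d * d = 1 := by
    have h := congrArg Matrix.det (Matrix.mem_unitaryGroup_iff'.1 g.2)
    rw [Matrix.det_mul, Matrix.det_one, Matrix.star_eq_conjTranspose,
      Matrix.det_conjTranspose] at h
    exact h
  have hz : (star d) • (1 : Matrix (Fin n) (Fin n) K) ∈ Matrix.unitaryGroup (Fin n) K := by
    rw [Matrix.mem_unitaryGroup_iff, star_smul, star_star, star_one, smul_mul_smul_comm, hdd,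
      one_mul, one_smul]
  have hcen : (⟨_, hz⟩ : GU K n) ∈ Subgroup.center (GU K n) := by
    rw [Subgroup.mem_center_iff]
    intro y
    apply Subtype.ext
    change (y : Matrix (Fin n) (Fin n) K) * ((star d) • 1) = ((star d) • 1) * y
    rw [smul_mul_assoc, mul_smul_comm, one_mul, mul_one]
  refine ⟨g ^ n * ⟨_, hz⟩, ?_, ?_⟩
  · change Matrix.det ((g ^ n * ⟨_, hz⟩ : GU K n) : Matrix (Fin n) (Fin n) K) = 1
    have h1 : ((g ^ n * ⟨_, hz⟩ : GU K n) : Matrix (Fin n) (Fin n) K) =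
      (g : Matrix (Fin n) (Fin n) K) ^ n * ((star d) • 1) := rfl
    rw [h1, Matrix.det_mul, Matrix.det_pow, Matrix.det_smul, Matrix.det_one, mul_one,
      Fintype.card_fin, ← mul_pow, ← hd, mul_comm, hdd, one_pow]
  · rw [QuotientGroup.mk'_apply, QuotientGroup.mk_mul, (QuotientGroup.eq_one_iff _).2 hcen, mul_one,
      QuotientGroup.mk_pow]

lemma mem_PSU_of_sq {K : Type u} [Field K] [StarRing K] {n : ℕ} (hn : Odd n) {x : PGU K n}
    (hx : x ^ 2 = 1) : x ∈ PSU K n := by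
  obtain ⟨k, rfl⟩ := hn
  have h := pow_mem_PSU x
  rwa [pow_add, pow_mul, hx, one_pow, one_mul, pow_one] at h

theorem stmtB8_of (hM4 : StmtM4.{u}) (hM6 : StmtM6.{u, 0}) (hB5 : StmtB5.{u}) (hB6 : StmtB6.{u})
    (hB7 : StmtB7.{u}) (hCYC : StmtCYC.{u}) : StmtB8.{u, v} := by
  intro K _ _ _ q hq hq11 hK hs n hn hn3 hex E hEc hEp 𝕜 _
  apply quillenDim_of_rat
  have : Fact (Nat.Prime 2) := ⟨Nat.prime_two⟩
  have h2q : 2 ∣ q + 1 := by
    obtain ⟨r, rfl⟩ := hq
    exact ⟨r + 1, by ring⟩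
  have hn24 : (2 : ℕ) ≠ 2 ∨ (n ≠ 2 ∧ n ≠ 4) := by
    right
    obtain ⟨r, rfl⟩ := hn
    omega
  have hn2 : ¬ 2 ∣ n := fun h => (Nat.not_even_iff_odd.2 hn) (even_iff_two_dvd.2 h)
  have hm1 : (-1 : K) ≠ 1 := by
    intro h
    have h2 : (2 : K) = 0 := by
      rw [← one_add_one_eq_two]
      nth_rewrite 1 [← h]
      ring
    have h3 : ((q : ℕ) : K) = 0 := by
      have h4 : ((Fintype.card K : ℕ) : K) = 0 := by simp
      rw [← Nat.card_eq_fintype_card, hK] at h4
      push_cast at h4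
      exact pow_eq_zero_iff (two_ne_zero) |>.1 h4
    obtain ⟨r, rfl⟩ := hq
    push_cast at h3
    rw [h2, zero_mul, zero_add] at h3
    exact one_ne_zero h3
  have hnorm : (-1 : K) * star (-1 : K) = 1 := by
    rw [star_neg, star_one]
    ring
  have hall : ∀ w : List (Ln K n), Orth w → eW (-1 : K) w ∈ PSU K n := fun w hw =>
    hB6 K 2 (-1) (by norm_num) hnorm n hn2 w hw
  by_cases hE1 : ∀ x ∈ E, x.right = 1
  · have hE : E ≤ PSU' K n := by
      intro x hx
      have h1 := mem_range_il (hE1 x hx)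
      refine ⟨x.left, mem_PSU_of_sq hn ?_, h1⟩
      apply il_inj
      rw [map_pow, h1, map_one, hEp x hx]
    rw [sup_eq_left.2 hE]
    have h1 : PSU' K n = (PSU K n).map (il K n) := rfl
    rw [h1, qd_map il_inj]
    exact hM6 K q (by omega) hK hs 2 h2q n (by omega) hn24 (-1) (by norm_num) hm1 _ hall ℚ
  · push Not at hE1
    obtain ⟨x, hxE, hx1⟩ := hE1
    obtain ⟨hstar, h, hxh⟩ := hB5 K q hq (by omega) hK hs n hn x (hEp x hxE) hx1
    set σ := x.right with hσ
    set g : PGamU K n := SemidirectProduct.inl h with hg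
    set E' := E.map (MulAut.conj g⁻¹).toMonoidHom with hE'
    have hE'c : ∀ x ∈ E', ∀ y ∈ E', x * y = y * x := by
      rintro _ ⟨a, ha, rfl⟩ _ ⟨b, hb, rfl⟩
      rw [← map_mul, ← map_mul, hEc a ha b hb]
    have hinr : SemidirectProduct.inr σ ∈ E' := by
      refine ⟨x, hxE, ?_⟩
      change g⁻¹ * x * g⁻¹⁻¹ = _
      rw [hxh]
      group
    have hH : (PSU' K n ⊔ E).map (MulAut.conj g⁻¹).toMonoidHom = PSU' K n ⊔ E' := by
      rw [Subgroup.map_sup]
      congr 1
      apply le_antisymm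
      · rintro _ ⟨a, ha, rfl⟩
        exact psu'_normal.conj_mem a ha g⁻¹
      · intro a ha
        refine ⟨g * a * g⁻¹, psu'_normal.conj_mem a ha g, ?_⟩
        change g⁻¹ * (g * a * g⁻¹) * g⁻¹⁻¹ = a
        group
    rw [← qd_map (f := (MulAut.conj g⁻¹).toMonoidHom) (MulAut.conj g⁻¹).injective, hH]
    refine qd_of _ n ?_ (hB7 K q hq hq11 hK hs n hn hn3 hex σ hstar _ le_sup_left
      (Subgroup.mem_sup_right hinr))
    intro D _ hDc hDp
    refine (hCYC K 2 n D hDc hDp).trans ?_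
    rw [card_inf_ker]
    have := hM4 K q (by omega) hK hs 2 h2q n (by omega) hn24 (D.comap (il K n))
      (comap_comm hDc) (comap_pow hDp)
    calc 2 * Nat.card (D.comap (il K n)) ≤ 2 * 2 ^ (n - 1) := Nat.mul_le_mul_left _ this
      _ = 2 ^ n := by rw [← pow_succ']; congr 1; omega

end Vale.Agent.P240.R2.H164
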