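import Vale.Agent.P240.H195.SixConn

/-!
The poset of elementary abelian `2`-subgroups is connected if every member of a generating set
commutes with an involution connected to a given one.
-/

set_option autoImplicit false

namespace Vale.Agent.P240.R2.H164.Con

open Subgroup Vale.Agent.P240.K Vale.Agent.P240.H195
open scoped Pointwise

universe u

section
variable {L : Type u} [Group L]

/-- chains of commuting involutions -/
def Cc (z w : L) : Prop :=
  Relation.ReflTransGen (fun a b : L => a * b = b * a ∧ a ^ 2 = 1 ∧ a ≠ 1 ∧ b ^ 2 = 1 ∧ b ≠ 1) z w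

lemma Cc.refl (z : L) : Cc z z := Relation.ReflTransGen.refl

lemma Cc.trans {x y z : L} (h : Cc x y) (h' : Cc y z) : Cc x z := Relation.ReflTransGen.trans h h'

lemma Cc.symm {x y : L} (h : Cc x y) : Cc y x := by
  induction h with
  | refl => exact Relation.ReflTransGen.refl
  | tail _ hbc ih =>
    exact Relation.ReflTransGen.trans (Relation.ReflTransGen.single
      ⟨hbc.1.symm, hbc.2.2.2.1, hbc.2.2.2.2, hbc.2.1, hbc.2.2.1⟩) ih

lemma Cc.single {a b : L} (h : a * b = b * a) (ha : a ^ 2 = 1) (ha1 : a ≠ 1) (hb : b ^ 2 = 1)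
    (hb1 : b ≠ 1) : Cc a b := Relation.ReflTransGen.single ⟨h, ha, ha1, hb, hb1⟩

lemma Cc.cj {x y : L} (h : Cc x y) (g : L) : Cc (g * x * g⁻¹) (g * y * g⁻¹) := by
  induction h with
  | refl => exact Relation.ReflTransGen.refl
  | @tail b c _ hbc ih =>
    refine Relation.ReflTransGen.trans ih (Relation.ReflTransGen.single ⟨?_, ?_, ?_, ?_, ?_⟩)
    · have := hbc.1
      calc g * b * g⁻¹ * (g * c * g⁻¹) = g * (b * c) * g⁻¹ := by group
        _ = g * (c * b) * g⁻¹ := by rw [this]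
        _ = g * c * g⁻¹ * (g * b * g⁻¹) := by group
    · rw [conj_pow, hbc.2.1, mul_one, mul_inv_cancel]
    · intro h0
      exact hbc.2.2.1 (by rwa [conj_eq_one_iff] at h0)
    · rw [conj_pow, hbc.2.2.2.1, mul_one, mul_inv_cancel]
    · intro h0
      exact hbc.2.2.2.2 (by rwa [conj_eq_one_iff] at h0)

/-- the stabilizer of the component of `t` -/
def Mt (t : L) : Subgroup L where
  carrier := {g | Cc t (g * t * g⁻¹)}
  one_mem' := by
    show Cc t (1 * t * 1⁻¹)
    rw [one_mul, inv_one, mul_one]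
    exact Cc.refl t
  mul_mem' := by
    intro a b ha hb
    show Cc t (a * b * t * (a * b)⁻¹)
    have h := Cc.trans ha (Cc.cj hb a)
    have e : a * b * t * (a * b)⁻¹ = a * (b * t * b⁻¹) * a⁻¹ := by group
    rw [e]
    exact h
  inv_mem' := by
    intro a ha
    show Cc t (a⁻¹ * t * a⁻¹⁻¹)
    have h := (Cc.cj ha a⁻¹).symm
    have e : a⁻¹ * (a * t * a⁻¹) * a⁻¹⁻¹ = t := by group
    rwa [e] at h

lemma mem_Mt {t g s : L} (hs : Cc t s) (h : g * s = s * g) : g ∈ Mt t := by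
  show Cc t (g * t * g⁻¹)
  have h1 := (Cc.cj hs g).symm
  have e : g * s * g⁻¹ = s := by rw [h, mul_inv_cancel_right]
  rw [e] at h1
  exact hs.trans h1

/-- every involution is connected to a conjugate of `t` -/
lemma exists_cj [Finite L] {t s : L} (ht : t ^ 2 = 1) (ht1 : t ≠ 1) (hs : s ^ 2 = 1) (hs1 : s ≠ 1) :
    ∃ g : L, Cc (g * t * g⁻¹) s := by
  have : Fact (Nat.Prime 2) := ⟨Nat.prime_two⟩
  have hz : ∀ x : L, x ^ 2 = 1 → IsPGroup 2 (zpowers x) := by
    intro x hx y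
    obtain ⟨k, hk⟩ := y.2
    refine ⟨1, Subtype.ext ?_⟩
    have hk' : x ^ k = y.1 := hk
    rw [pow_one, Subgroup.coe_pow, ← hk', ← zpow_natCast, ← zpow_mul, mul_comm, zpow_mul,
      zpow_natCast, hx, one_zpow, Subgroup.coe_one]
  obtain ⟨P, hP⟩ := (hz t ht).exists_le_sylow
  obtain ⟨Q, hQ⟩ := (hz s hs).exists_le_sylow
  obtain ⟨g, hg⟩ := MulAction.exists_smul_eq L P Q
  have htP : t ∈ (P : Subgroup L) := hP (mem_zpowers t)
  have hsQ : s ∈ (Q : Subgroup L) := hQ (mem_zpowers s)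
  have hnt : Nontrivial (P : Subgroup L) := ⟨⟨⟨t, htP⟩, 1, fun h => ht1 (congrArg Subtype.val h)⟩⟩
  have hc : Nontrivial (center (P : Subgroup L)) := P.2.center_nontrivial
  obtain ⟨⟨z, hzc⟩, hz1⟩ := exists_ne (1 : center (P : Subgroup L))
  have hz1' : z ≠ 1 := fun h => hz1 (Subtype.ext h)
  -- an element of order `2` of the centre
  obtain ⟨w, hw, hw2, hw1⟩ : ∃ w ∈ center (P : Subgroup L), w ^ 2 = 1 ∧ w ≠ 1 := by
    obtain ⟨k, hk⟩ := P.2 z
    have hex : ∃ n, z ^ 2 ^ n = 1 := ⟨k, hk⟩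
    classical
    have hn := Nat.find_spec hex
    have hn0 : Nat.find hex ≠ 0 := by
      intro h0
      rw [h0, pow_zero, pow_one] at hn
      exact hz1' hn
    obtain ⟨n, hn'⟩ := Nat.exists_eq_succ_of_ne_zero hn0
    refine ⟨z ^ 2 ^ n, pow_mem hzc _, ?_, ?_⟩
    · rw [← pow_mul, ← pow_succ, ← Nat.succ_eq_add_one, ← hn']
      exact hn
    · exact Nat.find_min hex (by omega)
  have hw2' : w.1 ^ 2 = 1 := by rw [← Subgroup.coe_pow, hw2, Subgroup.coe_one]
  have hw1' : w.1 ≠ 1 := fun h => hw1 (Subtype.ext h)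
  have hcm : ∀ x ∈ (P : Subgroup L), x * w.1 = w.1 * x := by
    intro x hx
    exact congrArg Subtype.val (mem_center_iff.1 hw ⟨x, hx⟩)
  refine ⟨g, (Cc.cj (Cc.single (hcm t htP) ht ht1 hw2' hw1') g).trans (Cc.single ?_ ?_ ?_ hs hs1)⟩
  · have h1 : g⁻¹ * s * g ∈ (P : Subgroup L) := by
      rw [← hg] at hsQ
      have h2 : s ∈ MulAut.conj g • (P : Subgroup L) := hsQ
      rw [Subgroup.mem_pointwise_smul_iff_inv_smul_mem] at h2
      have h3 : (MulAut.conj g)⁻¹ • s = g⁻¹ * s * g := by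
        rw [MulAut.smul_def, ← map_inv, MulAut.conj_apply, inv_inv]
      rwa [h3] at h2
    have h2 := hcm _ h1
    calc g * w.1 * g⁻¹ * s = g * (w.1 * (g⁻¹ * s * g)) * g⁻¹ := by group
      _ = g * (g⁻¹ * s * g * w.1) * g⁻¹ := by rw [h2]
      _ = s * (g * w.1 * g⁻¹) := by group
  · rw [conj_pow, hw2', mul_one, mul_inv_cancel]
  · intro h0
    exact hw1' (by rwa [conj_eq_one_iff] at h0)

lemma Cc.rl {z w : L} (h : Cc z w) : ∀ (hz : z ^ 2 = 1) (hz1 : z ≠ 1) (hw : w ^ 2 = 1)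
    (hw1 : w ≠ 1), Rl L (Zi z hz hz1) (Zi w hw hw1) := by
  induction h with
  | refl => exact fun _ _ _ _ => Relation.ReflTransGen.refl
  | @tail b c _ hbc ih =>
    intro hz hz1 hw hw1
    exact (ih hz hz1 hbc.2.1 hbc.2.2.1).trans (rl_comm hbc.1)

/-- **connectedness criterion** -/
theorem conn_of [Finite L] {t : L} (ht : t ^ 2 = 1) (ht1 : t ≠ 1) {T : Set L}
    (hT : closure T = ⊤) (h : ∀ g ∈ T, ∃ s, Cc t s ∧ g * s = s * g) (X Y : Ap 2 L) :
    Relation.ReflTransGen (fun X Y : Ap 2 L => X ≤ Y ∨ Y ≤ X) X Y := by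
  have htop : Mt t = ⊤ := by
    rw [eq_top_iff, ← hT, closure_le]
    intro g hg
    obtain ⟨s, h1, h2⟩ := h g hg
    exact mem_Mt h1 h2
  have key : ∀ X : Ap 2 L, Rl L (Zi t ht ht1) X := by
    intro X
    obtain ⟨z, hz, hne⟩ := X.1.bot_or_exists_ne_one.resolve_left X.2.1
    have hz2 : z ^ 2 = 1 := X.2.2.2 z hz
    obtain ⟨g, hg⟩ := exists_cj ht ht1 hz2 hne
    have h1 : Cc t (g * t * g⁻¹) := by
      have : g ∈ Mt t := by rw [htop]; exact mem_top g
      exact this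
    exact ((h1.trans hg).rl ht ht1 hz2 hne).trans
      (Relation.ReflTransGen.single (Or.inl (zpowers_le.2 hz)))
  exact (key X).symm.trans (key Y)

/-- the criterion for a simple group and a set stable under conjugation -/
theorem conn_simple [Finite L] [IsSimpleGroup L] {t : L} (ht : t ^ 2 = 1) (ht1 : t ≠ 1) {T : Set L}
    (hTc : ∀ x ∈ T, ∀ g : L, g * x * g⁻¹ ∈ T) (hT1 : ∃ x ∈ T, x ≠ 1)
    (h : ∀ g ∈ T, ∃ s, Cc t s ∧ g * s = s * g) (X Y : Ap 2 L) :
    Relation.ReflTransGen (fun X Y : Ap 2 L => X ≤ Y ∨ Y ≤ X) X Y := by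
  refine conn_of ht ht1 (T := T) ?_ h X Y
  have hN : (closure T).Normal := by
    constructor
    intro x hx g
    induction hx using closure_induction with
    | mem x hx => exact subset_closure (hTc x hx g)
    | one => rw [mul_one, mul_inv_cancel]; exact one_mem _
    | mul x y _ _ hx hy =>
      have e : g * (x * y) * g⁻¹ = g * x * g⁻¹ * (g * y * g⁻¹) := by group
      rw [e]
      exact mul_mem hx hy
    | inv x _ hx =>
      have e : g * x⁻¹ * g⁻¹ = (g * x * g⁻¹)⁻¹ := by group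
      rw [e]
      exact inv_mem hx
  rcases hN.eq_bot_or_eq_top with h0 | h0
  · obtain ⟨x, hx, hx1⟩ := hT1
    exact absurd ((closure_eq_bot_iff.1 h0) hx) hx1
  · exact h0

end

end Vale.Agent.P240.R2.H164.Con
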