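import Vale.Agent.P240.R2.H164.Con1
import Vale.Agent.P240.R2.H715.SpDefs

/-!
The poset of elementary abelian `2`-subgroups of `PSp_{2m}(q)`, `m ≥ 2`, `q` odd, is connected.
-/

set_option autoImplicit false

namespace Vale.Agent.P240.R2.H164.Con

open Matrix Subgroup Vale.Agent.P240.K Vale.Agent.P240.H195

universe u v

noncomputable section

variable {K : Type u} [Field K] {m : ℕ}

/-- the alternating form -/
def al (x y : Fin m ⊕ Fin m → K) : K := x ⬝ᵥ (J (Fin m) K *ᵥ y)

lemma al_add_left (x y z : Fin m ⊕ Fin m → K) : al (x + y) z = al x z + al y z := by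
  simp [al, add_dotProduct]

lemma al_add_right (x y z : Fin m ⊕ Fin m → K) : al x (y + z) = al x y + al x z := by
  simp [al, mulVec_add, dotProduct_add]

lemma al_sub_right (x y z : Fin m ⊕ Fin m → K) : al x (y - z) = al x y - al x z := by
  simp [al, mulVec_sub, dotProduct_sub]

lemma al_sub_left (x y z : Fin m ⊕ Fin m → K) : al (x - y) z = al x z - al y z := by
  simp [al, sub_dotProduct]

lemma al_neg_left (x y : Fin m ⊕ Fin m → K) : al (-x) y = - al x y := by
  simp [al]

lemma al_neg_right (x y : Fin m ⊕ Fin m → K) : al x (-y) = - al x y := by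
  simp [al, mulVec_neg]

lemma al_smul_left (c : K) (x y : Fin m ⊕ Fin m → K) : al (c • x) y = c * al x y := by
  simp [al]

lemma al_smul_right (c : K) (x y : Fin m ⊕ Fin m → K) : al x (c • y) = c * al x y := by
  simp [al, mulVec_smul]

lemma dot_tr {ι : Type*} [Fintype ι] (A : Matrix ι ι K) (x z : ι → K) :
    (A *ᵥ x) ⬝ᵥ z = x ⬝ᵥ (Aᵀ *ᵥ z) := by
  rw [dotProduct_comm, dotProduct_mulVec, ← mulVec_transpose, dotProduct_comm]

lemma al_comm (x y : Fin m ⊕ Fin m → K) : al x y = - al y x := by
  unfold al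
  rw [dotProduct_comm, dot_tr, J_transpose, neg_mulVec, dotProduct_neg]

lemma al_eq (x y : Fin m ⊕ Fin m → K) :
    al x y = ∑ i, (x (Sum.inr i) * y (Sum.inl i) - x (Sum.inl i) * y (Sum.inr i)) := by
  unfold al J
  rw [dotProduct, Fintype.sum_sum_type]
  simp [fromBlocks_mulVec, Finset.sum_sub_distrib, neg_mulVec]
  ring

lemma al_self (x : Fin m ⊕ Fin m → K) : al x x = 0 := by
  rw [al_eq]
  refine Finset.sum_eq_zero fun i _ => by ring

lemma al_mem (g : Vale.Agent.P240.R2.H715.Sy K m) (x y : Fin m ⊕ Fin m → K) :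
    al (g.1 *ᵥ x) (g.1 *ᵥ y) = al x y := by
  have h : (g.1)ᵀ * J (Fin m) K * g.1 = J (Fin m) K := SymplecticGroup.mem_iff'.1 g.2
  unfold al
  rw [dot_tr, mulVec_mulVec, mulVec_mulVec, h]

lemma ext_mulVec {ι : Type*} [Fintype ι] [DecidableEq ι] {A B : Matrix ι ι K}
    (h : ∀ x, A *ᵥ x = B *ᵥ x) : A = B := by
  ext i j
  have := congrFun (h (Pi.single j 1)) i
  simpa using this

/-- a matrix preserving the form is symplectic -/
lemma mem_of_al {A : Matrix (Fin m ⊕ Fin m) (Fin m ⊕ Fin m) K}
    (h : ∀ x y, al (A *ᵥ x) (A *ᵥ y) = al x y) : A ∈ symplecticGroup (Fin m) K := by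
  rw [SymplecticGroup.mem_iff']
  ext i j
  have h1 := h (Pi.single i 1) (Pi.single j 1)
  unfold al at h1
  rw [dot_tr, mulVec_mulVec, mulVec_mulVec] at h1
  simpa using h1

lemma vv_mulVec (u w x : Fin m ⊕ Fin m → K) :
    (vecMulVec u w * J (Fin m) K) *ᵥ x = al w x • u := by
  rw [← mulVec_mulVec]
  unfold al
  generalize J (Fin m) K *ᵥ x = z
  ext i
  simp only [mulVec, dotProduct, vecMulVec_apply, Pi.smul_apply, smul_eq_mul, Finset.sum_mul]
  refine Finset.sum_congr rfl fun j _ => by ring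

/-- minus the identity on the plane spanned by `a`, `b` (`al a b = 1`), the identity on the
orthogonal complement -/
def Em (a b : Fin m ⊕ Fin m → K) : Matrix (Fin m ⊕ Fin m) (Fin m ⊕ Fin m) K :=
  1 - (2 : K) • ((vecMulVec b a - vecMulVec a b) * J (Fin m) K)

lemma Em_mulVec (a b x : Fin m ⊕ Fin m → K) :
    Em a b *ᵥ x = x - (2 * al a x) • b + (2 * al b x) • a := by
  unfold Em
  rw [sub_mulVec, one_mulVec, smul_mulVec, Matrix.sub_mul, sub_mulVec, vv_mulVec, vv_mulVec]
  ext i
  simp
  ring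

lemma Em_mem {a b : Fin m ⊕ Fin m → K} (h : al a b = 1) : Em a b ∈ symplecticGroup (Fin m) K := by
  refine mem_of_al fun x y => ?_
  have h1 : al b a = -1 := by rw [al_comm, h]
  simp only [Em_mulVec, al_add_left, al_add_right, al_sub_left, al_sub_right, al_smul_left,
    al_smul_right, al_self, h, h1, al_comm x a, al_comm x b]
  ring

/-- the symplectic involution of the plane spanned by `a`, `b` -/
def Es {a b : Fin m ⊕ Fin m → K} (h : al a b = 1) : Vale.Agent.P240.R2.H715.Sy K m :=
  ⟨Em a b, Em_mem h⟩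

lemma Es_sq {a b : Fin m ⊕ Fin m → K} (h : al a b = 1) : Es h * Es h = 1 := by
  apply Subtype.ext
  show Em a b * Em a b = 1
  have h1 : al b a = -1 := by rw [al_comm, h]
  refine ext_mulVec fun x => ?_
  rw [← mulVec_mulVec, one_mulVec]
  simp only [Em_mulVec, al_add_right, al_sub_right, al_smul_right, al_self, h, h1]
  ext i
  simp
  ring

/-- the transvection -/
def Tm (v : Fin m ⊕ Fin m → K) (s : K) : Matrix (Fin m ⊕ Fin m) (Fin m ⊕ Fin m) K :=
  1 + s • (vecMulVec v v * J (Fin m) K)

lemma Tm_mulVec (v : Fin m ⊕ Fin m → K) (s : K) (x : Fin m ⊕ Fin m → K) :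
    Tm v s *ᵥ x = x + (s * al v x) • v := by
  unfold Tm
  rw [add_mulVec, one_mulVec, smul_mulVec, vv_mulVec, smul_smul]

/-- the transvection as an element of the symplectic group -/
def Ts (v : Fin m ⊕ Fin m → K) (s : K) : Vale.Agent.P240.R2.H715.Sy K m :=
  ⟨Tm v s, mem_of_al fun x y => by
    simp only [Tm_mulVec, al_add_left, al_add_right, al_smul_left, al_smul_right, al_self,
      al_comm x v]
    ring⟩

lemma Ts_conj (g : Vale.Agent.P240.R2.H715.Sy K m) (v : Fin m ⊕ Fin m → K) (s : K) :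
    g * Ts v s = Ts (g.1 *ᵥ v) s * g := by
  apply Subtype.ext
  show g.1 * Tm v s = Tm (g.1 *ᵥ v) s * g.1
  refine ext_mulVec fun x => ?_
  rw [← mulVec_mulVec, ← mulVec_mulVec, Tm_mulVec, Tm_mulVec, al_mem, mulVec_add, mulVec_smul]

lemma Ts_neg (v : Fin m ⊕ Fin m → K) (s : K) : Ts (-v) s = Ts v s := by
  apply Subtype.ext
  show Tm (-v) s = Tm v s
  refine ext_mulVec fun x => ?_
  rw [Tm_mulVec, Tm_mulVec, al_neg_left]
  simp

section planes
variable {a b c d : Fin m ⊕ Fin m → K}

/-- the involutions of orthogonal planes commute -/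
lemma Es_comm (h1 : al a b = 1) (h2 : al c d = 1) (hac : al a c = 0) (had : al a d = 0)
    (hbc : al b c = 0) (hbd : al b d = 0) : Es h1 * Es h2 = Es h2 * Es h1 := by
  apply Subtype.ext
  show Em a b * Em c d = Em c d * Em a b
  have hca : al c a = 0 := by rw [al_comm, hac, neg_zero]
  have hda : al d a = 0 := by rw [al_comm, had, neg_zero]
  have hcb : al c b = 0 := by rw [al_comm, hbc, neg_zero]
  have hdb : al d b = 0 := by rw [al_comm, hbd, neg_zero]
  refine ext_mulVec fun x => ?_
  rw [← mulVec_mulVec, ← mulVec_mulVec]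
  simp only [Em_mulVec, al_add_right, al_sub_right, al_smul_right, hac, had, hbc, hbd, hca, hda,
    hcb, hdb]
  ext i
  simp
  ring

lemma al_diag (h2' : (2 : K) ≠ 0) (h1 : al a b = 1) (h2 : al c d = 1) (had : al a d = 0)
    (hbc : al b c = 0) : al (a + c) ((2 : K)⁻¹ • (b + d)) = 1 := by
  have hcb : al c b = 0 := by rw [al_comm, hbc, neg_zero]
  rw [al_smul_right, al_add_left, al_add_right, al_add_right, h1, h2, had, hcb]
  field_simp
  ring

/-- the involution of the diagonal plane exchanges the two planes -/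
lemma Es_swap (h2' : (2 : K) ≠ 0) (h1 : al a b = 1) (h2 : al c d = 1) (hac : al a c = 0)
    (had : al a d = 0) (hbc : al b c = 0) (hbd : al b d = 0) :
    Es (al_diag h2' h1 h2 had hbc) * Es h1 = Es h2 * Es (al_diag h2' h1 h2 had hbc) := by
  apply Subtype.ext
  show Em (a + c) ((2 : K)⁻¹ • (b + d)) * Em a b = Em c d * Em (a + c) ((2 : K)⁻¹ • (b + d))
  have hca : al c a = 0 := by rw [al_comm, hac, neg_zero]
  have hda : al d a = 0 := by rw [al_comm, had, neg_zero]
  have hcb : al c b = 0 := by rw [al_comm, hbc, neg_zero]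
  have hdb : al d b = 0 := by rw [al_comm, hbd, neg_zero]
  have hba : al b a = -1 := by rw [al_comm, h1]
  have hdc : al d c = -1 := by rw [al_comm, h2]
  refine ext_mulVec fun x => ?_
  rw [← mulVec_mulVec, ← mulVec_mulVec]
  simp only [Em_mulVec, al_add_right, al_add_left, al_sub_right, al_smul_right, al_smul_left,
    al_self, hac, had, hbc, hbd, hca, hda, hcb, hdb, h1, h2, hba, hdc]
  ext i
  simp
  field_simp
  ring

/-- conjugation the other way round -/
lemma Es_swap' (h2' : (2 : K) ≠ 0) (h1 : al a b = 1) (h2 : al c d = 1) (hac : al a c = 0)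
    (had : al a d = 0) (hbc : al b c = 0) (hbd : al b d = 0) :
    Es (al_diag h2' h1 h2 had hbc) * Es h2 = Es h1 * Es (al_diag h2' h1 h2 had hbc) := by
  have h := Es_swap h2' h1 h2 hac had hbc hbd
  have h3 := Es_sq (al_diag h2' h1 h2 had hbc)
  set e := Es (al_diag h2' h1 h2 had hbc) with he
  calc e * Es h2 = e * Es h2 * (e * e) := by rw [h3, mul_one]
    _ = e * (Es h2 * e) * e := by group
    _ = e * (e * Es h1) * e := by rw [h]
    _ = (e * e) * Es h1 * e := by group
    _ = Es h1 * e := by rw [h3, one_mul]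

end planes

lemma Ts_central {g : Vale.Agent.P240.R2.H715.Sy K m} (hg : g ∈ center (Vale.Agent.P240.R2.H715.Sy K m))
    (v : Fin m ⊕ Fin m → K) (s : K) : Tm (g.1 *ᵥ v) s = Tm v s := by
  have h1 := Ts_conj g v s
  have h2 : Ts v s * g = g * Ts v s := mem_center_iff.1 hg _
  rw [← h2] at h1
  exact (congrArg Subtype.val (mul_right_cancel h1)).symm

lemma Es_notin {a b c : Fin m ⊕ Fin m → K} (h2' : (2 : K) ≠ 0) (h : al a b = 1) (hac : al a c = 0)
    (hbc : al b c = 0) (hc : c ≠ 0) : Es h ∉ center (Vale.Agent.P240.R2.H715.Sy K m) := by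
  intro h0
  have hcb : al c b = 0 := by rw [al_comm, hbc, neg_zero]
  have hba : al b a = -1 := by rw [al_comm, h]
  have h1 := Ts_central h0 (a + c) 1
  have h3 := congrArg (fun A => A *ᵥ b) h1
  simp only [Tm_mulVec] at h3
  have h4 : (Es h).1 *ᵥ (a + c) = c - a := by
    show Em a b *ᵥ (a + c) = c - a
    rw [Em_mulVec, al_add_right, al_add_right, al_self, hac, hbc, hba]
    ext i
    simp
    ring
  rw [h4, al_sub_left, al_add_left, h, hcb] at h3
  apply hc
  ext i
  have h5 := congrFun h3 i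
  simp at h5
  have h6 : 2 * c i = 0 := by linear_combination -h5
  exact (mul_eq_zero.1 h6).resolve_left h2'

section main
variable {a b c d : Fin m ⊕ Fin m → K}

lemma mk_ne {g : Vale.Agent.P240.R2.H715.Sy K m} (h : g ∉ center (Vale.Agent.P240.R2.H715.Sy K m)) :
    (QuotientGroup.mk g : Vale.Agent.P240.R2.H715.Sy K m ⧸ center (Vale.Agent.P240.R2.H715.Sy K m)) ≠ 1 :=
  fun h0 => h ((QuotientGroup.eq_one_iff g).1 h0)

/-- the involution of a plane is connected to the one of the diagonal plane -/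
lemma cc_diag (h2' : (2 : K) ≠ 0) (h1 : al a b = 1) (h2 : al c d = 1) (hac : al a c = 0)
    (had : al a d = 0) (hbc : al b c = 0) (hbd : al b d = 0) :
    Cc (QuotientGroup.mk (Es h1) : Vale.Agent.P240.R2.H715.Sy K m ⧸ center (Vale.Agent.P240.R2.H715.Sy K m))
      (QuotientGroup.mk (Es (al_diag h2' h1 h2 had hbc))) := by
  have hba : al b a = -1 := by rw [al_comm, h1]
  have hdc : al d c = -1 := by rw [al_comm, h2]
  have hca : al c a = 0 := by rw [al_comm, hac, neg_zero]
  have hda : al d a = 0 := by rw [al_comm, had, neg_zero]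
  have hcb : al c b = 0 := by rw [al_comm, hbc, neg_zero]
  have hc0 : c ≠ 0 := by
    rintro rfl
    simp [al] at h2
  set t : Vale.Agent.P240.R2.H715.Sy K m ⧸ center (Vale.Agent.P240.R2.H715.Sy K m) :=
    QuotientGroup.mk (Es h1) with ht
  set t' : Vale.Agent.P240.R2.H715.Sy K m ⧸ center (Vale.Agent.P240.R2.H715.Sy K m) :=
    QuotientGroup.mk (Es h2) with ht'
  set e : Vale.Agent.P240.R2.H715.Sy K m ⧸ center (Vale.Agent.P240.R2.H715.Sy K m) :=
    QuotientGroup.mk (Es (al_diag h2' h1 h2 had hbc)) with he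
  have htt : t * t = 1 := by rw [ht, ← QuotientGroup.mk_mul, Es_sq, QuotientGroup.mk_one]
  have htt' : t' * t' = 1 := by rw [ht', ← QuotientGroup.mk_mul, Es_sq, QuotientGroup.mk_one]
  have hee : e * e = 1 := by rw [he, ← QuotientGroup.mk_mul, Es_sq, QuotientGroup.mk_one]
  have hcm : t * t' = t' * t := by
    rw [ht, ht', ← QuotientGroup.mk_mul, ← QuotientGroup.mk_mul, Es_comm h1 h2 hac had hbc hbd]
  have hsw : e * t = t' * e := by
    rw [ht, ht', he, ← QuotientGroup.mk_mul, ← QuotientGroup.mk_mul, Es_swap h2' h1 h2 hac had hbc hbd]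
  have hsw' : e * t' = t * e := by
    rw [ht, ht', he, ← QuotientGroup.mk_mul, ← QuotientGroup.mk_mul, Es_swap' h2' h1 h2 hac had hbc hbd]
  have ht1 : t ≠ 1 := mk_ne (Es_notin h2' h1 hac hbc hc0)
  have he1 : e ≠ 1 := by
    refine mk_ne (Es_notin h2' _ (c := a - c) ?_ ?_ ?_)
    · simp only [al_add_left, al_sub_right, al_self, hac, hca]; ring
    · simp only [al_smul_left, al_add_left, al_sub_right, hba, hbc, hda, hdc]; ring
    · intro h0
      have h3 : al (a - c) b = 0 := by rw [h0]; simp [al]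
      rw [al_sub_left, h1, hcb] at h3
      simp at h3
  by_cases hz : t * t' = 1
  · have h3 : t' = t := by
      calc t' = (t * t) * t' := by rw [htt, one_mul]
        _ = t * (t * t') := by group
        _ = t := by rw [hz, mul_one]
    rw [h3] at hsw
    exact Cc.single hsw.symm (by rw [pow_two]; exact htt) ht1 (by rw [pow_two]; exact hee) he1
  · have hz2 : (t * t') ^ 2 = 1 := by
      rw [pow_two]
      calc t * t' * (t * t') = t * (t' * t) * t' := by group
        _ = t * (t * t') * t' := by rw [hcm]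
        _ = (t * t) * (t' * t') := by group
        _ = 1 := by rw [htt, htt', one_mul]
    refine (Cc.single (b := t * t') ?_ (by rw [pow_two]; exact htt) ht1 hz2 hz).trans
      (Cc.single ?_ hz2 hz (by rw [pow_two]; exact hee) he1)
    · rw [mul_assoc t t' t, ← hcm]
    · calc t * t' * e = t' * t * e := by rw [hcm]
        _ = t' * (t * e) := by group
        _ = t' * (e * t') := by rw [hsw']
        _ = (t' * e) * t' := by group
        _ = e * t * t' := by rw [hsw]
        _ = e * (t * t') := by group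

/-- the involution depends only on the plane -/
lemma Em_plane (x y x' y' : K) (h : al a b = 1) (h' : al (x • a + y • b) (x' • a + y' • b) = 1) :
    Em (x • a + y • b) (x' • a + y' • b) = Em a b := by
  have hba : al b a = -1 := by rw [al_comm, h]
  have h1 : x * y' - y * x' = 1 := by
    rw [← h']
    simp only [al_add_left, al_add_right, al_smul_left, al_smul_right, al_self, h, hba]
    ring
  refine ext_mulVec fun z => ?_
  simp only [Em_mulVec, al_add_left, al_smul_left]
  ext i
  simp
  linear_combination (-2 * al a z * b i + 2 * al b z * a i) * h1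

/-- a transvection commutes with the involution of a plane containing its centre -/
lemma comm_of_neg (h : al a b = 1) {v : Fin m ⊕ Fin m → K} {s : K}
    (hv : Em a b *ᵥ v = -v ∨ Em a b *ᵥ v = v) : Ts v s * Es h = Es h * Ts v s := by
  have h1 := Ts_conj (Es h) v s
  have h2 : Ts ((Es h).1 *ᵥ v) s = Ts v s := by
    rcases hv with h3 | h3
    · show Ts (Em a b *ᵥ v) s = _
      rw [h3, Ts_neg]
    · show Ts (Em a b *ᵥ v) s = _
      rw [h3]
  rw [h2] at h1
  exact h1.symm

lemma Em_neg (h : al a b = 1) (x y : K) : Em a b *ᵥ (x • a + y • b) = -(x • a + y • b) := by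
  have hba : al b a = -1 := by rw [al_comm, h]
  rw [Em_mulVec]
  simp only [al_add_right, al_smul_right, al_self, h, hba]
  ext i
  simp
  ring

lemma Em_fix {v : Fin m ⊕ Fin m → K} (h1 : al a v = 0) (h2 : al b v = 0) : Em a b *ᵥ v = v := by
  rw [Em_mulVec, h1, h2]
  simp

end main

/-- **`𝒜₂(PSp_{2m}(q))` is connected**, `m ≥ 2`, `q` odd. -/
theorem conn_psp [Finite K] (h2 : (2 : K) ≠ 0) (hm : 2 ≤ m)
    (hsimple : IsSimpleGroup (Vale.Agent.P240.R2.H715.Sy K m ⧸
      center (Vale.Agent.P240.R2.H715.Sy K m)))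
    (X Y : Ap 2 (Vale.Agent.P240.R2.H715.Sy K m ⧸ center (Vale.Agent.P240.R2.H715.Sy K m))) :
    Relation.ReflTransGen (fun X Y : Ap 2 (Vale.Agent.P240.R2.H715.Sy K m ⧸
      center (Vale.Agent.P240.R2.H715.Sy K m)) => X ≤ Y ∨ Y ≤ X) X Y := by
  classical
  let i0 : Fin m := ⟨0, by omega⟩
  let i1 : Fin m := ⟨1, by omega⟩
  have hi : i1 ≠ i0 := fun h => by simpa [i0, i1] using congrArg Fin.val h
  let a0 : Fin m ⊕ Fin m → K := Pi.single (Sum.inr i0) 1
  let b0 : Fin m ⊕ Fin m → K := Pi.single (Sum.inl i0) 1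
  have ha : ∀ x, al a0 x = x (Sum.inl i0) := by
    intro x
    rw [al_eq, Finset.sum_eq_single i0]
    · simp [a0]
    · intro j _ hj
      simp [a0, hj]
    · simp
  have hb : ∀ x, al b0 x = - x (Sum.inr i0) := by
    intro x
    rw [al_eq, Finset.sum_eq_single i0]
    · simp [b0]
    · intro j _ hj
      simp [b0, hj]
    · simp
  have h0 : al a0 b0 = 1 := by rw [ha]; simp [b0]
  have hne : Es h0 ∉ center (Vale.Agent.P240.R2.H715.Sy K m) := by
    refine Es_notin h2 h0 (c := Pi.single (Sum.inl i1) 1) ?_ ?_ ?_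
    · rw [ha]; simp [hi.symm]
    · rw [hb]; simp
    · intro h
      have := congrFun h (Sum.inl i1)
      simp at this
  have hfin : Finite (Vale.Agent.P240.R2.H715.Sy K m ⧸ center (Vale.Agent.P240.R2.H715.Sy K m)) :=
    inferInstance
  refine conn_simple (t := (QuotientGroup.mk (Es h0) : Vale.Agent.P240.R2.H715.Sy K m ⧸
      center (Vale.Agent.P240.R2.H715.Sy K m))) ?_ (mk_ne hne)
    (T := {x | ∃ v s, x = (QuotientGroup.mk (Ts v s) : Vale.Agent.P240.R2.H715.Sy K m ⧸
      center (Vale.Agent.P240.R2.H715.Sy K m))}) ?_ ?_ ?_ X Y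
  · rw [pow_two, ← QuotientGroup.mk_mul, Es_sq, QuotientGroup.mk_one]
  · rintro _ ⟨v, s, rfl⟩ g
    obtain ⟨g, rfl⟩ := QuotientGroup.mk_surjective g
    refine ⟨g.1 *ᵥ v, s, ?_⟩
    rw [← QuotientGroup.mk_mul, ← QuotientGroup.mk_inv, ← QuotientGroup.mk_mul, Ts_conj,
      mul_inv_cancel_right]
  · refine ⟨_, ⟨a0, 1, rfl⟩, mk_ne fun hc => ?_⟩
    have h1 := Ts_central hc b0 1
    have h3 := congrArg (fun A => al a0 (A *ᵥ b0)) h1
    have h4 : (Ts a0 (1 : K)).1 *ᵥ b0 = b0 + a0 := by
      show Tm a0 1 *ᵥ b0 = b0 + a0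
      rw [Tm_mulVec, h0]
      simp
    have hab : al b0 a0 = -1 := by rw [al_comm, h0]
    rw [h4] at h3
    simp only [Tm_mulVec, al_add_left, al_add_right, al_smul_right, al_self, h0] at h3
    have h5 : (1 : K) = 0 := by linear_combination h3
    exact one_ne_zero h5
  · rintro _ ⟨v, s, rfl⟩
    set w : Fin m ⊕ Fin m → K := v (Sum.inr i0) • a0 + v (Sum.inl i0) • b0 with hw
    set u : Fin m ⊕ Fin m → K := v - w with hu
    have hv : v = w + u := by rw [hu]; abel
    have hau : al a0 u = 0 := by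
      rw [ha, hu, hw]
      simp [a0, b0]
    have hbu : al b0 u = 0 := by
      rw [hb, hu, hw]
      simp [a0, b0]
    by_cases hu0 : u = 0
    · refine ⟨_, Cc.refl _, ?_⟩
      rw [← QuotientGroup.mk_mul, ← QuotientGroup.mk_mul, comm_of_neg h0 (Or.inl ?_)]
      rw [hv, hu0, add_zero, hw]
      exact Em_neg h0 _ _
    by_cases hw0 : w = 0
    · refine ⟨_, Cc.refl _, ?_⟩
      rw [← QuotientGroup.mk_mul, ← QuotientGroup.mk_mul, comm_of_neg h0 (Or.inr ?_)]
      rw [hv, hw0, zero_add]
      exact Em_fix hau hbu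
    -- a vector of the plane
    obtain ⟨x', y', hw'⟩ : ∃ x' y' : K, al w (x' • a0 + y' • b0) = 1 := by
      have e : ∀ x' y' : K, al w (x' • a0 + y' • b0) = v (Sum.inr i0) * y' - v (Sum.inl i0) * x' := by
        intro x' y'
        have hab : al b0 a0 = -1 := by rw [al_comm, h0]
        rw [hw]
        simp only [al_add_left, al_add_right, al_smul_left, al_smul_right, al_self, h0, hab]
        ring
      by_cases hx : v (Sum.inr i0) = 0
      · have hy : v (Sum.inl i0) ≠ 0 := by
          intro hy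
          apply hw0
          rw [hw, hx, hy]
          simp
        refine ⟨-(v (Sum.inl i0))⁻¹, 0, ?_⟩
        rw [e, hx]
        field_simp
        ring
      · refine ⟨0, (v (Sum.inr i0))⁻¹, ?_⟩
        rw [e]
        field_simp
        ring
    -- a vector orthogonal to the plane
    obtain ⟨d, hud, had, hbd⟩ : ∃ d : Fin m ⊕ Fin m → K, al u d = 1 ∧ al a0 d = 0 ∧ al b0 d = 0 := by
      obtain ⟨j, hj⟩ : ∃ j, u j ≠ 0 := by
        by_contra hcon
        push Not at hcon
        exact hu0 (funext hcon)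
      have hu1 : u (Sum.inl i0) = 0 := by
        have := ha u
        rw [hau] at this
        exact this.symm
      have hu2 : u (Sum.inr i0) = 0 := by
        have := hb u
        rw [hbu] at this
        exact neg_eq_zero.1 this.symm
      rcases j with j | j
      · have hji : j ≠ i0 := by rintro rfl; exact hj hu1
        refine ⟨Pi.single (Sum.inr j) (-(u (Sum.inl j))⁻¹), ?_, ?_, ?_⟩
        · rw [al_eq, Finset.sum_eq_single j]
          · simp [hj]
          · intro k _ hk
            simp [hk]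
          · simp
        · rw [ha]; simp
        · rw [hb]; simp [hji.symm]
      · have hji : j ≠ i0 := by rintro rfl; exact hj hu2
        refine ⟨Pi.single (Sum.inl j) ((u (Sum.inr j))⁻¹), ?_, ?_, ?_⟩
        · rw [al_eq, Finset.sum_eq_single j]
          · simp [hj]
          · intro k _ hk
            simp [hk]
          · simp
        · rw [ha]; simp [hji.symm]
        · rw [hb]; simp
    -- orthogonality
    have key : ∀ x y : K, ∀ z, al a0 z = 0 → al b0 z = 0 → al (x • a0 + y • b0) z = 0 := by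
      intro x y z hz hz'
      rw [al_add_left, al_smul_left, al_smul_left, hz, hz']
      ring
    have hE : (QuotientGroup.mk (Es h0) : Vale.Agent.P240.R2.H715.Sy K m ⧸
        center (Vale.Agent.P240.R2.H715.Sy K m)) = QuotientGroup.mk (Es hw') := by
      congr 1
      exact Subtype.ext (Em_plane _ _ _ _ h0 hw').symm
    have h5 := cc_diag h2 hw' hud (key _ _ _ hau hbu) (key _ _ _ had hbd) (key _ _ _ hau hbu)
      (key _ _ _ had hbd)
    refine ⟨QuotientGroup.mk (Es (al_diag h2 hw' hud (key _ _ _ had hbd) (key _ _ _ hau hbu))),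
      ?_, ?_⟩
    · rw [hE]
      exact h5
    · rw [← QuotientGroup.mk_mul, ← QuotientGroup.mk_mul, comm_of_neg _ (Or.inl ?_)]
      have h6 := Em_neg (al_diag h2 hw' hud (key _ _ _ had hbd) (key _ _ _ hau hbu)) 1 0
      rw [one_smul, zero_smul, add_zero, ← hv] at h6
      rw [← hv]
      exact h6

end

end Vale.Agent.P240.R2.H164.Con
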