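import Vale.Agent.P240.R2.H986.X.Stm4
import Vale.Agent.P240.R2.H112.Br
import Vale.Agent.P240.H195.FF

/-!
Automorphisms of the groups given by Chevalley's relations: those that act on the root elements of
the simple roots by a field automorphism and scalars.
-/

set_option autoImplicit false

namespace Vale.Agent.P240.R2.H164.EX

open Subgroup Vale.Agent.P240.K Vale.Agent.P240.H195 Vale.Agent.P240.R2.H986.X
  Vale.Agent.P240.R2.H997

universe u

section
variable {ι : Type*} {F : Type*} [Field F] {L : Type*} [Group L] {C : RC ι} {x : ι → F → L}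

/-- the root elements of the simple roots and their negatives generate `L` -/
lemma gen_simple (h : CS C x) {H : Subgroup L}
    (hH : ∀ i, C.simp i → ∀ t, x i t ∈ H ∧ x (C.neg i) t ∈ H) : H = ⊤ := by
  have hn : ∀ i, C.simp i → nn C.neg x i 1 ∈ H := fun i hi =>
    mul_mem (mul_mem (hH i hi 1).1 (hH i hi _).2) (hH i hi 1).1
  have key : ∀ j t, x j t ∈ H := by
    intro j
    refine C.gen (fun j => ∀ t, x j t ∈ H) (fun i hi t => (hH i hi t).1) ?_ j
    intro i j hi hj t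
    obtain ⟨c, hc, hcj⟩ := h.refl i j
    have h1 := (hcj 1 (c * t) one_ne_zero).1
    rw [one_zpow, mul_one, ← mul_assoc, hc, one_mul] at h1
    rw [← h1]
    exact mul_mem (mul_mem (hn i hi) (hj _)) (inv_mem (hn i hi))
  rw [eq_top_iff, ← h.gen, gr, closure_le]
  rintro _ ⟨i, t, -, rfl⟩
  exact key i t

/-- automorphisms that agree on these root elements are equal -/
lemma ext_simple (h : CS C x) {e e' : MulAut L}
    (he : ∀ i, C.simp i → ∀ t, e (x i t) = e' (x i t) ∧ e (x (C.neg i) t) = e' (x (C.neg i) t)) :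
    e = e' := by
  have h1 : (e.toMonoidHom.eqLocus e'.toMonoidHom) = ⊤ :=
    gen_simple h fun i hi t => ⟨(he i hi t).1, (he i hi t).2⟩
  ext y
  have h2 : y ∈ (e.toMonoidHom.eqLocus e'.toMonoidHom) := h1 ▸ mem_top y
  exact h2

lemma Al_one : Al C x 1 (1 : RingAut F) (fun _ => 1) := fun i _ => ⟨one_ne_zero, fun t => by simp⟩

lemma Al_mul {e e' : MulAut L} {σ σ' : RingAut F} {c c' : ι → F} (h : Al C x e σ c)
    (h' : Al C x e' σ' c') : Al C x (e * e') (σ * σ') (fun i => c i * σ (c' i)) := by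
  intro i hi
  obtain ⟨h0, h1⟩ := h i hi
  obtain ⟨h0', h1'⟩ := h' i hi
  refine ⟨mul_ne_zero h0 ((map_ne_zero σ).2 h0'), fun t => ⟨?_, ?_⟩⟩
  · rw [MulAut.mul_apply, (h1' t).1, (h1 _).1, map_mul, RingAut.mul_apply, mul_assoc]
  · rw [MulAut.mul_apply, (h1' t).2, (h1 _).2, map_mul, map_inv₀, RingAut.mul_apply, mul_inv,
      mul_assoc]

lemma Al_inv {e : MulAut L} {σ : RingAut F} {c : ι → F} (h : Al C x e σ c) :
    Al C x e⁻¹ σ⁻¹ (fun i => σ⁻¹ (c i)⁻¹) := by
  intro i hi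
  obtain ⟨h0, h1⟩ := h i hi
  have e0 : ∀ t, σ (σ⁻¹ t) = t := fun t => by
    rw [← RingAut.mul_apply, mul_inv_cancel, RingAut.one_apply]
  have e1 : ∀ y z : L, e y = z → e⁻¹ z = y := by
    rintro y _ rfl
    rw [← MulAut.mul_apply, inv_mul_cancel, MulAut.one_apply]
  refine ⟨(map_ne_zero σ⁻¹).2 (inv_ne_zero h0), fun t => ⟨?_, ?_⟩⟩
  · apply e1
    rw [(h1 _).1, map_mul, e0, e0, mul_inv_cancel_left₀ h0]
  · apply e1
    rw [(h1 _).2, map_mul, map_inv₀, e0, e0, inv_inv, inv_mul_cancel_left₀ h0]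

/-- the automorphisms of this form with their field automorphisms -/
def AG (C : RC ι) (x : ι → F → L) : Subgroup (MulAut L × RingAut F) where
  carrier := {y | ∃ c, Al C x y.1 y.2 c}
  one_mem' := ⟨_, Al_one⟩
  mul_mem' := by
    rintro a b ⟨c, hc⟩ ⟨c', hc'⟩
    exact ⟨_, Al_mul hc hc'⟩
  inv_mem' := by
    rintro a ⟨c, hc⟩
    exact ⟨_, Al_inv hc⟩

lemma mem_AG {e : MulAut L} {σ : RingAut F} : (e, σ) ∈ AG C x ↔ ∃ c, Al C x e σ c := Iff.rfl

lemma Al_pow {e : MulAut L} {c : ι → F} (h : Al C x e (1 : RingAut F) c) (k : ℕ) :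
    Al C x (e ^ k) (1 : RingAut F) (fun i => c i ^ k) := by
  induction k with
  | zero =>
    intro i hi
    refine ⟨by simp, fun t => by simp⟩
  | succ k ih =>
    have h1 := Al_mul ih h
    rw [← pow_succ, mul_one] at h1
    intro i hi
    have h2 := h1 i hi
    simp only [RingAut.one_apply, ← pow_succ] at h2
    exact h2

/-- the relation `e δ e⁻¹ = δ ^ m` -/
lemma Al_conj (h : CS C x) {e δ : MulAut L} {σ : RingAut F} {c c' : ι → F} (he : Al C x e σ c)
    (hδ : Al C x δ (1 : RingAut F) c') {m : ℕ} (hσ : ∀ y, σ y = y ^ m) :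
    e * δ * e⁻¹ = δ ^ m := by
  have h1 : e * δ = δ ^ m * e := by
    have h2 := Al_mul he hδ
    have h3 := Al_mul (Al_pow hδ m) he
    apply ext_simple h
    intro i hi t
    rw [(h2 i hi).2 t |>.1, (h3 i hi).2 t |>.1, (h2 i hi).2 t |>.2, (h3 i hi).2 t |>.2]
    simp only [mul_one, one_mul, RingAut.one_apply, hσ (c' i), mul_comm (c i), and_self]
  rw [h1, mul_inv_cancel_right]

/-- products of elements of `T` -/
lemma hh_list (h : CS C x) (l : List ι) (t : ι → Fˣ) (j : ι) (u : F) :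
    (l.map fun k => nn C.neg x k (t k : F) * (nn C.neg x k 1)⁻¹).prod * x j u *
      ((l.map fun k => nn C.neg x k (t k : F) * (nn C.neg x k 1)⁻¹).prod)⁻¹ =
      x j (((l.map fun k => t k ^ C.pr j k).prod : Fˣ) * u) := by
  induction l generalizing u with
  | nil => simp
  | cons a l ih =>
    rw [List.map_cons, List.prod_cons, List.map_cons, List.prod_cons]
    have e1 : ∀ g k y : L, g * k * y * (g * k)⁻¹ = g * (k * y * k⁻¹) * g⁻¹ := by
      intro g k y; group
    rw [e1, ih, h.h_act a j (t a).ne_zero, Units.val_mul, Units.val_zpow_eq_zpow_val, mul_assoc]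

lemma prod_zpow_sum {κ A : Type*} [CommGroup A] (a : A) (s : Finset κ) (f : κ → ℤ) :
    ∏ k ∈ s, a ^ f k = a ^ ∑ k ∈ s, f k := by
  classical
  induction s using Finset.induction_on with
  | empty => simp
  | insert b s hb ih => rw [Finset.prod_insert hb, Finset.sum_insert hb, zpow_add, ih]

open scoped Classical in
/-- the element of `T` with the character `c ^ d` -/
lemma exists_T (h : CS C x) {d : ℕ} {Δ : Finset ι} {D : ι → ι → ℤ} (hΔ : ∀ i, i ∈ Δ ↔ C.simp i)
    (hD : ∀ i j, C.simp i → C.simp j → ∑ k ∈ Δ, D i k * C.pr j k = if i = j then (d : ℤ) else 0)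
    (c : ι → Fˣ) : ∃ g : L, ∀ j, C.simp j → ∀ u, g * x j u * g⁻¹ = x j ((c j ^ d : Fˣ) * u) ∧
      g * x (C.neg j) u * g⁻¹ = x (C.neg j) (((c j ^ d)⁻¹ : Fˣ) * u) := by
  set t : ι → Fˣ := fun k => ∏ i ∈ Δ, c i ^ D i k with ht
  have key : ∀ j, C.simp j → ∏ k ∈ Δ, t k ^ C.pr j k = c j ^ d := by
    intro j hj
    have e1 : ∀ k, t k ^ C.pr j k = ∏ i ∈ Δ, c i ^ (D i k * C.pr j k) := by
      intro k
      rw [ht, ← Finset.prod_zpow]
      refine Finset.prod_congr rfl fun i _ => ?_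
      rw [zpow_mul]
    rw [Finset.prod_congr rfl fun k _ => e1 k, Finset.prod_comm]
    rw [Finset.prod_congr rfl fun i _ => prod_zpow_sum (c i) Δ fun k => D i k * C.pr j k]
    rw [Finset.prod_eq_single_of_mem j ((hΔ j).2 hj)]
    · rw [hD j j hj hj, if_pos rfl, zpow_natCast]
    · intro i hi hij
      rw [hD i j ((hΔ i).1 hi) hj, if_neg hij, zpow_zero]
  refine ⟨(Δ.toList.map fun k => nn C.neg x k (t k : F) * (nn C.neg x k 1)⁻¹).prod,
    fun j hj u => ⟨?_, ?_⟩⟩
  · rw [hh_list h, Finset.prod_map_toList, key j hj]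
  · rw [hh_list h, Finset.prod_map_toList]
    have e1 : ∏ k ∈ Δ, t k ^ C.pr (C.neg j) k = (c j ^ d)⁻¹ := by
      rw [← key j hj, ← Finset.prod_inv_distrib]
      refine Finset.prod_congr rfl fun k _ => ?_
      rw [C.pr_neg, zpow_neg]
    rw [e1]

open scoped Classical in
/-- the `d`-th power of an automorphism that acts by scalars is inner -/
lemma inner_pow (h : CS C x) {d : ℕ} {Δ : Finset ι} {D : ι → ι → ℤ} (hΔ : ∀ i, i ∈ Δ ↔ C.simp i)
    (hD : ∀ i j, C.simp i → C.simp j → ∑ k ∈ Δ, D i k * C.pr j k = if i = j then (d : ℤ) else 0)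
    {e : MulAut L} {c : ι → F} (he : Al C x e (1 : RingAut F) c) :
    e ^ d ∈ (MulAut.conj (G := L)).range := by
  obtain ⟨g, hg⟩ := exists_T h hΔ hD (fun i => if hi : c i = 0 then 1 else Units.mk0 (c i) hi)
  refine ⟨g, (ext_simple h fun i hi t => ?_).symm⟩
  obtain ⟨h0, h1⟩ := Al_pow he d i hi
  have h2 : c i ≠ 0 := (he i hi).1
  have h3 := hg i hi t
  rw [dif_neg h2, Units.val_inv_eq_inv_val, Units.val_pow_eq_pow_val, Units.val_mk0] at h3
  rw [MulAut.conj_apply, MulAut.conj_apply, h3.1, h3.2, (h1 t).1, (h1 t).2, RingAut.one_apply]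
  exact ⟨rfl, rfl⟩

end

end Vale.Agent.P240.R2.H164.EX
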