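import Vale.Agent.P240.R2.H164.EX1

/-!
Few automorphisms of order `p` for the groups given by Chevalley's relations, `p` prime to the
determinant of the Cartan matrix.
-/

set_option autoImplicit false

namespace Vale.Agent.P240.R2.H164.EX

open Subgroup Vale.Agent.P240.K Vale.Agent.P240.H195 Vale.Agent.P240.R2.H986.X
  Vale.Agent.P240.R2.H997

universe u

section
variable {Q : Type*} [Group Q]

lemma conj_pow_pow {a b : Q} {m : ℕ} (hab : a * b * a⁻¹ = b ^ m) (j : ℕ) :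
    a ^ j * b * (a ^ j)⁻¹ = b ^ m ^ j := by
  induction j with
  | zero => simp
  | succ j ih =>
    have e1 : a ^ (j + 1) * b * (a ^ (j + 1))⁻¹ = a * (a ^ j * b * (a ^ j)⁻¹) * a⁻¹ := by
      rw [pow_succ', mul_inv_rev]; simp only [mul_assoc]
    rw [e1, ih, ← conj_pow, hab, ← pow_mul, pow_succ']

/-- an elementary fact -/
lemma eq_one_of_conj {a b : Q} {p d m : ℕ} (hp : p.Prime) (hap : a ^ p = 1) (hbd : b ^ d = 1)
    (hab : a * b * a⁻¹ = b ^ m) {k : ℤ} (hk : (b * a ^ k) ^ p = 1) (hpd : Nat.Coprime p d)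
    (hpt : Nat.Coprime p (Nat.totient d)) : b = 1 := by
  have hd0 : d ≠ 0 := by
    rintro rfl
    rw [Nat.coprime_zero_right] at hpd
    exact hp.one_lt.ne' hpd
  set o := orderOf b with ho
  have hod : o ∣ d := orderOf_dvd_of_pow_eq_one hbd
  have ho0 : 0 < o := Nat.pos_of_dvd_of_pos hod (Nat.pos_of_ne_zero hd0)
  have h1 : b ^ m ^ p = b ^ 1 := by
    rw [← conj_pow_pow hab p, hap]
    simp
  rw [pow_eq_pow_iff_modEq, ← ho] at h1
  have h2 : ((m : ZMod o)) ^ p = 1 := by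
    have := (ZMod.natCast_eq_natCast_iff _ _ _).2 h1
    push_cast at this
    exact this
  have hu : IsUnit (m : ZMod o) := IsUnit.of_pow_eq_one h2 hp.ne_zero
  obtain ⟨v, hv⟩ := hu
  have h3 : v ^ p = 1 := by
    ext
    rw [Units.val_pow_eq_pow_val, hv, h2, Units.val_one]
  have h4 : v ^ Nat.totient o = 1 := ZMod.pow_totient v
  have h5 : Nat.Coprime p (Nat.totient o) :=
    Nat.Coprime.coprime_dvd_right (Nat.totient_dvd_of_dvd hod) hpt
  have h6 : v = 1 := by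
    have h7 : orderOf v ∣ Nat.gcd p (Nat.totient o) :=
      Nat.dvd_gcd (orderOf_dvd_of_pow_eq_one h3) (orderOf_dvd_of_pow_eq_one h4)
    rw [h5.gcd_eq_one, Nat.dvd_one, orderOf_eq_one_iff] at h7
    exact h7
  have h7 : b ^ m = b := by
    rw [h6, Units.val_one] at hv
    have h8 : ((m : ℕ) : ZMod o) = ((1 : ℕ) : ZMod o) := by rw [← hv, Nat.cast_one]
    have h9 := (ZMod.natCast_eq_natCast_iff _ _ _).1 h8
    have h10 := (pow_eq_pow_iff_modEq (x := b)).2 h9
    rwa [pow_one] at h10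
  have hcomm : Commute a b := by
    rw [h7] at hab
    exact mul_inv_eq_iff_eq_mul.1 hab
  have hc2 : Commute b (a ^ k) := (hcomm.symm).zpow_right k
  have hak : (a ^ k) ^ p = 1 := by
    rw [← zpow_natCast, ← zpow_mul, mul_comm, zpow_mul, zpow_natCast, hap, one_zpow]
  rw [hc2.mul_pow, hak, mul_one] at hk
  have h8 : orderOf b ∣ Nat.gcd p d :=
    Nat.dvd_gcd (orderOf_dvd_of_pow_eq_one hk) (orderOf_dvd_of_pow_eq_one hbd)
  rw [hpd.gcd_eq_one, Nat.dvd_one, orderOf_eq_one_iff] at h8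
  exact h8

/-- elements of the same prime order of a cyclic group -/
lemma mem_zpowers_cyc [Finite Q] [IsCyclic Q] {a b : Q} {p : ℕ} (hp : p.Prime) (ha : a ^ p = 1)
    (ha1 : a ≠ 1) (hb : b ^ p = 1) : b ∈ zpowers a := by
  classical
  have := Fintype.ofFinite Q
  have : Fact p.Prime := ⟨hp⟩
  have h1 : orderOf a = p := orderOf_eq_prime ha ha1
  have hsub : (Finset.univ.filter fun x => x ∈ zpowers a) ⊆ Finset.univ.filter fun x : Q => x ^ p = 1 := by
    intro y hy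
    rw [Finset.mem_filter] at hy ⊢
    obtain ⟨k, rfl⟩ := hy.2
    refine ⟨Finset.mem_univ _, ?_⟩
    change (a ^ k) ^ p = 1
    rw [← zpow_natCast, ← zpow_mul, mul_comm, zpow_mul, zpow_natCast, ha, one_zpow]
  have hcard : (Finset.univ.filter fun x => x ∈ zpowers a).card = p := by
    rw [← h1, ← Nat.card_zpowers, Nat.card_eq_fintype_card, Fintype.card_subtype]
  have heq := Finset.eq_of_subset_of_card_le hsub (by
    rw [hcard]
    exact IsCyclic.card_pow_eq_one_le hp.pos)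
  have h2 : b ∈ Finset.univ.filter fun x : Q => x ^ p = 1 := by
    rw [Finset.mem_filter]
    exact ⟨Finset.mem_univ _, hb⟩
  rw [← heq, Finset.mem_filter] at h2
  exact h2.2

/-- elements modulo a normal subgroup -/
lemma mem_of_two {I : Subgroup Q} {a : Q} {p d : ℕ} (h : Nat.Coprime p d) (hp : a ^ p ∈ I)
    (hd : a ^ d ∈ I) : a ∈ I := by
  have h3 := Nat.gcd_eq_gcd_ab p d
  rw [h.gcd_eq_one] at h3
  have h4 : a = (a ^ p) ^ (Nat.gcdA p d) * (a ^ d) ^ (Nat.gcdB p d) := by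
    rw [← zpow_natCast, ← zpow_natCast, ← zpow_mul, ← zpow_mul, ← zpow_add, ← h3]
    simp
  rw [h4]
  exact mul_mem (zpow_mem hp _) (zpow_mem hd _)

end

section
variable {L : Type u} [Group L] {B N U : Subgroup L} {S : Set L} {r : ℕ}

/-- an outer automorphism of order `p`, up to powers and inner automorphisms, has `p`-power order and
stabilizes `B` and the opposite subgroup -/
lemma exists_e (h : SB r B N U S) [Finite L] (hr : r.Prime) {p : ℕ}
    (hp : p.Prime) {n₀ : L} (hn₀ : n₀ ∈ N) (hopp : ∀ x ∈ U, n₀ * x * n₀⁻¹ ∈ U → x = 1)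
    {f : MulAut L} (hf : OutAut p f) :
    ∃ e : MulAut L, (∃ a, e ^ p ^ a = 1) ∧ am e B = B ∧ am e (cj n₀ B) = cj n₀ B ∧
      e ∈ zpowers f ⊔ (MulAut.conj (G := L)).range ∧
      f ∈ zpowers e ⊔ (MulAut.conj (G := L)).range ∧
      e ^ p ∈ (MulAut.conj (G := L)).range ∧ e ∉ (MulAut.conj (G := L)).range := by
  obtain ⟨g, hgB, hgC⟩ := Vale.Agent.P240.R2.H112.Br.norm_all h hr hn₀ hopp f
  have hnI : (MulAut.conj (G := L)).range.Normal := normal_conj
  set I := (MulAut.conj (G := L)).range with hI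
  have hgI : MulAut.conj g ∈ I := ⟨g, rfl⟩
  set e₀ := (MulAut.conj g)⁻¹ * f with he₀
  have he₀f : e₀ ∈ zpowers f ⊔ I :=
    mul_mem ((le_sup_right : I ≤ _) (inv_mem hgI)) ((le_sup_left : zpowers f ≤ _) (mem_zpowers f))
  have he₀p : e₀ ^ p ∈ I := by
    rw [← QuotientGroup.eq_one_iff (N := I)]
    have h3 : ((e₀ : MulAut L) : MulAut L ⧸ I) = (f : MulAut L ⧸ I) := by
      rw [he₀, QuotientGroup.mk_mul, QuotientGroup.mk_inv, (QuotientGroup.eq_one_iff _).2 hgI,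
        inv_one, one_mul]
    rw [QuotientGroup.mk_pow, h3, ← QuotientGroup.mk_pow, hf.1, QuotientGroup.mk_one]
  have hord : orderOf e₀ ≠ 0 := (orderOf_pos e₀).ne'
  obtain ⟨a, m, hm, hord'⟩ := Nat.exists_eq_pow_mul_and_not_dvd hord p hp.ne_one
  obtain ⟨e, he⟩ : ∃ e, e = e₀ ^ m := ⟨_, rfl⟩
  have hea : e ^ p ^ a = 1 := by
    rw [he, ← pow_mul, mul_comm, ← hord', pow_orderOf_eq_one]
  have hcop : Nat.Coprime p m := (Nat.Prime.coprime_iff_not_dvd hp).2 hm
  have h3 := Nat.gcd_eq_gcd_ab p m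
  rw [hcop.gcd_eq_one] at h3
  have h4 : e₀ = (e₀ ^ p) ^ (Nat.gcdA p m) * e ^ (Nat.gcdB p m) := by
    rw [he, ← zpow_natCast, ← zpow_natCast, ← zpow_mul, ← zpow_mul, ← zpow_add, ← h3]
    simp
  have h5 : e₀ ∈ zpowers e ⊔ I := by
    rw [h4]
    exact mul_mem ((le_sup_right : I ≤ _) (zpow_mem he₀p _))
      ((le_sup_left : zpowers e ≤ _) (zpow_mem (mem_zpowers e) _))
  have h6 : f ∈ zpowers e ⊔ I := by
    have : f = MulAut.conj g * e₀ := by rw [he₀, mul_inv_cancel_left]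
    rw [this]
    exact mul_mem ((le_sup_right : I ≤ _) hgI) h5
  refine ⟨e, ⟨a, hea⟩, by rw [he]; exact am_pow_eq hgB m, by rw [he]; exact am_pow_eq hgC m,
    by rw [he]; exact pow_mem he₀f m, h6, ?_, ?_⟩
  · rw [he, ← pow_mul, mul_comm, pow_mul]
    exact pow_mem he₀p m
  · intro hc
    apply hf.2
    have h7 : zpowers e ⊔ I = I := sup_eq_right.2 (by rw [zpowers_le]; exact hc)
    rwa [h7] at h6

end

section
variable {ι : Type*} {F : Type*} [Field F] {L : Type u} [Group L] {C : RC ι} {x : ι → F → L}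

/-- `n₀` maps `U` to the opposite group -/
lemma opp_nl (h : CS C x) {l : List ι} (hl : ∀ j, 0 < C.ht j → C.ht (wl C l j) < 0) :
    ∀ y ∈ UU C x, nl C x l * y * (nl C x l)⁻¹ ∈ UU C x → y = 1 := by
  intro y hy hny
  have h1 : nl C x l * y * (nl C x l)⁻¹ ∈ UM C x :=
    h.nl_conj_gr (p := fun i => 0 < C.ht i) (q := fun i => C.ht i < 0) hl hy
  have h2 : nl C x l * y * (nl C x l)⁻¹ ∈ UU C x ⊓ UM C x := ⟨hny, h1⟩
  rw [show UU C x ⊓ UM C x = ⊥ from h.opp, mem_bot] at h2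
  exact conj_eq_one_iff.1 h2

/-- an inner automorphism of this form has trivial field automorphism -/
lemma sigma_one [Finite L] {r : ℕ} (hr : r.Prime) (h : CS C x)
    (hSB : SB r (BB C x) (NN C x) (UU C x) (SS C x)) {l : List ι} (hls : ∀ i ∈ l, C.simp i)
    (hl : ∀ j, 0 < C.ht j → C.ht (wl C l j) < 0) {e : MulAut L}
    (heI : e ∈ (MulAut.conj (G := L)).range) (heB : am e (BB C x) = BB C x)
    (heC : am e (cj (nl C x l) (BB C x)) = cj (nl C x l) (BB C x)) {σ : RingAut F} {c : ι → F}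
    (he : Al C x e σ c) : σ = 1 := by
  obtain ⟨y, rfl⟩ := heI
  rw [am_conj] at heB heC
  have hyB : y ∈ BB C x := by
    have h1 := (hSB.cj_B_eq_iff hr (g := 1) (g' := y)).1 (by rw [heB, cj_one])
    simpa using h1
  obtain ⟨v, hv, t, ht, rfl⟩ := h.mem_BB hyB
  have hn₀ : nl C x l ∈ NN C x := CS.nl_mem hls
  have ht' : (nl C x l)⁻¹ * t * (nl C x l)⁻¹⁻¹ ∈ BB C x :=
    hSB.norm _ (inv_mem hn₀) t (CS.TT_le_BB ht) (CS.TT_le ht)
  have h2 : cj (v * nl C x l) (BB C x) = cj (1 * nl C x l) (BB C x) := by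
    rw [one_mul, ← heC, ← cj_mul]
    have e1 : v * t * nl C x l = v * nl C x l * ((nl C x l)⁻¹ * t * (nl C x l)⁻¹⁻¹) := by group
    have e2 : cj (v * nl C x l * ((nl C x l)⁻¹ * t * (nl C x l)⁻¹⁻¹)) (BB C x) =
        cj (v * nl C x l) (BB C x) := by rw [cj_mul, cj_self ht']
    rw [e1, e2]
  have h3 : v = 1 := hSB.opp_free hr (opp_nl h hl) hv (one_mem _) h2
  subst h3
  obtain ⟨i, hi⟩ := C.ex
  obtain ⟨c', hc', h4⟩ := h.T_act ht i
  obtain ⟨h5, h6⟩ := he i hi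
  have h7 : ∀ s, c i * σ s = c' * s := by
    intro s
    apply h.x_inj (i := i)
    rw [← (h6 s).1, MulAut.conj_apply, one_mul, h4]
  have h8 : c i = c' := by
    have := h7 1
    rwa [map_one, mul_one, mul_one] at this
  ext s
  have h9 := h7 s
  rw [← h8] at h9
  rw [mul_left_cancel₀ h5 h9, RingAut.one_apply]

end

open scoped Classical in
/-- **X4'** (arbitrary determinant `d` of the Cartan matrix, `p` prime to `d` and `φ(d)`). -/
def StmtX4' : Prop := ∀ (ι : Type) [Finite ι] (F : Type) [Field F] [Finite F] (L : Type u) [Group L]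
  [Finite L] (r : ℕ) [Fact r.Prime] [CharP F r] (C : RC ι) (x : ι → F → L), CS C x →
  IsSimpleGroup L → (∀ g : L, (∀ y, g * y = y * g) → g = 1) → ∀ d : ℕ,
  (∃ D : ι → ι → ℤ, ∃ Δ : Finset ι, (∀ i, i ∈ Δ ↔ C.simp i) ∧
    ∀ i j, C.simp i → C.simp j → ∑ k ∈ Δ, D i k * C.pr j k = if i = j then (d : ℤ) else 0) →
  ∀ p : ℕ, p.Prime → p ≠ r → Nat.Coprime p d → Nat.Coprime p (Nat.totient d) →
  -- permutations of the diagram
  (∀ π : Equiv.Perm {i // C.simp i}, (∃ k, π ^ p ^ k = 1) →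
    (∀ i j, C.pr i.1 j.1 = 0 ↔ C.pr (π i).1 (π j).1 = 0) →
    ((r = 2 ∨ r = 3) ∨ ∀ i j, C.pr i.1 j.1 = C.pr (π i).1 (π j).1) → π = 1) →
  FewAut p L

theorem stmtX4'_of (h3 : StmtX3.{u}) (h4a : StmtX4a.{u}) (h4b : StmtX4b.{u}) : StmtX4'.{u} := by
  intro ι _ F _ _ L _ _ r _ _ C x h hsimple hcen d ⟨D, Δ, hΔ, hD⟩ p hp hpr hpd hpt hperm
  have hr : r.Prime := Fact.out
  have hSB : SB r (BB C x) (NN C x) (UU C x) (SS C x) :=
    (h3 ι F L r C x h hsimple hcen).toSB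
  obtain ⟨l, hls, hl⟩ := C.long
  have hn₀ : nl C x l ∈ NN C x := CS.nl_mem hls
  have hopp := opp_nl h hl
  have hnI : (MulAut.conj (G := L)).range.Normal := normal_conj
  have hcyc : IsCyclic (RingAut F) := ff_cyclic
  have hfin : Finite (RingAut F) := Finite.of_injective (fun f : RingAut F => (f : F → F))
    DFunLike.coe_injective
  -- normal form of an outer automorphism of order `p`
  have norm : ∀ f : MulAut L, OutAut p f → ∃ (e : MulAut L) (σ : RingAut F),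
      (e, σ) ∈ AG C x ∧ σ ^ p = 1 ∧ σ ≠ 1 ∧ e ∈ zpowers f ⊔ (MulAut.conj (G := L)).range ∧
      f ∈ zpowers e ⊔ (MulAut.conj (G := L)).range ∧ e ^ p ∈ (MulAut.conj (G := L)).range := by
    intro f hf
    obtain ⟨e, ⟨a, hea⟩, heB, heC, hef, hfe, hep, heI⟩ := exists_e hSB hr hp hn₀ hopp hf
    obtain ⟨π, hπ1, hπ2, hπ3, hπ4⟩ := h4b ι F L r C x h hsimple hcen l hls hl e heB heC
    have hπ : π = 1 := hperm π ⟨a, hπ4 _ hea⟩ hπ2 hπ3
    obtain ⟨σ, c, hc⟩ := h4a ι F L r C x h hsimple hcen l hls hl e heB heC (by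
      rintro s ⟨i, hi, rfl⟩
      have := hπ1 ⟨i, hi⟩
      rw [hπ] at this
      exact this)
    have hAG : (e, (σ : RingAut F)) ∈ AG C x := ⟨c, hc⟩
    have hAGp : (e ^ p, (σ : RingAut F) ^ p) ∈ AG C x := pow_mem hAG p
    obtain ⟨c', hc'⟩ := hAGp
    have hσp : (σ : RingAut F) ^ p = 1 :=
      sigma_one hr h hSB hls hl hep (am_pow_eq heB p) (am_pow_eq heC p) hc'
    refine ⟨e, σ, hAG, hσp, ?_, hef, hfe, hep⟩
    rintro rfl
    exact heI (mem_of_two hpd hep (inner_pow h hΔ hD hc))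
  have key : ∀ f g : MulAut L, OutAut p f → OutAut p g →
      g ∈ zpowers f ⊔ (MulAut.conj (G := L)).range := by
    intro f g hf hg
    obtain ⟨e, σ, hAG, hσp, hσ1, hef, -, hep⟩ := norm f hf
    obtain ⟨e', σ', hAG', hσp', -, -, hge, hep'⟩ := norm g hg
    obtain ⟨k, hk⟩ := mem_zpowers_cyc hp hσp hσ1 hσp'
    have hk' : σ ^ k = σ' := hk
    -- the difference
    have hδ : (e' * (e ^ k)⁻¹, (1 : RingAut F)) ∈ AG C x := by
      have h1 := mul_mem hAG' (inv_mem (zpow_mem hAG k))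
      have h2 : (e', σ') * ((e, σ) ^ k)⁻¹ = (e' * (e ^ k)⁻¹, (1 : RingAut F)) := by
        rw [Prod.ext_iff]
        refine ⟨rfl, ?_⟩
        change σ' * (σ ^ k)⁻¹ = 1
        rw [hk', mul_inv_cancel]
      rwa [h2] at h1
    obtain ⟨c, hc⟩ := hAG
    obtain ⟨c', hc'⟩ := hδ
    have hδd := inner_pow h hΔ hD hc'
    obtain ⟨m, hm⟩ := ff_aut (r := r) σ
    have hconj := Al_conj h hc hc' hm
    set I := (MulAut.conj (G := L)).range with hI
    have hδ1 : ((e' * (e ^ k)⁻¹ : MulAut L) : MulAut L ⧸ I) = 1 := by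
      refine eq_one_of_conj (a := (e : MulAut L ⧸ I)) (m := r ^ m) (k := k) hp ?_ ?_ ?_ ?_ hpd hpt
      · rw [← QuotientGroup.mk_pow]
        exact (QuotientGroup.eq_one_iff _).2 hep
      · rw [← QuotientGroup.mk_pow]
        exact (QuotientGroup.eq_one_iff _).2 hδd
      · rw [← QuotientGroup.mk_mul, ← QuotientGroup.mk_inv, ← QuotientGroup.mk_mul,
          ← QuotientGroup.mk_pow, hconj]
      · rw [← QuotientGroup.mk_zpow, ← QuotientGroup.mk_mul, inv_mul_cancel_right,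
          ← QuotientGroup.mk_pow]
        exact (QuotientGroup.eq_one_iff _).2 hep'
    have hδI := (QuotientGroup.eq_one_iff _).1 hδ1
    have he'e : e' ∈ zpowers e ⊔ I := by
      have h1 : e' = (e' * (e ^ k)⁻¹) * e ^ k := by rw [inv_mul_cancel_right]
      rw [h1]
      exact mul_mem ((le_sup_right : I ≤ _) hδI)
        ((le_sup_left : zpowers e ≤ _) (zpow_mem (mem_zpowers e) k))
    have h1 : zpowers e ⊔ I ≤ zpowers f ⊔ I :=
      sup_le (by rw [zpowers_le]; exact hef) le_sup_right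
    have h2 : zpowers e' ⊔ I ≤ zpowers f ⊔ I :=
      sup_le (by rw [zpowers_le]; exact h1 he'e) le_sup_right
    exact h2 hge
  exact ⟨fun f g _ hf hg _ => Or.inl (key f g hf hg), Or.inl fun f g hf hg => key f g hf hg⟩

theorem stmtX4_of (h3 : StmtX3.{u}) (h4a : StmtX4a.{u}) (h4b : StmtX4b.{u}) : StmtX4.{u} := by
  classical
  intro ι _ F _ _ L _ _ r _ _ C x h hsimple hcen ⟨D, Δ, hΔ, hD⟩ p hp hpr hperm
  refine stmtX4'_of h3 h4a h4b ι F L r C x h hsimple hcen 1 ⟨D, Δ, hΔ, fun i j hi hj => ?_⟩ p hp hpr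
    (Nat.coprime_one_right p) (by simp) hperm
  rw [hD i j hi hj, Nat.cast_one]

end Vale.Agent.P240.R2.H164.EX
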