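import Vale.Agent.P240.R2.H164.EX2
import Vale.Agent.P240.R2.H165.XD
import Vale.Agent.P240.R2.H684.X3
import Vale.Agent.P240.R2.H986.X.X4

/-!
Few automorphisms for the groups given by Chevalley's relations: the theorems X4, X4', X4d.
-/

set_option autoImplicit false

namespace Vale.Agent.P240.R2.H164.EX

open Vale.Agent.P240.R2.H986.X

universe u

theorem stmtX4' : StmtX4'.{u} := stmtX4'_of Vale.Agent.P240.R2.H684.XB.stmtX3 stmtX4a stmtX4b

theorem stmtX4 : StmtX4.{u} := stmtX4_of Vale.Agent.P240.R2.H684.XB.stmtX3 stmtX4a stmtX4b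

theorem stmtX4d : StmtX4d.{u} := by
  intro ι _ F _ _ L _ _ r _ _ C x h hs hZ p hp hpr ⟨d, h1, h2, hD⟩ hπ
  exact stmtX4' ι F L r C x h hs hZ d hD p hp hpr ((Nat.Prime.coprime_iff_not_dvd hp).2 h1)
    ((Nat.Prime.coprime_iff_not_dvd hp).2 h2) hπ

end Vale.Agent.P240.R2.H164.EX
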