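import Vale.Agent.P240.R2.H164.EX3

/-!
Every automorphism of a group given by Chevalley's relations is the product of an inner automorphism
and one that acts on the root elements of the simple roots by a field automorphism and scalars, if
the diagram has no automorphisms.
-/

set_option autoImplicit false

namespace Vale.Agent.P240.R2.H164.EX

open Subgroup Vale.Agent.P240.K Vale.Agent.P240.H195 Vale.Agent.P240.R2.H986.X
  Vale.Agent.P240.R2.H997

universe u

section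
variable {ι : Type} [Finite ι] {F : Type} [Field F] [Finite F] {L : Type u} [Group L] [Finite L]
  {C : RC ι} {x : ι → F → L}

/-- the split BN-pair -/
lemma sb (r : ℕ) [Fact r.Prime] [CharP F r] (h : CS C x) (hsimple : IsSimpleGroup L)
    (hcen : ∀ g : L, (∀ y, g * y = y * g) → g = 1) :
    SB r (BB C x) (NN C x) (UU C x) (SS C x) :=
  (Vale.Agent.P240.R2.H684.XB.stmtX3 ι F L r C x h hsimple hcen).toSB

/-- automorphisms that stabilize `B` and the opposite subgroup, no automorphisms of the diagram -/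
theorem Al_of_norm (r : ℕ) [Fact r.Prime] [CharP F r] (h : CS C x) (hsimple : IsSimpleGroup L)
    (hcen : ∀ g : L, (∀ y, g * y = y * g) → g = 1)
    (hperm : ∀ π : Equiv.Perm {i // C.simp i},
      (∀ i j, C.pr i.1 j.1 = 0 ↔ C.pr (π i).1 (π j).1 = 0) →
      ((r = 2 ∨ r = 3) ∨ ∀ i j, C.pr i.1 j.1 = C.pr (π i).1 (π j).1) → π = 1)
    {l : List ι} (hls : ∀ i ∈ l, C.simp i) (hl : ∀ j, 0 < C.ht j → C.ht (wl C l j) < 0)
    {e : MulAut L} (heB : am e (BB C x) = BB C x)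
    (heC : am e (cj (nl C x l) (BB C x)) = cj (nl C x l) (BB C x)) :
    ∃ (σ : RingAut F) (c : ι → F), Al C x e σ c := by
  obtain ⟨π, hπ1, hπ2, hπ3, -⟩ := stmtX4b ι F L r C x h hsimple hcen l hls hl e heB heC
  have hπ : π = 1 := hperm π hπ2 hπ3
  refine stmtX4a ι F L r C x h hsimple hcen l hls hl e heB heC ?_
  rintro s ⟨i, hi, rfl⟩
  have := hπ1 ⟨i, hi⟩
  rw [hπ] at this
  exact this

/-- **every automorphism is inner times `Al`** -/
theorem exists_Al (r : ℕ) [Fact r.Prime] [CharP F r] (h : CS C x) (hsimple : IsSimpleGroup L)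
    (hcen : ∀ g : L, (∀ y, g * y = y * g) → g = 1)
    (hperm : ∀ π : Equiv.Perm {i // C.simp i},
      (∀ i j, C.pr i.1 j.1 = 0 ↔ C.pr (π i).1 (π j).1 = 0) →
      ((r = 2 ∨ r = 3) ∨ ∀ i j, C.pr i.1 j.1 = C.pr (π i).1 (π j).1) → π = 1)
    {l : List ι} (hls : ∀ i ∈ l, C.simp i) (hl : ∀ j, 0 < C.ht j → C.ht (wl C l j) < 0)
    (f : MulAut L) :
    ∃ (g : L) (e : MulAut L) (σ : RingAut F) (c : ι → F), f = MulAut.conj g * e ∧
      am e (BB C x) = BB C x ∧ am e (cj (nl C x l) (BB C x)) = cj (nl C x l) (BB C x) ∧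
      Al C x e σ c := by
  have hr : r.Prime := Fact.out
  have hSB := sb r h hsimple hcen
  obtain ⟨g, hgB, hgC⟩ := Vale.Agent.P240.R2.H112.Br.norm_all hSB hr (CS.nl_mem hls)
    (opp_nl h hl) f
  obtain ⟨σ, c, hc⟩ := Al_of_norm r h hsimple hcen hperm hls hl hgB hgC
  exact ⟨g, _, σ, c, by rw [mul_inv_cancel_left], hgB, hgC, hc⟩

/-- an automorphism `conj t`, `t ∈ T`, is of the form `Al` with trivial field automorphism -/
lemma Al_conj_T (h : CS C x) {t : L} (ht : t ∈ TT C x) :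
    ∃ c : ι → F, Al C x (MulAut.conj t) (1 : RingAut F) c := by
  have h1 : ∀ j, ∃ c : F, c ≠ 0 ∧ ∀ u, t * x j u * t⁻¹ = x j (c * u) ∧
      t * x (C.neg j) u * t⁻¹ = x (C.neg j) (c⁻¹ * u) := by
    intro j
    refine closure_induction (p := fun t _ => ∃ c : F, c ≠ 0 ∧ ∀ u, t * x j u * t⁻¹ = x j (c * u) ∧
      t * x (C.neg j) u * t⁻¹ = x (C.neg j) (c⁻¹ * u)) ?_ ?_ ?_ ?_ ht
    · rintro _ ⟨i, s, hs, rfl⟩
      refine ⟨s ^ C.pr j i, zpow_ne_zero _ hs, fun u => ⟨h.h_act i j hs u, ?_⟩⟩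
      rw [h.h_act i (C.neg j) hs u, C.pr_neg, zpow_neg]
    · exact ⟨1, one_ne_zero, fun u => by simp⟩
    · rintro a b _ _ ⟨c, hc, h1⟩ ⟨c', hc', h2⟩
      refine ⟨c * c', mul_ne_zero hc hc', fun u => ⟨?_, ?_⟩⟩
      · have e1 : a * b * x j u * (a * b)⁻¹ = a * (b * x j u * b⁻¹) * a⁻¹ := by group
        rw [e1, (h2 u).1, (h1 _).1, mul_assoc]
      · have e1 : a * b * x (C.neg j) u * (a * b)⁻¹ = a * (b * x (C.neg j) u * b⁻¹) * a⁻¹ := by
          group
        rw [e1, (h2 u).2, (h1 _).2, mul_inv, mul_assoc]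
    · rintro a _ ⟨c, hc, h1⟩
      refine ⟨c⁻¹, inv_ne_zero hc, fun u => ⟨?_, ?_⟩⟩
      · have h2 := (h1 (c⁻¹ * u)).1
        rw [mul_inv_cancel_left₀ hc] at h2
        rw [← h2]
        group
      · have h2 := (h1 (c * u)).2
        rw [inv_mul_cancel_left₀ hc] at h2
        rw [← h2, inv_inv]
        group
  choose c hc using h1
  refine ⟨c, fun i _ => ⟨(hc i).1, fun u => ?_⟩⟩
  rw [MulAut.conj_apply, MulAut.conj_apply, ((hc i).2 u).1, ((hc i).2 u).2, RingAut.one_apply]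
  exact ⟨rfl, rfl⟩

end

end Vale.Agent.P240.R2.H164.EX
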