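import Vale.Agent.P240.R2.H38.V5
import Vale.Agent.P240.R2.H687.CntSU
import Vale.Agent.P240.R2.H387.M2

/-!
The count for a field automorphism of odd order `p ∣ q + 1`, every subgroup `SU_n(q) ≤ S ≤ GU_n(q)`.
-/

set_option autoImplicit false

namespace Vale.Agent.P240.R2.H164

open Matrix Vale.Agent.P240.R2.AS Vale.Agent.P240.R2.H687
open Vale.Agent.P240.R2.H986.St
open scoped Classical

universe u v w

noncomputable section

lemma card_mul_map {G : Type u} {G' : Type v} [Group G] [Group G'] (f : G →* G')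
    (S : Subgroup G) (h : f.ker ≤ S) : Nat.card S = Nat.card (S.map f) * Nat.card f.ker := by
  have h1 := Subgroup.card_mul_index (f.domRestrict S).ker
  rw [Subgroup.index_ker, MonoidHom.domRestrict_range, MonoidHom.ker_domRestrict,
    Nat.card_congr (Subgroup.subgroupOfEquivOfLe h).toEquiv] at h1
  rw [← h1, mul_comm]

lemma num_scnt {n a q A F₁ F₀ t N SS SU SU₀ D D₀ : ℕ} (hn : 3 ≤ n) (hA : 13 ≤ A)
    (hq : A * (a + 1) = q + 1) (hSU : (q + 1) * SU = F₁ * (q + 1) ^ n)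
    (hSU₀ : (a + 1) * SU₀ = F₀ * (a + 1) ^ n) (hS : SS = D * SU) (hN : N ≤ A * (D₀ * SU₀))
    (hD : D₀ ≤ D) (hD0 : 0 < D) (hF : 0 < F₁) (ht : F₀ < 3 * 2 ^ n * t) :
    F₁ * N < 2 * (SS * t) := by
  obtain ⟨m, rfl⟩ : ∃ m, n = m + 2 := ⟨n - 2, by omega⟩
  have h1 : SU = F₁ * (q + 1) ^ (m + 1) := by
    apply Nat.eq_of_mul_eq_mul_left (by omega : 0 < q + 1)
    rw [hSU]
    ring
  have h2 : SU₀ = F₀ * (a + 1) ^ (m + 1) := by
    apply Nat.eq_of_mul_eq_mul_left (by omega : 0 < a + 1)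
    rw [hSU₀]
    ring
  have h3 : 3 * 2 ^ (m + 1) ≤ A ^ m := by
    have := thirteen_pow (n := m + 1) (by omega) hA
    simpa using this
  have hA0 : 0 < A := by omega
  have h4 : A * F₀ < 2 * (A ^ (m + 1) * t) := by
    calc A * F₀ < A * (3 * 2 ^ (m + 2) * t) := Nat.mul_lt_mul_of_pos_left ht hA0
      _ = 2 * (A * (3 * 2 ^ (m + 1)) * t) := by ring
      _ ≤ 2 * (A * A ^ m * t) :=
        Nat.mul_le_mul_left _ (Nat.mul_le_mul_right _ (Nat.mul_le_mul_left _ h3))
      _ = 2 * (A ^ (m + 1) * t) := by ring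
  calc F₁ * N ≤ F₁ * (A * (D * SU₀)) :=
        Nat.mul_le_mul_left _ (hN.trans (Nat.mul_le_mul_left _ (Nat.mul_le_mul_right _ hD)))
    _ = (F₁ * D * (a + 1) ^ (m + 1)) * (A * F₀) := by rw [h2]; ring
    _ < (F₁ * D * (a + 1) ^ (m + 1)) * (2 * (A ^ (m + 1) * t)) :=
        Nat.mul_lt_mul_of_pos_left h4
          (Nat.mul_pos (Nat.mul_pos hF hD0) (Nat.pow_pos (Nat.succ_pos a)))
    _ = 2 * (SS * t) := by
        rw [hS, h1, ← hq, mul_pow]
        ring

/-- scalars for the iterates -/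
lemma scal_iterate {K : Type u} [Field K] {n : ℕ} (σ : RingAut K) {M : Matrix (Fin n) (Fin n) K}
    (h : ∃ a : K, M.map σ = a • M) (k : ℕ) : ∃ a : K, M.map (σ ^ k : RingAut K) = a • M := by
  obtain ⟨a, ha⟩ := h
  induction k with
  | zero =>
    refine ⟨1, ?_⟩
    rw [one_smul]
    ext i j
    rfl
  | succ k ih =>
    obtain ⟨b, hb⟩ := ih
    refine ⟨(σ ^ k : RingAut K) a * b, ?_⟩
    ext i j
    have h1 := congrFun (congrFun ha i) j
    have h2 := congrFun (congrFun hb i) j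
    simp only [Matrix.map_apply, Matrix.smul_apply, smul_eq_mul] at h1 h2 ⊢
    rw [pow_succ]
    change (σ ^ k : RingAut K) (σ (M i j)) = _
    rw [h1, map_mul, h2, mul_assoc]

variable {K : Type u} [Field K] [Fintype K] [StarRing K] {n : ℕ}

/-- **The count of helper38's `SCnt`**, odd `p`. -/
theorem scnt_odd {q : ℕ} (hq : 3 ≤ q) (hK : Nat.card K = q ^ 2) (hs : ∀ x : K, star x = x ^ q)
    {p : ℕ} (hp : p.Prime) (hp2 : p ≠ 2) (hpq : p ∣ q + 1) (h38 : ¬ (p = 3 ∧ q = 8)) (hn : 3 ≤ n)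
    (S : Subgroup (GU K n)) (hS : H38.SU K n ≤ S) (σ : K ≃+* K)
    (hσs : ∀ a, σ (star a) = star (σ a)) (hσp : (σ : RingAut K) ^ p = 1)
    (hσ : σ ≠ RingEquiv.refl K) : H38.SCnt S σ := by
  have : Fact p.Prime := ⟨hp⟩
  set σ' : SA K := ⟨σ, hσs⟩ with hσ'
  have hord : orderOf σ' = p := by
    refine orderOf_eq_prime (Subtype.ext ?_) fun h => hσ ?_
    · exact hσp
    · exact congrArg Subtype.val h
  obtain ⟨a, ha4, hqa, hpa, hFa, hFs, k, hk⟩ := fix_data hq hK hs hp hp2 hpq h38 σ' hord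
  have hodd : Odd p := hp.odd_of_ne_two hp2
  have hp3 : 3 ≤ p := by
    have := hp.two_le
    omega
  obtain ⟨A, T, hA, hSum⟩ := exponents hodd (by omega : 2 ≤ a)
  have hA13 := A_ge ha4 hp3 hA
  have hcard : Nat.card K = a ^ (2 * p) := by
    rw [hK, hqa, ← pow_mul, mul_comm]
  have hstar : ∀ x : K, star x = x ^ (a ^ p) := by
    intro x
    rw [hs, hqa]
  -- the generator
  set φ : K →+* K := ((σ' ^ k).1 : K →+* K) with hφdef
  have hφ : ∀ x, φ x = x ^ (a ^ 2) := hk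
  have hφs : ∀ x, φ (star x) = star (φ x) := fun x => SA_star (σ' ^ k) x
  have hfixpow : ∀ (τ : SA K) (x : K), τ.1 x = x → ∀ m : ℕ, (τ ^ m).1 x = x := by
    intro τ x h m
    induction m with
    | zero => rfl
    | succ m ih =>
      rw [pow_succ]
      show (τ ^ m).1 (τ.1 x) = x
      rw [h, ih]
  have hne : σ' ^ k ≠ 1 := by
    intro h1
    obtain ⟨g, hg⟩ := IsCyclic.exists_generator (α := Kˣ)
    have ho : orderOf g = Nat.card K - 1 := by
      rw [orderOf_eq_card_of_forall_mem_zpowers hg, Nat.card_units]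
    have h2 : (g : K) ^ (a ^ 2) = g := by
      rw [← hφ, hφdef, h1]
      rfl
    have h3 : g ^ (a ^ 2 - 1) = 1 := by
      have h4 : g ^ (a ^ 2 - 1) * g = 1 * g := by
        rw [← pow_succ, Nat.sub_add_cancel (Nat.one_le_pow _ _ (by omega)), one_mul]
        exact Units.ext h2
      exact mul_right_cancel h4
    have h5 := orderOf_dvd_of_pow_eq_one h3
    rw [ho, hcard] at h5
    have h6 : 0 < a ^ 2 - 1 := by
      have : 4 ^ 2 ≤ a ^ 2 := Nat.pow_le_pow_left ha4 2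
      omega
    have h7 := Nat.le_of_dvd h6 h5
    have h8 : a ^ 2 < a ^ (2 * p) :=
      Nat.pow_lt_pow_right (by omega) (by have := hp.two_le; omega)
    omega
  have hcop : k.Coprime (orderOf σ') := by
    rw [hord]
    refine (Nat.Coprime.symm ((Nat.Prime.coprime_iff_not_dvd hp).2 fun hd => hne ?_))
    exact orderOf_dvd_iff_pow_eq_one.1 (hord ▸ hd)
  have hfix : ∀ x : K, φ x = x → σ'.1 x = x := by
    intro x hx
    obtain ⟨m, hm⟩ := exists_pow_eq_self_of_coprime hcop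
    have h1 := hfixpow (σ' ^ k) x hx m
    rw [hm] at h1
    exact h1
  -- the scalars
  have hZ : ∀ g ∈ S, ∀ c : K,
      (g : Matrix (Fin n) (Fin n) K).map φ = c • (g : Matrix (Fin n) (Fin n) K) →
      c ∈ {c : K | c ^ A = 1} := by
    intro g _ c hc
    exact scal_pow (by omega) hSum hcard hstar φ hφ hc
  have h1 := card_scal_gen φ hφs (FI σ') (FI_star σ') (fun x h => exists_FI σ' (hfix x h))
    S {c : K | c ^ A = 1} hZ
  set S₀ := S.comap (uMap n (FI σ') (FI_star σ')) with hS₀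
  have hfinM : Finite (Matrix (Fin n) (Fin n) K) := inferInstanceAs (Finite (Fin n → Fin n → K))
  have hfinM₀ : Finite (Matrix (Fin n) (Fin n) (FT σ')) :=
    inferInstanceAs (Finite (Fin n → Fin n → FT σ'))
  have hfin : Finite (GU K n) := Subtype.finite
  have hfin₀ : Finite (GU (FT σ') n) := Subtype.finite
  have hN : Nat.card {h : S // ∃ a : K, (H38.mx h).map σ = a • H38.mx h} ≤
      A * Nat.card S₀ := by
    refine le_trans ?_ (h1.trans (Nat.mul_le_mul_right _ (card_roots_le (by omega))))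
    refine Nat.card_le_card_of_injective
      (fun h => ⟨h.1.1, h.1.2, scal_iterate (σ : RingAut K) h.2 k⟩) ?_
    intro g g' h
    exact Subtype.ext (Subtype.ext (congrArg (fun y => y.1) h))
  have hSU : SUg K n ≤ S := fun g hg => hS (mem_SUg.1 hg)
  have hSU₀ : SUg (FT σ') n ≤ S₀ := by
    rw [← comap_SUg' (K := K) (FI σ') (FI_star σ')]
    exact Subgroup.comap_mono hSU
  have hc := card_mul_map (detU K n) S hSU
  have hc₀ := card_mul_map (detU (FT σ') n) S₀ hSU₀
  have hD : Nat.card (S₀.map (detU (FT σ') n)) ≤ Nat.card (S.map (detU K n)) := by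
    have hmem : ∀ x ∈ S₀.map (detU (FT σ') n), ∃ y ∈ S.map (detU K n), (y : K) = FI σ' (x : FT σ') := by
      rintro _ ⟨g, hg, rfl⟩
      refine ⟨detU K n (uMap n (FI σ') (FI_star σ') g), ⟨_, hg, rfl⟩, ?_⟩
      change (((uMap n (FI σ') (FI_star σ') g : GU K n)) : Matrix (Fin n) (Fin n) K).det =
        FI σ' (g : Matrix (Fin n) (Fin n) (FT σ')).det
      rw [uMap_coe, RingHom.map_det]
      rfl
    choose! f hf hf' using hmem
    refine Nat.card_le_card_of_injective (fun x => ⟨f x.1, hf x.1 x.2⟩) ?_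
    intro x y hxy
    have h2 : f x.1 = f y.1 := congrArg Subtype.val hxy
    apply Subtype.ext
    apply Subtype.ext
    apply (FI σ').injective
    rw [← hf' x.1 x.2, ← hf' y.1 y.2, h2]
  have hN1 : Nat.card (unitary K) = q + 1 := by
    rw [card_unitary_N1, H715.card_N1_of_pow (by omega) hK hs]
  have hN0 : Nat.card (unitary (FT σ')) = a + 1 := by
    rw [card_unitary_N1, H715.card_N1_of_pow (by omega) hFa hFs]
  have hU := H715.card_unitary_pow (by omega) hK hs n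
  have hU₀ := H715.card_unitary_pow (by omega) hFa hFs n
  have hUS := card_U_SU (K := K) (n := n) (by omega)
  have hUS₀ := card_U_SU (K := FT σ') (n := n) (by omega)
  have hF1 : 0 < (Fr K n).card := by
    have h2 : 0 < Nat.card (GU K n) := Nat.card_pos
    rw [hU] at h2
    exact Nat.pos_of_mul_pos_right h2
  refine ⟨mapW (lam (FI σ') (FI_star σ') 1) (lam_injective _ _ _) (Fr (FT σ') n),
    Fg_sub (FI σ') (FI_star σ') 1, Fg_perm (FI σ') (FI_star σ') 1, ?_, ?_⟩
  · intro w hw P hP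
    obtain ⟨w₀, _, rfl⟩ := mem_mapW.1 hw
    obtain ⟨Q, _, rfl⟩ := List.mem_map.1 hP
    rw [lam_coe, conjM]
    simp only [OneMemClass.coe_one, one_mul, star_one, mul_one]
    ext i j
    exact FI_fix σ' _
  · rw [t_map]
    refine num_scnt (n := n) (a := a) (q := q) (A := A)
      (SU := Nat.card (SUg K n)) (SU₀ := Nat.card (SUg (FT σ') n)) hn hA13 ?_ ?_ ?_ hc ?_ hD
      Nat.card_pos hF1 (H387.stmtM2 (FT σ') a (by omega) hFa hFs n (by omega))
    · rw [hA, hqa]
    · rw [← hN1, ← hUS, hU, hN1]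
    · rw [← hN0, ← hUS₀, hU₀, hN0]
    · rw [hc₀] at hN
      exact hN

/-- the special unitary group -/
theorem scnt_SU {q : ℕ} (hq : 3 ≤ q) (hK : Nat.card K = q ^ 2) (hs : ∀ x : K, star x = x ^ q)
    {p : ℕ} (hp : p.Prime) (hp2 : p ≠ 2) (hpq : p ∣ q + 1) (h38 : ¬ (p = 3 ∧ q = 8)) (hn : 3 ≤ n)
    (σ : K ≃+* K) (hσs : ∀ a, σ (star a) = star (σ a)) (hσp : (σ : RingAut K) ^ p = 1)
    (hσ : σ ≠ RingEquiv.refl K) : H38.SCnt (H38.SU K n) σ :=
  scnt_odd hq hK hs hp hp2 hpq h38 hn _ le_rfl σ hσs hσp hσ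

end

end Vale.Agent.P240.R2.H164
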