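import Vale.Agent.P240.R2.AS.Stmts2
import Vale.Agent.P240.R2.H687.Fy
import Vale.Agent.P240.R2.H727.M4
import Vale.Agent.P240.R2.H945.SemiG
import Vale.Agent.P240.R2.H164.A8a

/-!
Cycles for groups generated by a group of unitary matrices and a field automorphism: the common
assembly.
-/

set_option autoImplicit false

namespace Vale.Agent.P240.R2.H164

open Matrix Vale.Agent.P240 Vale.Agent.P240.K Vale.Agent.P240.R2.AS Vale.Agent.P240.R2.H687
open scoped Classical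

universe u v w

noncomputable section

/-- 687's family of frames for the conjugates of `x`, with the sum of the `t` -/
theorem family_sum {K : Type u} {K₀ : Type v} {Γ : Type w} [Field K] [StarRing K] [Fintype K]
    [Field K₀] [StarRing K₀] [Fintype K₀] [Group Γ] {n : ℕ} (f : K₀ →+* K)
    (hf : ∀ x, f (star x) = star (f x)) (e : GU K n →* Γ) (x : Γ) (S : Subgroup (GU K n))
    (ew : List (Ln K n) → Γ)
    (hcomm : ∀ g ∈ S, ∀ u v : List (Ln K₀ n), u ++ v ∈ Fr K₀ n →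
      ew (u.map (lam f hf g)) * (e g * x * (e g)⁻¹) =
        (e g * x * (e g)⁻¹) * ew (u.map (lam f hf g))) :
    ∃ (Y : Finset Γ) (Fy : Γ → Finset (List (Ln K n))),
      (∀ y, y ∈ Y ↔ y ∈ conjs e S x) ∧
      (∀ y ∈ Y, Fy y ⊆ Fr K n ∧ (∀ w ∈ Fy y, ∀ w', w.Perm w' → w' ∈ Fy y) ∧
        ∀ u v, u ++ v ∈ Fy y → ew u * y = y * ew u) ∧
      ∑ y ∈ Y, t (Fy y) = Nat.card (conjs e S x) * t (Fr K₀ n) := by
  set Y : Finset Γ := (conjs_finite e S x).toFinset with hY
  have hmem : ∀ y, y ∈ Y ↔ y ∈ conjs e S x := fun y => Set.Finite.mem_toFinset _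
  have hr : ∀ y : Γ, ∃ g : GU K n, y ∈ Y → g ∈ S ∧ e g * x * (e g)⁻¹ = y := by
    intro y
    by_cases h : y ∈ Y
    · obtain ⟨g, hg', hg⟩ := (hmem y).1 h
      exact ⟨g, fun _ => ⟨hg', hg⟩⟩
    · exact ⟨1, fun h' => absurd h' h⟩
  choose r hr using hr
  refine ⟨Y, fun y => Fg f hf (r y), hmem, fun y hy => ⟨Fg_sub f hf _, Fg_perm f hf _,
    fun u v huv => ?_⟩, ?_⟩
  · obtain ⟨w₀, h₀, h1⟩ := mem_mapW.1 huv
    obtain ⟨u₀, v₀, rfl, rfl, rfl⟩ := List.map_eq_append_iff.1 h1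
    have h := hcomm (r y) (hr y hy).1 u₀ v₀ h₀
    rwa [(hr y hy).2] at h
  · simp only [t_Fg]
    rw [Finset.sum_const, smul_eq_mul]
    congr 1
    rw [hY, Nat.card_coe_set_eq, Set.ncard_eq_toFinset_card _ (conjs_finite e S x)]

/-- the common assembly -/
theorem semi_data {K : Type u} {K₀ : Type v} {Γ : Type w} [Field K]
    [StarRing K] [Fintype K] [Field K₀] [StarRing K₀] [Fintype K₀] [Group Γ] {p n : ℕ}
    (f : K₀ →+* K) (hf : ∀ x, f (star x) = star (f x))
    (e : GU K n →* Γ) (x : Γ) (S : Subgroup (GU K n)) (ew : List (Ln K n) → Γ) (N X : Subgroup Γ)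
    (hN : ∀ w, Orth w → ew w ∈ N) (hX : ∀ w, Orth w → ew w ∈ X)
    (heN : ∀ g ∈ S, e g ∈ N) (heX : ∀ g ∈ S, e g ∈ X) (hxX : x ∈ X) (hxN : x ∉ N)
    (hNx' : ∀ y ∈ N, x⁻¹ * y * x ∈ N) (hxp : x ^ p = 1)
    (hcomm : ∀ g ∈ S, ∀ u v : List (Ln K₀ n), u ++ v ∈ Fr K₀ n →
      ew (u.map (lam f hf g)) * (e g * x * (e g)⁻¹) =
        (e g * x * (e g)⁻¹) * ew (u.map (lam f hf g))) :
    ∃ (Y : Finset Γ) (Fy : Γ → Finset (List (Ln K n))),
      H945.SemiData p (Fr K n) ew (N ⊓ X) X Y Fy ∧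
      ∑ y ∈ Y, t (Fy y) = Nat.card (conjs e S x) * t (Fr K₀ n) := by
  obtain ⟨Y, Fy, h1, h2, h3⟩ := family_sum f hf e x S ew hcomm
  have hpre : ∀ u v : List (Ln K n), u ++ v ∈ Fr K n → Orth u := by
    intro u v h
    exact (List.pairwise_append.1 ((mem_Fr K).1 h).2).1
  refine ⟨Y, Fy, ⟨fun u v h => ⟨hN u (hpre u v h), hX u (hpre u v h)⟩, inf_le_right,
    fun y hy => ?_, fun y hy => ?_, fun y hy h => hxN ?_, fun y hy y' hy' => ⟨?_, ?_⟩,
    fun y hy => (h2 y hy).1, fun y hy => (h2 y hy).2.1, fun y hy => (h2 y hy).2.2⟩, h3⟩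
  · obtain ⟨g, hg, rfl⟩ := (h1 y).1 hy
    rw [conj_pow, hxp, mul_one, mul_inv_cancel]
  · obtain ⟨g, hg, rfl⟩ := (h1 y).1 hy
    exact X.mul_mem (X.mul_mem (heX g hg) hxX) (X.inv_mem (heX g hg))
  · obtain ⟨g, hg, rfl⟩ := (h1 y).1 hy
    have := N.mul_mem (N.mul_mem (N.inv_mem (heN g hg)) h.1) (heN g hg)
    have h4 : (e g)⁻¹ * (e g * x * (e g)⁻¹) * e g = x := by group
    rwa [h4] at this
  · obtain ⟨g, hg, rfl⟩ := (h1 y).1 hy
    obtain ⟨g', hg', rfl⟩ := (h1 y').1 hy'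
    have h4 : (e g * x * (e g)⁻¹)⁻¹ * (e g' * x * (e g')⁻¹) =
        e g * (x⁻¹ * ((e g)⁻¹ * e g') * x) * (e g')⁻¹ := by group
    rw [h4]
    exact N.mul_mem (N.mul_mem (heN g hg) (hNx' _ (N.mul_mem (N.inv_mem (heN g hg)) (heN g' hg'))))
      (N.inv_mem (heN g' hg'))
  · obtain ⟨g, hg, rfl⟩ := (h1 y).1 hy
    obtain ⟨g', hg', rfl⟩ := (h1 y').1 hy'
    refine X.mul_mem (X.inv_mem ?_) ?_
    · exact X.mul_mem (X.mul_mem (heX g hg) hxX) (X.inv_mem (heX g hg))
    · exact X.mul_mem (X.mul_mem (heX g' hg') hxX) (X.inv_mem (heX g' hg'))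

/-- injective homomorphisms preserve the combinatorial hypotheses -/
theorem Comb.map {G G' L : Type*} [Group G] [Group G'] {p n : ℕ} {F : Finset (List L)}
    {e : List L → G} (h : Comb p n F e) (f : G →* G') (hf : Function.Injective f) :
    Comb p n F (fun w => f (e w)) where
  len := h.len
  nodup := h.nodup
  perm := h.perm
  plane := fun u a b c d v w h1 h2 => by
    show f _ = f _
    rw [h.plane u a b c d v w h1 h2]
  comm := fun u v w h1 => by
    show f _ * f _ = f _ * f _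
    rw [← map_mul, h.comm u v w h1, map_mul]
  pow := fun u v h1 => by
    show f _ ^ p = 1
    rw [← map_pow, h.pow u v h1, map_one]
  nil := by
    show f _ = 1
    rw [h.nil, map_one]
  full := fun w hw => by
    show f _ = 1
    rw [h.full w hw, map_one]
  card := fun w hw => by
    have hset : {y | ∃ u v, w = u ++ v ∧ y = f (e u)} = f '' {y | ∃ u v, w = u ++ v ∧ y = e u} := by
      ext y
      constructor
      · rintro ⟨u, v, hw, rfl⟩
        exact ⟨_, ⟨u, v, hw, rfl⟩, rfl⟩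
      · rintro ⟨_, ⟨u, v, hw, rfl⟩, rfl⟩
        exact ⟨u, v, hw, rfl⟩
    rw [← h.card w hw, ← Subgroup.card_map_of_injective hf, MonoidHom.map_closure, ← hset]
  sep := fun A u v B l g h1 h2 hu hv => by
    have e1 : ∀ w : List L, SS (fun w => f (e w)) w = (SS e w).map f := by
      intro w
      rw [SS, SS, MonoidHom.map_closure]
      congr 1
      ext y
      constructor
      · rintro ⟨x, hx, rfl⟩
        exact ⟨_, ⟨x, hx, rfl⟩, rfl⟩
      · rintro ⟨_, ⟨x, hx, rfl⟩, rfl⟩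
        exact ⟨x, hx, rfl⟩
    rw [e1, ← MonoidHom.map_zpowers, ← MonoidHom.map_zpowers, ← Subgroup.map_sup,
      ← Subgroup.map_sup, (Subgroup.map_injective hf).eq_iff]
    exact h.sep A u v B l g h1 h2 hu hv

variable {K : Type u} [Field K] [StarRing K] {n : ℕ}

/-- `GU_n(q) → PΓU_n(q)` -/
def e1 (K : Type u) [Field K] [StarRing K] (n : ℕ) : GU K n →* PGamU K n :=
  SemidirectProduct.inl.comp (QuotientGroup.mk' (Subgroup.center (GU K n)))

lemma e1_apply (g : GU K n) : e1 K n g = SemidirectProduct.inl (QuotientGroup.mk g) := rfl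

lemma e1_eq_one {g : GU K n} : e1 K n g = 1 ↔ g ∈ Subgroup.center (GU K n) := by
  rw [e1_apply, ← map_one SemidirectProduct.inl, SemidirectProduct.inl_injective.eq_iff]
  exact QuotientGroup.eq_one_iff g

instance finSA [Finite K] : Finite (SA K) := by
  have : Finite (RingAut K) :=
    Finite.of_injective (fun f : RingAut K => (f : K → K)) fun f g h => RingEquiv.ext (congrFun h)
  exact Subtype.finite

instance finPGamU [Finite K] : Finite (PGamU K n) := by
  have : Finite (Matrix (Fin n) (Fin n) K) := inferInstanceAs (Finite (Fin n → Fin n → K))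
  have : Finite (GU K n) := Subtype.finite
  have : Finite (PGU K n) := inferInstance
  exact Finite.of_equiv _ SemidirectProduct.equivProd.symm

lemma inr_pow {σ : SA K} {p : ℕ} (hp : σ ^ p = 1) :
    (SemidirectProduct.inr σ : PGamU K n) ^ p = 1 := by
  rw [← map_pow, hp, map_one]

lemma mem_N {y : PGamU K n} :
    y ∈ (SemidirectProduct.inl : PGU K n →* PGamU K n).range ↔ y.right = 1 := by
  rw [SemidirectProduct.range_inl_eq_ker_rightHom]
  rfl

/-- the assembly in `PΓU_n(q)` -/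
theorem semi_dataP {K : Type u} {K₀ : Type v} [Field K]
    [StarRing K] [Fintype K] [Field K₀] [StarRing K₀] [Fintype K₀] {p n m : ℕ}
    (f : K₀ →+* K) (hf : ∀ x, f (star x) = star (f x))
    (e : GU K m →* PGamU K n) (he : ∀ g, (e g).right = 1) (σ : SA K) (hσ : σ ≠ 1) (hσp : σ ^ p = 1)
    (S : Subgroup (GU K m)) (ew : List (Ln K m) → PGU K n) (H : Subgroup (PGamU K n))
    (hH : ∀ w, Orth w → SemidirectProduct.inl (ew w) ∈ H) (heH : ∀ g ∈ S, e g ∈ H)
    (hσH : SemidirectProduct.inr σ ∈ H)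
    (hcomm : ∀ g ∈ S, ∀ u v : List (Ln K₀ m), u ++ v ∈ Fr K₀ m →
      SemidirectProduct.inl (ew (u.map (lam f hf g))) *
        (e g * SemidirectProduct.inr σ * (e g)⁻¹) =
      (e g * SemidirectProduct.inr σ * (e g)⁻¹) *
        SemidirectProduct.inl (ew (u.map (lam f hf g)))) :
    ∃ (Y : Finset (PGamU K n)) (Fy : PGamU K n → Finset (List (Ln K m))),
      H945.SemiData p (Fr K m) (fun w => (SemidirectProduct.inl (ew w) : PGamU K n))
        ((SemidirectProduct.inl : PGU K n →* PGamU K n).range ⊓ H) H Y Fy ∧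
      ∑ y ∈ Y, t (Fy y) =
        Nat.card (conjs e S (SemidirectProduct.inr σ)) * t (Fr K₀ m) := by
  have hr : ∀ y : PGamU K n, y ∈ (SemidirectProduct.inl : PGU K n →* PGamU K n).range ↔
      y.right = 1 := fun y => mem_N
  refine semi_data f hf e (SemidirectProduct.inr σ) S
    (fun w => SemidirectProduct.inl (ew w))
    (SemidirectProduct.inl : PGU K n →* PGamU K n).range H (fun w _ => ⟨_, rfl⟩) hH
    (fun g _ => (hr _).2 (he g)) heH hσH (fun h => hσ ?_) (fun y hy => ?_)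
    (inr_pow hσp) hcomm
  · exact (hr _).1 h
  · rw [hr] at hy ⊢
    simp [hy]

theorem semi_PGamU {K : Type u} {K₀ : Type v} [Field K]
    [StarRing K] [Fintype K] [Field K₀] [StarRing K₀] [Fintype K₀] {p n m : ℕ}
    [Fact p.Prime] (hm : 2 ≤ m) (f : K₀ →+* K) (hf : ∀ x, f (star x) = star (f x))
    (e : GU K m →* PGamU K n) (he : ∀ g, (e g).right = 1) (σ : SA K) (hσ : σ ≠ 1) (hσp : σ ^ p = 1)
    (S : Subgroup (GU K m)) (ew : List (Ln K m) → PGU K n)
    (hC : Comb p m (Fr K m) ew) (H : Subgroup (PGamU K n))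
    (hH : ∀ w, Orth w → SemidirectProduct.inl (ew w) ∈ H) (heH : ∀ g ∈ S, e g ∈ H)
    (hσH : SemidirectProduct.inr σ ∈ H)
    (hcomm : ∀ g ∈ S, ∀ u v : List (Ln K₀ m), u ++ v ∈ Fr K₀ m →
      SemidirectProduct.inl (ew (u.map (lam f hf g))) *
        (e g * SemidirectProduct.inr σ * (e g)⁻¹) =
      (e g * SemidirectProduct.inr σ * (e g)⁻¹) *
        SemidirectProduct.inl (ew (u.map (lam f hf g))))
    (hcount : (Fr K m).card < Nat.card (conjs e S (SemidirectProduct.inr σ)) * t (Fr K₀ m)) :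
    ∃ c : List (Ap p H) →₀ ℚ, IsChain m c ∧ bd c = 0 ∧ c ≠ 0 := by
  obtain ⟨Y, Fy, h1, h2⟩ := semi_dataP (p := p) f hf e he σ hσ hσp S ew H hH heH hσH hcomm
  exact H945.semi_Ap hm (Comb.map hC SemidirectProduct.inl SemidirectProduct.inl_injective) h1
    (by rwa [h2])

/-- with half as many obstructions -/
theorem semi_PGamU₂ {K : Type u} {K₀ : Type v} [Field K]
    [StarRing K] [Fintype K] [Field K₀] [StarRing K₀] [Fintype K₀] {p n m : ℕ}
    [Fact p.Prime] (hm : 2 ≤ m) (f : K₀ →+* K) (hf : ∀ x, f (star x) = star (f x))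
    (e : GU K m →* PGamU K n) (he : ∀ g, (e g).right = 1) (σ : SA K) (hσ : σ ≠ 1) (hσp : σ ^ p = 1)
    (S : Subgroup (GU K m)) (ew : List (Ln K m) → PGU K n)
    (hC : Comb p m (Fr K m) ew)
    (hrev : ∀ u v : List (Ln K m), u ++ v ∈ Fr K m →
      Subgroup.zpowers (ew v.reverse) = Subgroup.zpowers (ew u))
    (H : Subgroup (PGamU K n))
    (hH : ∀ w, Orth w → SemidirectProduct.inl (ew w) ∈ H) (heH : ∀ g ∈ S, e g ∈ H)
    (hσH : SemidirectProduct.inr σ ∈ H)
    (hcomm : ∀ g ∈ S, ∀ u v : List (Ln K₀ m), u ++ v ∈ Fr K₀ m →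
      SemidirectProduct.inl (ew (u.map (lam f hf g))) *
        (e g * SemidirectProduct.inr σ * (e g)⁻¹) =
      (e g * SemidirectProduct.inr σ * (e g)⁻¹) *
        SemidirectProduct.inl (ew (u.map (lam f hf g))))
    (hcount : (Fr K m).card <
      2 * (Nat.card (conjs e S (SemidirectProduct.inr σ)) * t (Fr K₀ m))) :
    ∃ c : List (Ap p H) →₀ ℚ, IsChain m c ∧ bd c = 0 ∧ c ≠ 0 := by
  obtain ⟨Y, Fy, h1, h2⟩ := semi_dataP (p := p) f hf e he σ hσ hσp S ew H hH heH hσH hcomm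
  refine H945.semi_Ap₂ hm (Comb.map hC SemidirectProduct.inl SemidirectProduct.inl_injective)
    (fun u v h => ?_) h1 (by rwa [h2])
  have h3 := congrArg (Subgroup.map (SemidirectProduct.inl : PGU K n →* PGamU K n)) (hrev u v h)
  rwa [MonoidHom.map_zpowers, MonoidHom.map_zpowers] at h3

end

end Vale.Agent.P240.R2.H164
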