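import Mathlib.LinearAlgebra.SymplecticGroup
import Mathlib.LinearAlgebra.Matrix.Trace
import Mathlib.Tactic

/-!
Gamma matrices: `T(v)`, `v ∈ K ^ 5`, in `M_4(K)`, `T(v) ^ 2 = v · v`, self-adjoint for `J`.
-/

set_option autoImplicit false

namespace Vale.Agent.P240.R2.H164.Sp4

open Matrix

universe u

noncomputable section

variable {K : Type u} [Field K]

/-- `4 × 4` matrices -/
abbrev M4 (K : Type u) : Type u := Matrix (Fin 2 ⊕ Fin 2) (Fin 2 ⊕ Fin 2) K

/-- the gamma matrices -/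
def T (s t : K) (v : Fin 5 → K) : M4 K :=
  fromBlocks !![v 3, v 4 - (s * v 1 - t * v 2); v 4 + (s * v 1 - t * v 2), -v 3]
    !![0, -(-v 0 + t * v 1 + s * v 2); -v 0 + t * v 1 + s * v 2, 0]
    !![0, -(v 0 + t * v 1 + s * v 2); v 0 + t * v 1 + s * v 2, 0]
    !![v 3, v 4 + (s * v 1 - t * v 2); v 4 - (s * v 1 - t * v 2), -v 3]

/-- the coordinates -/
def Cf (s t : K) (Z : M4 K) : Fin 5 → K :=
  ![(Z (Sum.inr 1) (Sum.inl 0) - Z (Sum.inl 1) (Sum.inr 0)) / 2,
    -(s * ((Z (Sum.inl 1) (Sum.inl 0) - Z (Sum.inl 0) (Sum.inl 1)) / 2) +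
      t * ((Z (Sum.inr 1) (Sum.inl 0) + Z (Sum.inl 1) (Sum.inr 0)) / 2)),
    t * ((Z (Sum.inl 1) (Sum.inl 0) - Z (Sum.inl 0) (Sum.inl 1)) / 2) -
      s * ((Z (Sum.inr 1) (Sum.inl 0) + Z (Sum.inl 1) (Sum.inr 0)) / 2),
    Z (Sum.inl 0) (Sum.inl 0),
    (Z (Sum.inl 0) (Sum.inl 1) + Z (Sum.inl 1) (Sum.inl 0)) / 2]

variable {s t : K}

lemma T_add (v w : Fin 5 → K) : T s t (v + w) = T s t v + T s t w := by
  unfold T
  rw [fromBlocks_add]
  congr 1 <;>
  · ext i j
    fin_cases i <;> fin_cases j <;> simp <;> ring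

lemma T_smul (c : K) (v : Fin 5 → K) : T s t (c • v) = c • T s t v := by
  unfold T
  rw [fromBlocks_smul]
  congr 1 <;>
  · ext i j
    fin_cases i <;> fin_cases j <;> simp <;> ring

lemma T_sq (hst : s ^ 2 + t ^ 2 = -1) (v : Fin 5 → K) :
    T s t v * T s t v = (v ⬝ᵥ v) • (1 : M4 K) := by
  have e : v ⬝ᵥ v = v 0 * v 0 + v 1 * v 1 + v 2 * v 2 + v 3 * v 3 + v 4 * v 4 := by
    simp [dotProduct, Fin.sum_univ_five]
  rw [e]
  unfold T
  rw [fromBlocks_multiply, ← fromBlocks_one, fromBlocks_smul]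
  congr 1
  · ext i j
    fin_cases i <;> fin_cases j <;> simp
    · linear_combination (-(v 1 ^ 2) - v 2 ^ 2) * hst
    · ring
    · ring
    · linear_combination (-(v 1 ^ 2) - v 2 ^ 2) * hst
  · ext i j
    fin_cases i <;> fin_cases j <;> simp <;> ring
  · ext i j
    fin_cases i <;> fin_cases j <;> simp <;> ring
  · ext i j
    fin_cases i <;> fin_cases j <;> simp
    · linear_combination (-(v 1 ^ 2) - v 2 ^ 2) * hst
    · ring
    · ring
    · linear_combination (-(v 1 ^ 2) - v 2 ^ 2) * hst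

lemma T_polar (hst : s ^ 2 + t ^ 2 = -1) (v w : Fin 5 → K) :
    T s t v * T s t w + T s t w * T s t v = (2 * (v ⬝ᵥ w)) • (1 : M4 K) := by
  have h := T_sq hst (v + w)
  have e : (v + w) ⬝ᵥ (v + w) = v ⬝ᵥ v + w ⬝ᵥ w + 2 * (v ⬝ᵥ w) := by
    rw [add_dotProduct, dotProduct_add, dotProduct_add, dotProduct_comm w v]
    ring
  rw [T_add, add_mul, mul_add, mul_add, T_sq hst, T_sq hst, e, add_smul, add_smul] at h
  have h2 : T s t v * T s t w + T s t w * T s t v =
      ((v ⬝ᵥ v) • (1 : M4 K) + T s t v * T s t w + (T s t w * T s t v + (w ⬝ᵥ w) • (1 : M4 K))) -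
        ((v ⬝ᵥ v) • (1 : M4 K) + (w ⬝ᵥ w) • (1 : M4 K)) := by abel
  rw [h2, h]
  abel

lemma T_adj (v : Fin 5 → K) : J (Fin 2) K * (T s t v)ᵀ = T s t v * J (Fin 2) K := by
  unfold T J
  rw [fromBlocks_transpose, fromBlocks_multiply, fromBlocks_multiply]
  congr 1 <;>
  · ext i j
    fin_cases i <;> fin_cases j <;> simp

lemma T_trace (v : Fin 5 → K) : (T s t v).trace = 0 := by
  simp [T, Matrix.trace, Fintype.sum_sum_type, Fin.sum_univ_two]

lemma Cf_T (h2 : (2 : K) ≠ 0) (hst : s ^ 2 + t ^ 2 = -1) (v : Fin 5 → K) :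
    Cf s t (T s t v) = v := by
  funext i
  fin_cases i <;> simp [Cf, T]
  · field_simp
    ring
  · field_simp
    linear_combination (-2 * v 1) * hst
  · field_simp
    linear_combination (-2 * v 2) * hst
  · field_simp
    ring

lemma T_Cf (h2 : (2 : K) ≠ 0) (hst : s ^ 2 + t ^ 2 = -1) {Z : M4 K}
    (hZ : J (Fin 2) K * Zᵀ = Z * J (Fin 2) K) (htr : Z.trace = 0) : T s t (Cf s t Z) = Z := by
  obtain ⟨A, B, C, D, rfl⟩ : ∃ A B C D, Z = fromBlocks A B C D :=
    ⟨_, _, _, _, (fromBlocks_toBlocks Z).symm⟩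
  rw [J, fromBlocks_transpose, fromBlocks_multiply, fromBlocks_multiply, fromBlocks_inj] at hZ
  simp only [Matrix.zero_mul, Matrix.mul_zero, zero_add, add_zero, Matrix.neg_mul, Matrix.mul_neg,
    Matrix.one_mul, Matrix.mul_one] at hZ
  obtain ⟨hB, hD, hA, hC⟩ := hZ
  have hD' : ∀ i j, D i j = A j i := fun i j => (congrFun (congrFun hA i) j).symm
  have hB' : ∀ i j, B i j = -B j i := fun i j => (congrFun (congrFun hB i) j).symm
  have hC' : ∀ i j, C i j = -C j i := fun i j => by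
    have := congrFun (congrFun hC i) j
    simp only [transpose_apply, Matrix.neg_apply] at this
    linear_combination this
  have hb : ∀ x : K, x = -x → x = 0 := by
    intro x hx
    have : 2 * x = 0 := by linear_combination hx
    exact (mul_eq_zero.1 this).resolve_left h2
  have b0 := hb _ (hB' 0 0)
  have b1 := hb _ (hB' 1 1)
  have c0 := hb _ (hC' 0 0)
  have c1 := hb _ (hC' 1 1)
  have b01 := hB' 0 1
  have c01 := hC' 0 1
  have a1 : A 1 1 = -A 0 0 := by
    simp only [Matrix.trace, Matrix.diag_apply, Fintype.sum_sum_type, Fin.sum_univ_two,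
      fromBlocks_apply₁₁, fromBlocks_apply₂₂, hD'] at htr
    have : 2 * (A 1 1 + A 0 0) = 0 := by linear_combination htr
    exact eq_neg_of_add_eq_zero_left ((mul_eq_zero.1 this).resolve_left h2)
  unfold T Cf
  congr 1
  · ext i j
    fin_cases i <;> fin_cases j <;> simp
    · field_simp
      linear_combination (A 1 0 - A 0 1) * hst
    · field_simp
      linear_combination (-(A 1 0 - A 0 1)) * hst
    · exact a1.symm
  · ext i j
    fin_cases i <;> fin_cases j <;> simp
    · exact b0.symm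
    · rw [b01]
      field_simp
      linear_combination (C 1 0 + B 1 0) * hst
    · field_simp
      linear_combination (-(C 1 0 + B 1 0)) * hst
    · exact b1.symm
  · ext i j
    fin_cases i <;> fin_cases j <;> simp
    · exact c0.symm
    · rw [c01]
      field_simp
      linear_combination (C 1 0 + B 1 0) * hst
    · field_simp
      linear_combination (-(C 1 0 + B 1 0)) * hst
    · exact c1.symm
  · ext i j
    fin_cases i <;> fin_cases j <;> simp
    · exact (hD' 0 0).symm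
    · rw [hD']
      field_simp
      linear_combination (-(A 1 0 - A 0 1)) * hst
    · rw [hD']
      field_simp
      linear_combination (A 1 0 - A 0 1) * hst
    · rw [hD']
      exact a1.symm

end

end Vale.Agent.P240.R2.H164.Sp4
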