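import Vale.Agent.P240.R2.H164.Sp4a
import Vale.Agent.P240.R2.H296.ORef
import Vale.Agent.P240.R2.H296.Cen
import Vale.Agent.P240.R2.H715.SpDefs

/-!
The homomorphism `GSp_4(K) → O_5(K)`.
-/

set_option autoImplicit false

namespace Vale.Agent.P240.R2.H164.Sp4

open Matrix Vale.Agent.P240.R2.AS Vale.Agent.P240.R2.H387 Vale.Agent.P240.R2.H296.O
open scoped Classical

universe u

noncomputable section

variable {K : Type u} [Field K]

lemma gs_eq {g h : M4 K} {μ : K} (hg : g * J (Fin 2) K * gᵀ = μ • J (Fin 2) K) (hgh : h * g = 1) :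
    J (Fin 2) K * gᵀ = μ • (h * J (Fin 2) K) := by
  have h1 := congrArg (fun X => h * X) hg
  simp only [← Matrix.mul_assoc, hgh, Matrix.one_mul, Matrix.mul_smul] at h1
  exact h1

lemma gs_inv {g h : M4 K} {μ : K} (hμ : μ ≠ 0) (hg : g * J (Fin 2) K * gᵀ = μ • J (Fin 2) K)
    (hgh : h * g = 1) : h * J (Fin 2) K * hᵀ = μ⁻¹ • J (Fin 2) K := by
  have h1 : J (Fin 2) K = μ • (h * J (Fin 2) K * hᵀ) := by
    have h2 : gᵀ * hᵀ = 1 := by rw [← transpose_mul, hgh, transpose_one]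
    calc J (Fin 2) K = J (Fin 2) K * (gᵀ * hᵀ) := by rw [h2, Matrix.mul_one]
      _ = (J (Fin 2) K * gᵀ) * hᵀ := by rw [Matrix.mul_assoc]
      _ = _ := by rw [gs_eq hg hgh, Matrix.smul_mul]
  conv_rhs => rw [h1]
  rw [smul_smul, inv_mul_cancel₀ hμ, one_smul]

variable (K) in
/-- the similitudes -/
def GS : Subgroup (M4 K)ˣ where
  carrier := {g | ∃ μ : K, μ ≠ 0 ∧ g.1 * J (Fin 2) K * g.1ᵀ = μ • J (Fin 2) K}
  mul_mem' := by
    rintro a b ⟨μ, hμ, h1⟩ ⟨ν, hν, h2⟩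
    refine ⟨μ * ν, mul_ne_zero hμ hν, ?_⟩
    calc (a * b).1 * J (Fin 2) K * (a * b).1ᵀ = a.1 * (b.1 * J (Fin 2) K * b.1ᵀ) * a.1ᵀ := by
          rw [Units.val_mul, transpose_mul]
          simp only [Matrix.mul_assoc]
      _ = ν • (a.1 * J (Fin 2) K * a.1ᵀ) := by rw [h2, Matrix.mul_smul, Matrix.smul_mul]
      _ = _ := by rw [h1, smul_smul, mul_comm]
  one_mem' := ⟨1, one_ne_zero, by simp⟩
  inv_mem' := by
    rintro a ⟨μ, hμ, h1⟩
    exact ⟨μ⁻¹, inv_ne_zero hμ, gs_inv hμ h1 (Units.inv_mul a)⟩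

lemma adj_conj {g : (M4 K)ˣ} (hg : g ∈ GS K) {Z : M4 K}
    (hZ : J (Fin 2) K * Zᵀ = Z * J (Fin 2) K) :
    J (Fin 2) K * (g.1 * Z * (g⁻¹).1)ᵀ = (g.1 * Z * (g⁻¹).1) * J (Fin 2) K := by
  obtain ⟨μ, hμ, h1⟩ := hg
  have h2 := gs_inv hμ h1 (Units.inv_mul g)
  have h3 := gs_eq h2 (Units.mul_inv g)
  have h4 := gs_eq h1 (Units.inv_mul g)
  calc J (Fin 2) K * (g.1 * Z * (g⁻¹).1)ᵀ = (J (Fin 2) K * (g⁻¹).1ᵀ) * Zᵀ * g.1ᵀ := by
        rw [transpose_mul, transpose_mul]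
        simp only [Matrix.mul_assoc]
    _ = μ⁻¹ • (g.1 * (J (Fin 2) K * Zᵀ) * g.1ᵀ) := by
        rw [h3, Matrix.smul_mul, Matrix.smul_mul]
        simp only [Matrix.mul_assoc]
    _ = μ⁻¹ • (g.1 * Z * (J (Fin 2) K * g.1ᵀ)) := by
        rw [hZ]
        simp only [Matrix.mul_assoc]
    _ = _ := by
        rw [h4, Matrix.mul_smul, smul_smul, inv_mul_cancel₀ hμ, one_smul]
        simp only [Matrix.mul_assoc]

variable {s t : K}

lemma Cf_add (Z W : M4 K) : Cf s t (Z + W) = Cf s t Z + Cf s t W := by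
  funext i
  fin_cases i <;> simp [Cf] <;> ring

lemma Cf_smul (c : K) (Z : M4 K) : Cf s t (c • Z) = c • Cf s t Z := by
  funext i
  fin_cases i <;> simp [Cf] <;> ring

variable (s t) in
/-- the action of `g` on `K ^ 5` -/
def Lg (g : (M4 K)ˣ) : (Fin 5 → K) →ₗ[K] (Fin 5 → K) where
  toFun v := Cf s t (g.1 * T s t v * (g⁻¹).1)
  map_add' v w := by rw [T_add, Matrix.mul_add, Matrix.add_mul, Cf_add]
  map_smul' c v := by rw [T_smul, Matrix.mul_smul, Matrix.smul_mul, Cf_smul]; rfl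

lemma T_Lg (h2 : (2 : K) ≠ 0) (hst : s ^ 2 + t ^ 2 = -1) {g : (M4 K)ˣ} (hg : g ∈ GS K)
    (v : Fin 5 → K) : T s t (Lg s t g v) = g.1 * T s t v * (g⁻¹).1 := by
  refine T_Cf h2 hst (adj_conj hg (T_adj v)) ?_
  rw [Matrix.trace_mul_cycle, Units.inv_mul, Matrix.one_mul, T_trace]

lemma T_inj (h2 : (2 : K) ≠ 0) (hst : s ^ 2 + t ^ 2 = -1) {v w : Fin 5 → K}
    (h : T s t v = T s t w) : v = w := by
  rw [← Cf_T h2 hst v, h, Cf_T h2 hst]

lemma smul_one_inj {a b : K} (h : a • (1 : M4 K) = b • (1 : M4 K)) : a = b := by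
  have := congrFun (congrFun h (Sum.inl 0)) (Sum.inl 0)
  simpa using this

lemma Lg_dot (h2 : (2 : K) ≠ 0) (hst : s ^ 2 + t ^ 2 = -1) {g : (M4 K)ˣ} (hg : g ∈ GS K)
    (v w : Fin 5 → K) : Lg s t g v ⬝ᵥ Lg s t g w = v ⬝ᵥ w := by
  have h1 := T_polar hst (Lg s t g v) (Lg s t g w)
  rw [T_Lg h2 hst hg, T_Lg h2 hst hg] at h1
  have h3 : ∀ A B : M4 K, g.1 * A * (g⁻¹).1 * (g.1 * B * (g⁻¹).1) = g.1 * (A * B) * (g⁻¹).1 := by
    intro A B
    calc _ = g.1 * A * ((g⁻¹).1 * g.1) * B * (g⁻¹).1 := by simp only [Matrix.mul_assoc]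
      _ = _ := by rw [Units.inv_mul, Matrix.mul_one]; simp only [Matrix.mul_assoc]
  rw [h3, h3, ← Matrix.add_mul, ← Matrix.mul_add, T_polar hst, Matrix.mul_smul, Matrix.smul_mul,
    Matrix.mul_one, Units.mul_inv] at h1
  exact (mul_left_cancel₀ h2 (smul_one_inj h1)).symm

lemma Lg_mul (h2 : (2 : K) ≠ 0) (hst : s ^ 2 + t ^ 2 = -1) {g h : (M4 K)ˣ} (hh : h ∈ GS K)
    (v : Fin 5 → K) : Lg s t (g * h) v = Lg s t g (Lg s t h v) := by
  change Cf s t ((g * h).1 * T s t v * ((g * h)⁻¹).1) =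
    Cf s t (g.1 * T s t (Lg s t h v) * (g⁻¹).1)
  rw [T_Lg h2 hst hh]
  congr 1
  rw [_root_.mul_inv_rev, Units.val_mul, Units.val_mul]
  simp only [Matrix.mul_assoc]

lemma Lg_one (h2 : (2 : K) ≠ 0) (hst : s ^ 2 + t ^ 2 = -1) (v : Fin 5 → K) :
    Lg s t (1 : (M4 K)ˣ) v = v := by
  change Cf s t ((1 : (M4 K)ˣ).1 * T s t v * ((1 : (M4 K)ˣ)⁻¹).1) = v
  rw [inv_one, Units.val_one, Matrix.one_mul, Matrix.mul_one, Cf_T h2 hst]

variable [StarRing K]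

lemma rmat_mem (hs : ∀ x : K, star x = x) (h2 : (2 : K) ≠ 0) (hst : s ^ 2 + t ^ 2 = -1)
    {g : (M4 K)ˣ} (hg : g ∈ GS K) :
    LinearMap.toMatrix' (Lg s t g) ∈ Matrix.unitaryGroup (Fin 5) K := by
  rw [Matrix.mem_unitaryGroup_iff']
  ext i j
  have h1 := Lg_dot h2 hst hg (Pi.single i 1) (Pi.single j 1)
  rw [Matrix.mul_apply]
  simp only [Matrix.star_apply, hs, LinearMap.toMatrix'_apply]
  refine h1.trans ?_
  rw [single_one_dotProduct, Pi.single_apply, Matrix.one_apply]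

/-- the homomorphism -/
def rho (hs : ∀ x : K, star x = x) (h2 : (2 : K) ≠ 0) (hst : s ^ 2 + t ^ 2 = -1) :
    GS K →* GU K 5 where
  toFun g := ⟨LinearMap.toMatrix' (Lg s t g.1), rmat_mem hs h2 hst g.2⟩
  map_one' := by
    apply Subtype.ext
    change LinearMap.toMatrix' (Lg s t 1) = 1
    have : Lg s t (1 : (M4 K)ˣ) = LinearMap.id := LinearMap.ext (Lg_one h2 hst)
    rw [this, LinearMap.toMatrix'_id]
  map_mul' g h := by
    apply Subtype.ext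
    change LinearMap.toMatrix' (Lg s t (g.1 * h.1)) =
      LinearMap.toMatrix' (Lg s t g.1) * LinearMap.toMatrix' (Lg s t h.1)
    rw [← LinearMap.toMatrix'_comp]
    congr 1
    exact LinearMap.ext (Lg_mul h2 hst h.2)

lemma rho_mulVec (hs : ∀ x : K, star x = x) (h2 : (2 : K) ≠ 0) (hst : s ^ 2 + t ^ 2 = -1)
    (g : GS K) (v : Fin 5 → K) : (rho hs h2 hst g).1 *ᵥ v = Lg s t g.1 v :=
  LinearMap.toMatrix'_mulVec _ _

end

end Vale.Agent.P240.R2.H164.Sp4
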