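import Vale.Agent.P240.R2.H164.Sp4b

/-!
`PSp_4(K) ≅ Ω_5(K)`.
-/

set_option autoImplicit false

namespace Vale.Agent.P240.R2.H164.Sp4

open Matrix Vale.Agent.P240.R2.AS Vale.Agent.P240.R2.H387 Vale.Agent.P240.R2.H296.O
open Vale.Agent.P240.R2.H715 (Sy)
open scoped Classical

universe u

noncomputable section

variable {K : Type u} [Field K] {s t : K}

lemma T_sub (v w : Fin 5 → K) : T s t (v - w) = T s t v - T s t w := by
  have h1 : v - w = v + (-1 : K) • w := by rw [neg_one_smul, sub_eq_add_neg]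
  rw [h1, T_add, T_smul, neg_one_smul, sub_eq_add_neg]

/-- `T(v)` as a unit -/
def Tu (hst : s ^ 2 + t ^ 2 = -1) {v : Fin 5 → K} (hv : v ⬝ᵥ v ≠ 0) : (M4 K)ˣ where
  val := T s t v
  inv := (v ⬝ᵥ v)⁻¹ • T s t v
  val_inv := by rw [Matrix.mul_smul, T_sq hst, smul_smul, inv_mul_cancel₀ hv, one_smul]
  inv_val := by rw [Matrix.smul_mul, T_sq hst, smul_smul, inv_mul_cancel₀ hv, one_smul]

lemma Tu_mem (hst : s ^ 2 + t ^ 2 = -1) {v : Fin 5 → K} (hv : v ⬝ᵥ v ≠ 0) : Tu hst hv ∈ GS K := by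
  refine ⟨v ⬝ᵥ v, hv, ?_⟩
  change T s t v * J (Fin 2) K * (T s t v)ᵀ = _
  rw [Matrix.mul_assoc, T_adj, ← Matrix.mul_assoc, T_sq hst, Matrix.smul_mul, Matrix.one_mul]

lemma Lg_Tu (h2 : (2 : K) ≠ 0) (hst : s ^ 2 + t ^ 2 = -1) {v : Fin 5 → K} (hv : v ⬝ᵥ v ≠ 0)
    (w : Fin 5 → K) : Lg s t (Tu hst hv) w = (2 * ((v ⬝ᵥ v)⁻¹ * (v ⬝ᵥ w))) • v - w := by
  apply T_inj h2 hst
  rw [T_Lg h2 hst (Tu_mem hst hv), T_sub, T_smul]
  change T s t v * T s t w * ((v ⬝ᵥ v)⁻¹ • T s t v) = _
  have h1 : T s t v * T s t w = (2 * (v ⬝ᵥ w)) • (1 : M4 K) - T s t w * T s t v := by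
    rw [← T_polar hst, add_sub_cancel_right]
  rw [h1, Matrix.mul_smul, Matrix.sub_mul, Matrix.smul_mul, Matrix.one_mul, Matrix.mul_assoc,
    T_sq hst, Matrix.mul_smul, Matrix.mul_one, smul_sub, smul_smul, smul_smul,
    inv_mul_cancel₀ hv, one_smul]
  congr 2
  ring

lemma T_prod (hst : s ^ 2 + t ^ 2 = -1) :
    T s t (Pi.single 0 1) * T s t (Pi.single 1 1) * T s t (Pi.single 2 1) *
      T s t (Pi.single 3 1) * T s t (Pi.single 4 1) = 1 := by
  have h0 : T s t (Pi.single 0 1) = fromBlocks 0 !![0, 1; -1, 0] !![0, -1; 1, 0] 0 := by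
    unfold T
    congr 1 <;>
    · ext i j
      fin_cases i <;> fin_cases j <;> simp
  have h1 : T s t (Pi.single 1 1) =
      fromBlocks !![0, -s; s, 0] !![0, -t; t, 0] !![0, -t; t, 0] !![0, s; -s, 0] := by
    unfold T
    congr 1 <;>
    · ext i j
      fin_cases i <;> fin_cases j <;> simp
  have h2 : T s t (Pi.single 2 1) =
      fromBlocks !![0, t; -t, 0] !![0, -s; s, 0] !![0, -s; s, 0] !![0, -t; t, 0] := by
    unfold T
    congr 1 <;>
    · ext i j
      fin_cases i <;> fin_cases j <;> simp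
  have h3 : T s t (Pi.single 3 1) = fromBlocks !![1, 0; 0, -1] 0 0 !![1, 0; 0, -1] := by
    unfold T
    congr 1 <;>
    · ext i j
      fin_cases i <;> fin_cases j <;> simp
  have h4 : T s t (Pi.single 4 1) = fromBlocks !![0, 1; 1, 0] 0 0 !![0, 1; 1, 0] := by
    unfold T
    congr 1 <;>
    · ext i j
      fin_cases i <;> fin_cases j <;> simp
  rw [h0, h1, h2, h3, h4, fromBlocks_multiply, fromBlocks_multiply, fromBlocks_multiply,
    fromBlocks_multiply, ← fromBlocks_one]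
  congr 1
  · ext i j
    fin_cases i <;> fin_cases j <;> simp <;> linear_combination (-1) * hst
  · ext i j
    fin_cases i <;> fin_cases j <;> simp <;> ring
  · ext i j
    fin_cases i <;> fin_cases j <;> simp <;> ring
  · ext i j
    fin_cases i <;> fin_cases j <;> simp <;> linear_combination (-1) * hst

/-- matrices commuting with all `T(v)` are scalar -/
lemma scalar_of_comm (h2 : (2 : K) ≠ 0) (hst : s ^ 2 + t ^ 2 = -1) {g : M4 K}
    (h : ∀ v : Fin 5 → K, g * T s t v = T s t v * g) : ∃ c : K, g = c • (1 : M4 K) := by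
  obtain ⟨P, Q, R, S, rfl⟩ : ∃ P Q R S, g = fromBlocks P Q R S :=
    ⟨_, _, _, _, (fromBlocks_toBlocks g).symm⟩
  have h3 : T s t (Pi.single 3 1) = fromBlocks !![1, 0; 0, -1] 0 0 !![1, 0; 0, -1] := by
    unfold T
    congr 1 <;>
    · ext i j
      fin_cases i <;> fin_cases j <;> simp
  have h4 : T s t (Pi.single 4 1) = fromBlocks !![0, 1; 1, 0] 0 0 !![0, 1; 1, 0] := by
    unfold T
    congr 1 <;>
    · ext i j
      fin_cases i <;> fin_cases j <;> simp
  have h0 : T s t (Pi.single 0 1) = fromBlocks 0 !![0, 1; -1, 0] !![0, -1; 1, 0] 0 := by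
    unfold T
    congr 1 <;>
    · ext i j
      fin_cases i <;> fin_cases j <;> simp
  have h1 : T s t (Pi.single 1 1) =
      fromBlocks !![0, -s; s, 0] !![0, -t; t, 0] !![0, -t; t, 0] !![0, s; -s, 0] := by
    unfold T
    congr 1 <;>
    · ext i j
      fin_cases i <;> fin_cases j <;> simp
  have e3 := h (Pi.single 3 1)
  have e4 := h (Pi.single 4 1)
  have e0 := h (Pi.single 0 1)
  have e1 := h (Pi.single 1 1)
  rw [h3, fromBlocks_multiply, fromBlocks_multiply, fromBlocks_inj] at e3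
  rw [h4, fromBlocks_multiply, fromBlocks_multiply, fromBlocks_inj] at e4
  rw [h0, fromBlocks_multiply, fromBlocks_multiply, fromBlocks_inj] at e0
  rw [h1, fromBlocks_multiply, fromBlocks_multiply, fromBlocks_inj] at e1
  simp only [Matrix.mul_zero, Matrix.zero_mul, add_zero, zero_add] at e3 e4 e0
  have hX : ∀ X : Matrix (Fin 2) (Fin 2) K, X * !![1, 0; 0, -1] = !![1, 0; 0, -1] * X →
      X * !![0, 1; 1, 0] = !![0, 1; 1, 0] * X → X = X 0 0 • (1 : Matrix (Fin 2) (Fin 2) K) := by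
    intro X hd he
    have d01 := congrFun (congrFun hd 0) 1
    have d10 := congrFun (congrFun hd 1) 0
    have e01 := congrFun (congrFun he 0) 1
    simp [Matrix.mul_apply, Fin.sum_univ_two] at d01 d10 e01
    have x01 : X 0 1 = 0 := by
      have : 2 * X 0 1 = 0 := by linear_combination -d01
      exact (mul_eq_zero.1 this).resolve_left h2
    have x10 : X 1 0 = 0 := by
      have : 2 * X 1 0 = 0 := by linear_combination d10
      exact (mul_eq_zero.1 this).resolve_left h2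
    ext i j
    fin_cases i <;> fin_cases j <;> simp [x01, x10, e01]
  have hP := hX P e3.1 e4.1
  have hQ := hX Q e3.2.1 e4.2.1
  have hR := hX R e3.2.2.1 e4.2.2.1
  have hS := hX S e3.2.2.2 e4.2.2.2
  set p := P 0 0
  set q := Q 0 0
  set r := R 0 0
  set z := S 0 0
  have f1 := congrFun (congrFun e0.1 0) 1
  have f2 := congrFun (congrFun e0.2.1 0) 1
  have f3 := congrFun (congrFun e1.1 0) 1
  have f4 := congrFun (congrFun e1.2.1 0) 1
  rw [hP, hQ, hR] at f3
  rw [hP, hQ, hS] at f4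
  rw [hQ, hR] at f1
  rw [hP, hS] at f2
  simp [Matrix.mul_apply, Fin.sum_univ_two] at f1 f2 f3 f4
  have hq : q = 0 := by
    rcases f3 with f3 | f3
    · have : 2 * q = 0 := by linear_combination f3 - f1
      exact (mul_eq_zero.1 this).resolve_left h2
    · have hs : s ≠ 0 := by
        rintro rfl
        rw [f3] at hst
        norm_num at hst
      have : 2 * (q * s) = 0 := by linear_combination f4 + t * f2
      exact (mul_eq_zero.1 ((mul_eq_zero.1 this).resolve_left h2)).resolve_right hs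
  have hr : r = 0 := by rw [← f1, hq, neg_zero]
  refine ⟨p, ?_⟩
  rw [hP, hQ, hR, hS, hq, hr, ← f2, zero_smul, ← fromBlocks_one, fromBlocks_smul, smul_zero]

end

end Vale.Agent.P240.R2.H164.Sp4
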