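import Vale.Agent.P240.R2.H698.Graph
import Vale.Agent.P240.R2.H715.SpStmts
import Vale.Agent.P240.R2.H281.Six

/-!
`StmtTY1`: a cycle of rank two in `PSL_2(q)`, `q ≥ 7` odd.
-/

set_option autoImplicit false

namespace Vale.Agent.P240.R2.H164.TY1

open Matrix Subgroup Vale.Agent.P240.R2.H715 Vale.Agent.P240.R2.H698 Vale.Agent.P240.R2.H281
open Vale.Agent.P240.K
open scoped Classical

universe u v w

noncomputable section

variable {K : Type u} [Field K]

/-- at least eight points on the circle -/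
theorem eight [Fintype K] (h2 : (2 : K) ≠ 0) (hq : 7 ≤ Nat.card K) : 8 ≤ (circ K).card := by
  rw [Nat.card_eq_fintype_card] at hq
  have h1 := card_circ h2
  have h3 := card_roots (K := K)
  have hc : ringChar K ≠ 2 := by
    intro h
    apply h2
    have := ringChar.Nat.cast_ringChar (R := K)
    rw [h] at this
    exact_mod_cast this
  have h4 := FiniteField.odd_card_of_char_ne_two hc
  rcases Nat.lt_or_ge (Fintype.card K) 9 with h | h
  · have h5 : Fintype.card K = 7 := by omega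
    have h6 : (Finset.univ.filter fun t : K => 1 + t ^ 2 = 0).card = 0 := by
      rw [Finset.card_eq_zero, Finset.filter_eq_empty_iff]
      intro t _ ht
      have h7 : IsSquare (-1 : K) := ⟨t, by linear_combination -ht⟩
      rw [FiniteField.isSquare_neg_one_iff, h5] at h7
      exact h7 rfl
    omega
  · omega

/-- sums of two squares -/
lemma two_sq [Fintype K] (h2 : (2 : K) ≠ 0) (d : K) : ∃ x y : K, x ^ 2 + y ^ 2 = d := by
  have hc : ringChar K ≠ 2 := by
    intro h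
    apply h2
    have := ringChar.Nat.cast_ringChar (R := K)
    rw [h] at this
    exact_mod_cast this
  have h4 := FiniteField.odd_card_of_char_ne_two hc
  obtain ⟨x, y, h⟩ := FiniteField.exists_root_sum_quadratic (R := K)
    (f := Polynomial.X ^ 2) (g := Polynomial.X ^ 2 - Polynomial.C d)
    (Polynomial.degree_X_pow 2) (Polynomial.degree_X_pow_sub_C (by norm_num) d) h4
  refine ⟨x, y, ?_⟩
  simp only [Polynomial.eval_pow, Polynomial.eval_X, Polynomial.eval_sub, Polynomial.eval_C] at h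
  linear_combination h

lemma ent {a : S2 K} {c : K} (h : a.1 * a.1 = c • (1 : Matrix (Fin 2) (Fin 2) K)) :
    a.1 0 0 * a.1 0 0 + a.1 0 1 * a.1 1 0 = c ∧ a.1 0 0 * a.1 0 1 + a.1 0 1 * a.1 1 1 = 0 ∧
    a.1 1 0 * a.1 0 0 + a.1 1 1 * a.1 1 0 = 0 ∧ a.1 1 0 * a.1 0 1 + a.1 1 1 * a.1 1 1 = c := by
  have h00 := congrFun (congrFun h 0) 0
  have h01 := congrFun (congrFun h 0) 1
  have h10 := congrFun (congrFun h 1) 0
  have h11 := congrFun (congrFun h 1) 1
  simp only [Matrix.mul_apply, Fin.sum_univ_two, Matrix.smul_apply, Matrix.one_apply,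
    smul_eq_mul] at h00 h01 h10 h11
  refine ⟨by simpa using h00, by simpa using h01, by simpa using h10, by simpa using h11⟩

lemma det_ent (a : S2 K) : a.1 0 0 * a.1 1 1 - a.1 0 1 * a.1 1 0 = 1 := by
  rw [← Matrix.det_fin_two]
  exact a.2

lemma tr0 {a : S2 K} (h : a.1 * a.1 = -1) : a.1 1 1 = - a.1 0 0 := by
  have h' : a.1 * a.1 = (-1 : K) • (1 : Matrix (Fin 2) (Fin 2) K) := by rw [h, neg_one_smul]
  obtain ⟨h1, h2, h3, h4⟩ := ent h'
  have h5 := det_ent a
  have h6 : (a.1 1 1 + a.1 0 0) * (a.1 1 1 + a.1 0 0) = 0 := by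
    linear_combination h1 + h4 + 2 * h5
  have h7 := mul_self_eq_zero.1 h6
  linear_combination h7

lemma sq_one (h2 : (2 : K) ≠ 0) {a : S2 K} (h : a.1 * a.1 = 1) : a.1 = 1 ∨ a.1 = -1 := by
  have h' : a.1 * a.1 = (1 : K) • (1 : Matrix (Fin 2) (Fin 2) K) := by rw [h, one_smul]
  obtain ⟨h1, h3, h4, h5⟩ := ent h'
  have h6 := det_ent a
  have h7 : a.1 0 0 * (a.1 0 0 + a.1 1 1) = 2 := by linear_combination h1 + h6
  have h8 : a.1 1 1 * (a.1 0 0 + a.1 1 1) = 2 := by linear_combination h5 + h6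
  have ht : a.1 0 0 + a.1 1 1 ≠ 0 := by
    intro h0
    rw [h0, mul_zero] at h7
    exact h2 h7.symm
  have e01 : a.1 0 1 = 0 := by
    have : a.1 0 1 * (a.1 0 0 + a.1 1 1) = 0 := by linear_combination h3
    exact (mul_eq_zero.1 this).resolve_right ht
  have e10 : a.1 1 0 = 0 := by
    have : a.1 1 0 * (a.1 0 0 + a.1 1 1) = 0 := by linear_combination h4
    exact (mul_eq_zero.1 this).resolve_right ht
  have e11 : a.1 1 1 = a.1 0 0 := by
    have : (a.1 1 1 - a.1 0 0) * (a.1 0 0 + a.1 1 1) = 0 := by linear_combination h8 - h7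
    exact sub_eq_zero.1 ((mul_eq_zero.1 this).resolve_right ht)
  have e00 : (a.1 0 0 - 1) * (a.1 0 0 + 1) = 0 := by
    rw [e01] at h1
    linear_combination h1
  rcases mul_eq_zero.1 e00 with h9 | h9
  · left
    have h10 : a.1 0 0 = 1 := sub_eq_zero.1 h9
    ext i j
    fin_cases i <;> fin_cases j <;> simp [e01, e10, e11, h10]
  · right
    have h10 : a.1 0 0 = -1 := eq_neg_of_add_eq_zero_left h9
    ext i j
    fin_cases i <;> fin_cases j <;> simp [e01, e10, e11, h10]

/-- the elements `(s + t a) b` -/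
lemma cb_det {a : S2 K} (h : a.1 * a.1 = -1) (s t : K) :
    (s • (1 : Matrix (Fin 2) (Fin 2) K) + t • a.1).det = s ^ 2 + t ^ 2 := by
  have h1 := tr0 h
  have h5 := det_ent a
  rw [Matrix.det_fin_two]
  simp only [Matrix.add_apply, Matrix.smul_apply, Matrix.one_apply, smul_eq_mul]
  simp only [Fin.isValue, ite_true, zero_ne_one, one_ne_zero, ite_false, mul_one, mul_zero,
    zero_add]
  rw [h1] at h5 ⊢
  linear_combination t ^ 2 * h5

lemma cb_anti {a b : Matrix (Fin 2) (Fin 2) K} (hab : a * b = -(b * a)) (s t : K) :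
    a * ((s • (1 : Matrix (Fin 2) (Fin 2) K) + t • a) * b) =
      -((s • (1 : Matrix (Fin 2) (Fin 2) K) + t • a) * b * a) := by
  have h1 : a * (s • (1 : Matrix (Fin 2) (Fin 2) K) + t • a) =
      (s • (1 : Matrix (Fin 2) (Fin 2) K) + t • a) * a := by
    rw [Matrix.mul_add, Matrix.add_mul, Matrix.mul_smul, Matrix.smul_mul, Matrix.mul_smul,
      Matrix.smul_mul, Matrix.mul_one, Matrix.one_mul]
  rw [← Matrix.mul_assoc, h1, Matrix.mul_assoc, hab, Matrix.mul_neg, Matrix.mul_assoc]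

lemma cb_sq {a b : Matrix (Fin 2) (Fin 2) K} (ha : a * a = -1) (hab : a * b = -(b * a))
    {e s t : K} (hb : b * b = e • (1 : Matrix (Fin 2) (Fin 2) K)) :
    ((s • (1 : Matrix (Fin 2) (Fin 2) K) + t • a) * b) *
      ((s • (1 : Matrix (Fin 2) (Fin 2) K) + t • a) * b) =
      ((s ^ 2 + t ^ 2) * e) • (1 : Matrix (Fin 2) (Fin 2) K) := by
  have h1 : b * (s • (1 : Matrix (Fin 2) (Fin 2) K) + t • a) =
      (s • (1 : Matrix (Fin 2) (Fin 2) K) - t • a) * b := by
    have : b * a = -(a * b) := by rw [hab, neg_neg]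
    rw [Matrix.mul_add, Matrix.sub_mul, Matrix.mul_smul, Matrix.smul_mul, Matrix.mul_smul,
      Matrix.smul_mul, Matrix.mul_one, Matrix.one_mul, this, smul_neg, sub_eq_add_neg]
  have h2 : (s • (1 : Matrix (Fin 2) (Fin 2) K) + t • a) *
      (s • (1 : Matrix (Fin 2) (Fin 2) K) - t • a) =
      (s ^ 2 + t ^ 2) • (1 : Matrix (Fin 2) (Fin 2) K) := by
    rw [Matrix.mul_sub, Matrix.add_mul, Matrix.add_mul]
    simp only [Matrix.smul_mul, Matrix.mul_smul, Matrix.one_mul, Matrix.mul_one, ha, smul_smul]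
    rw [smul_neg, add_smul, mul_comm t s, pow_two, pow_two]
    abel
  calc _ = (s • (1 : Matrix (Fin 2) (Fin 2) K) + t • a) *
      (b * (s • (1 : Matrix (Fin 2) (Fin 2) K) + t • a)) * b := by simp only [Matrix.mul_assoc]
    _ = ((s • (1 : Matrix (Fin 2) (Fin 2) K) + t • a) *
      (s • (1 : Matrix (Fin 2) (Fin 2) K) - t • a)) * (b * b) := by
        rw [h1]; simp only [Matrix.mul_assoc]
    _ = _ := by rw [h2, hb, Matrix.smul_mul, Matrix.one_mul, smul_smul]

/-- a matrix anticommuting with `a` -/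
lemma exists_m {a : S2 K} (h : a.1 * a.1 = -1) :
    ∃ (m : Matrix (Fin 2) (Fin 2) K) (e : K), e ≠ 0 ∧ a.1 * m = -(m * a.1) ∧ m.det = -e ∧
      m * m = e • (1 : Matrix (Fin 2) (Fin 2) K) := by
  have h1 := tr0 h
  have h5 := det_ent a
  rw [h1] at h5
  have ha : a.1 = !![a.1 0 0, a.1 0 1; a.1 1 0, - a.1 0 0] := by
    rw [← h1]
    exact Matrix.eta_fin_two _
  set p := a.1 0 0
  set q := a.1 0 1
  set r := a.1 1 0
  by_cases hr : r = 0
  · by_cases hq : q = 0
    · refine ⟨!![0, 1; 1, 0], 1, one_ne_zero, ?_, ?_, ?_⟩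
      · rw [ha, hr, hq]
        ext i j
        fin_cases i <;> fin_cases j <;> simp
      · rw [Matrix.det_fin_two]; simp
      · ext i j
        fin_cases i <;> fin_cases j <;> simp
    · rw [hr] at h5
      refine ⟨!![p * q, q ^ 2; 1 - p ^ 2, -(p * q)], q ^ 2, pow_ne_zero 2 hq, ?_, ?_, ?_⟩
      · rw [ha, hr]
        ext i j
        fin_cases i <;> fin_cases j <;> simp [Matrix.mul_apply, Fin.sum_univ_two]
        · linear_combination (-q) * h5
        · ring
        · ring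
        · linear_combination (-q) * h5
      · rw [Matrix.det_fin_two]
        simp
        ring
      · ext i j
        fin_cases i <;> fin_cases j <;> simp [Matrix.mul_apply, Fin.sum_univ_two] <;> ring
  · refine ⟨!![p * r, 1 - p ^ 2; r ^ 2, -(p * r)], r ^ 2, pow_ne_zero 2 hr, ?_, ?_, ?_⟩
    · rw [ha]
      ext i j
      fin_cases i <;> fin_cases j <;> simp [Matrix.mul_apply, Fin.sum_univ_two]
      · linear_combination (-r) * h5
      · ring
      · ring
      · linear_combination (-r) * h5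
    · rw [Matrix.det_fin_two]
      simp
      ring
    · ext i j
      fin_cases i <;> fin_cases j <;> simp [Matrix.mul_apply, Fin.sum_univ_two] <;> ring

/-- a partner of `a` -/
lemma exists_b [Fintype K] (h2 : (2 : K) ≠ 0) {a : S2 K} (h : a.1 * a.1 = -1) :
    ∃ b : S2 K, b.1 * b.1 = -1 ∧ a.1 * b.1 = -(b.1 * a.1) := by
  obtain ⟨m, e, he, h1, h3, h4⟩ := exists_m h
  obtain ⟨x, y, hxy⟩ := two_sq h2 (-e⁻¹)
  refine ⟨⟨(x • (1 : Matrix (Fin 2) (Fin 2) K) + y • a.1) * m, ?_⟩, ?_, ?_⟩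
  · rw [Matrix.det_mul, cb_det h, h3, hxy, neg_mul_neg, inv_mul_cancel₀ he]
  · change ((x • (1 : Matrix (Fin 2) (Fin 2) K) + y • a.1) * m) *
      ((x • (1 : Matrix (Fin 2) (Fin 2) K) + y • a.1) * m) = -1
    rw [cb_sq h h1 h4, hxy, neg_mul, inv_mul_cancel₀ he, neg_one_smul]
  · exact cb_anti h1 x y

/-- `(s + t a) b` -/
def cbS (a b : S2 K) (p : K × K) : S2 K :=
  if h : ((p.1 • (1 : Matrix (Fin 2) (Fin 2) K) + p.2 • a.1) * b.1).det = 1 then ⟨_, h⟩ else 1

lemma cbS_coe [Fintype K] {a b : S2 K} (h : a.1 * a.1 = -1) {p : K × K} (hp : p ∈ circ K) :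
    (cbS a b p).1 = (p.1 • (1 : Matrix (Fin 2) (Fin 2) K) + p.2 • a.1) * b.1 := by
  have h1 : ((p.1 • (1 : Matrix (Fin 2) (Fin 2) K) + p.2 • a.1) * b.1).det = 1 := by
    rw [Matrix.det_mul, cb_det h, b.2, mul_one]
    exact mem_circ.1 hp
  exact congrArg Subtype.val (dif_pos h1)

/-- `s + t a` determines `s`, `t` -/
lemma st_inj (h2 : (2 : K) ≠ 0) {a : S2 K} (h : a.1 * a.1 = -1) {s t s' t' : K}
    (hst : s • (1 : Matrix (Fin 2) (Fin 2) K) + t • a.1 = s' • 1 + t' • a.1) :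
    s = s' ∧ t = t' := by
  have h1 := tr0 h
  have h5 := det_ent a
  rw [h1] at h5
  have h00 := congrFun (congrFun hst 0) 0
  have h01 := congrFun (congrFun hst 0) 1
  have h10 := congrFun (congrFun hst 1) 0
  have h11 := congrFun (congrFun hst 1) 1
  simp only [Matrix.add_apply, Matrix.smul_apply, Matrix.one_apply, smul_eq_mul, Fin.isValue,
    ite_true, zero_ne_one, one_ne_zero, ite_false, mul_one, mul_zero, zero_add, h1]
    at h00 h01 h10 h11
  have h3 : (t - t') * a.1 0 0 = 0 := by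
    have : 2 * ((t - t') * a.1 0 0) = 0 := by linear_combination h00 - h11
    exact (mul_eq_zero.1 this).resolve_left h2
  have ht : t = t' := by
    have : t - t' = 0 := by
      linear_combination (-(t - t')) * h5 - a.1 0 0 * h3 - a.1 1 0 * h01
    exact sub_eq_zero.1 this
  subst ht
  exact ⟨by linear_combination h00, rfl⟩

variable {G : Type v} [Group G]

lemma j_eq {j : S2 K →* G} (hj : ∀ h, j h = 1 ↔ h.1 = 1 ∨ h.1 = -1) {g h : S2 K}
    (hgh : j g = j h) : g.1 = h.1 ∨ g.1 = -h.1 := by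
  have h1 : j (g * h⁻¹) = 1 := by rw [map_mul, map_inv, hgh, mul_inv_cancel]
  have h2 : g.1 = (g * h⁻¹).1 * h.1 := by
    have : g = (g * h⁻¹) * h := by group
    conv_lhs => rw [this]
    rfl
  rcases (hj _).1 h1 with h3 | h3
  · left
    rw [h2, h3, Matrix.one_mul]
  · right
    rw [h2, h3, Matrix.neg_mul, Matrix.one_mul]

lemma j_of {j : S2 K →* G} (hj : ∀ h, j h = 1 ↔ h.1 = 1 ∨ h.1 = -1) {g h : S2 K}
    (hgh : g.1 = h.1 ∨ g.1 = -h.1) : j g = j h := by
  have h1 : j (g * h⁻¹) = 1 := by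
    rw [hj]
    have h3 : (g * h⁻¹).1 = g.1 * (h⁻¹).1 := rfl
    have h4 : h.1 * (h⁻¹).1 = 1 := by
      have : (h * h⁻¹).1 = 1 := by rw [mul_inv_cancel]; rfl
      exact this
    rcases hgh with h2 | h2
    · left
      rw [h3, h2, h4]
    · right
      rw [h3, h2, Matrix.neg_mul, h4]
  rw [map_mul, map_inv, mul_inv_eq_one] at h1
  exact h1

lemma j_iv [Finite G] (h2 : (2 : K) ≠ 0) {j : S2 K →* G}
    (hj : ∀ h, j h = 1 ↔ h.1 = 1 ∨ h.1 = -1) {y : G} :
    y ∈ iv j.range ↔ ∃ a : S2 K, a.1 * a.1 = -1 ∧ y = j a := by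
  rw [mem_iv]
  constructor
  · rintro ⟨⟨a, rfl⟩, h3, h4⟩
    rw [← map_mul, hj] at h4
    refine ⟨a, ?_, rfl⟩
    rcases h4 with h5 | h5
    · exfalso
      apply h3
      rw [hj]
      exact sq_one h2 h5
    · exact h5
  · rintro ⟨a, ha, rfl⟩
    refine ⟨⟨a, rfl⟩, ?_, ?_⟩
    · intro h
      have h1 : a.1 * a.1 = 1 := by
        rcases (hj a).1 h with h | h
        · rw [h, Matrix.one_mul]
        · rw [h, neg_mul_neg, Matrix.one_mul]
      rw [ha] at h1
      have h3 := congrFun (congrFun h1 0) 0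
      simp only [Matrix.neg_apply, Matrix.one_apply, ite_true] at h3
      apply h2
      linear_combination -h3
    · rw [← map_mul, hj]
      right
      exact ha

lemma j_cp [Finite G] (h2 : (2 : K) ≠ 0) {j : S2 K →* G}
    (hj : ∀ h, j h = 1 ↔ h.1 = 1 ∨ h.1 = -1) {x : G × G} :
    x ∈ cp j.range ↔ ∃ a b : S2 K, QP a b ∧ x = (j a, j b) := by
  rw [mem_cp, j_iv h2 hj, j_iv h2 hj]
  constructor
  · obtain ⟨y, z⟩ := x
    rintro ⟨⟨a, ha, h3⟩, ⟨b, hb, h4⟩, h5, h6⟩
    simp only at h3 h4 h5 h6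
    subst h3 h4
    refine ⟨a, b, ⟨ha, hb, ?_⟩, rfl⟩
    rw [← map_mul, ← map_mul] at h6
    rcases j_eq hj h6 with h7 | h7
    · exfalso
      apply h5
      have h8 : a.1 * b.1 = b.1 * a.1 := h7
      have h9 : (a * b).1 * (a * b).1 = 1 := by
        change (a.1 * b.1) * (a.1 * b.1) = 1
        calc (a.1 * b.1) * (a.1 * b.1) = (a.1 * b.1) * (b.1 * a.1) := by rw [← h8]
          _ = a.1 * (b.1 * b.1) * a.1 := by simp only [Matrix.mul_assoc]
          _ = 1 := by rw [hb, Matrix.mul_neg, Matrix.mul_one, Matrix.neg_mul, ha, neg_neg]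
      have h10 := sq_one h2 h9
      apply j_of hj
      -- `a = (a b) b⁻¹ = ± b⁻¹ = ∓ b`
      have h11 : a.1 = -((a * b).1 * b.1) := by
        change a.1 = -((a.1 * b.1) * b.1)
        rw [Matrix.mul_assoc, hb, Matrix.mul_neg, Matrix.mul_one, neg_neg]
      rcases h10 with h12 | h12
      · right
        rw [h11, h12, Matrix.one_mul]
      · left
        rw [h11, h12, Matrix.neg_mul, Matrix.one_mul, neg_neg]
    · exact h7
  · rintro ⟨a, b, hab, rfl⟩
    refine ⟨⟨a, hab.sqa, rfl⟩, ⟨b, hab.sqb, rfl⟩, ?_, ?_⟩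
    · intro h
      have h3 : a.1 * b.1 = b.1 * a.1 := by
        rcases j_eq hj h with h | h
        · rw [h]
        · rw [h, Matrix.neg_mul, Matrix.mul_neg]
      have h4 := hab.anti
      rw [h3] at h4
      have h5 : (2 : K) • (b.1 * a.1) = 0 := by
        rw [two_smul]
        nth_rewrite 1 [h4]
        exact neg_add_cancel _
      have h6 : b.1 * a.1 = 0 := by
        have := (smul_eq_zero.1 h5).resolve_left h2
        exact this
      have h7 : (b * a).1.det = 1 := (b * a).2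
      have h8 : (b * a).1 = 0 := h6
      rw [h8, Matrix.det_zero] at h7
      exact zero_ne_one h7
    · change j a * j b = j b * j a
      rw [← map_mul, ← map_mul]
      exact j_of hj (Or.inr hab.anti)

/-- each involution commutes with four others -/
lemma four_le [Fintype K] [Finite G] (h2 : (2 : K) ≠ 0) (hq : 7 ≤ Nat.card K) {j : S2 K →* G}
    (hj : ∀ h, j h = 1 ↔ h.1 = 1 ∨ h.1 = -1) {y : G} (hy : y ∈ iv j.range) :
    4 ≤ ((cp j.range).filter fun x => x.1 = y).card := by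
  obtain ⟨a, ha, rfl⟩ := (j_iv h2 hj).1 hy
  obtain ⟨b, hb, hab⟩ := exists_b h2 ha
  have h8 := eight h2 hq
  have hb' : b.1 * b.1 = (-1 : K) • (1 : Matrix (Fin 2) (Fin 2) K) := by rw [hb, neg_one_smul]
  have h1 : ∀ p ∈ circ K, (j a, j (cbS a b p)) ∈ cp j.range := by
    intro p hp
    rw [j_cp h2 hj]
    refine ⟨a, cbS a b p, ⟨ha, ?_, ?_⟩, rfl⟩
    · rw [cbS_coe ha hp, cb_sq ha hab hb', mem_circ.1 hp, one_mul, neg_one_smul]
    · rw [cbS_coe ha hp]
      exact cb_anti hab _ _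
  have h3 : ((circ K).image fun p => (j a, j (cbS a b p))) ⊆
      (cp j.range).filter fun x => x.1 = j a := by
    intro x hx
    obtain ⟨p, hp, rfl⟩ := Finset.mem_image.1 hx
    exact Finset.mem_filter.2 ⟨h1 p hp, rfl⟩
  have h4 : (circ K).card ≤ 2 * ((circ K).image fun p => (j a, j (cbS a b p))).card := by
    refine Finset.card_le_mul_card_image _ _ ?_
    intro x hx
    obtain ⟨p, hp, rfl⟩ := Finset.mem_image.1 hx
    refine (Finset.card_le_card (t := {p, -p}) ?_).trans Finset.card_le_two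
    intro p' hp'
    obtain ⟨hp', h5⟩ := Finset.mem_filter.1 hp'
    have h6 : j (cbS a b p') = j (cbS a b p) := (Prod.mk.inj h5).2
    have hbi : ∀ M N : Matrix (Fin 2) (Fin 2) K, M * b.1 = N * b.1 → M = N := by
      intro M N hMN
      have h7 := congrArg (fun X => X * b.1) hMN
      simp only [Matrix.mul_assoc, hb, Matrix.mul_neg, Matrix.mul_one] at h7
      exact neg_injective h7
    rw [Finset.mem_insert, Finset.mem_singleton]
    rcases j_eq hj h6 with h7 | h7
    · left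
      rw [cbS_coe ha hp, cbS_coe ha hp'] at h7
      obtain ⟨h9, h10⟩ := st_inj h2 ha (hbi _ _ h7)
      exact Prod.ext h9 h10
    · right
      rw [cbS_coe ha hp, cbS_coe ha hp', ← Matrix.neg_mul] at h7
      have h8 := hbi _ _ h7
      rw [neg_add, ← neg_smul, ← neg_smul] at h8
      obtain ⟨h9, h10⟩ := st_inj h2 ha h8
      exact Prod.ext h9 h10
  have h5 := Finset.card_le_card h3
  omega

lemma iv_pos [Finite G] (h2 : (2 : K) ≠ 0) {j : S2 K →* G}
    (hj : ∀ h, j h = 1 ↔ h.1 = 1 ∨ h.1 = -1) : 0 < (iv j.range).card := by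
  rw [Finset.card_pos]
  refine ⟨_, (j_iv h2 hj).2 ⟨⟨!![0, -1; 1, 0], by rw [Matrix.det_fin_two]; simp⟩, ?_, rfl⟩⟩
  ext i k
  fin_cases i <;> fin_cases k <;> simp

theorem stmtTY1 : StmtTY1.{u, v, w} := by
  intro K _ _ h2 hq G _ _ j hj 𝕜 _
  have h1 : (cp j.range).card = ∑ y ∈ iv j.range, ((cp j.range).filter fun x => x.1 = y).card :=
    Finset.card_eq_sum_card_fiberwise fun x hx => (mem_cp.1 hx).1
  have h3 : (iv j.range).card * 4 ≤ (cp j.range).card := by
    rw [h1, ← smul_eq_mul, ← Finset.sum_const]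
    exact Finset.sum_le_sum fun y hy => four_le h2 hq hj hy
  have h4 := iv_pos h2 hj
  obtain ⟨x, hx, α, φ, h5⟩ := graph_top (Γ := G) 𝕜 j.range (by omega)
  obtain ⟨a, b, hab, rfl⟩ := (j_cp h2 hj).1 hx
  exact ⟨a, b, hab, α, φ, h5⟩

end

end Vale.Agent.P240.R2.H164.TY1
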