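import Vale.Agent.P240.R2.H164.Sp4c
import Vale.Agent.P240.R2.H164.TY1
import Vale.Agent.P240.R2.H112.PH

/-!
`PSp_4(K) ≅ Ω_5(K)`.
-/

set_option autoImplicit false

namespace Vale.Agent.P240.R2.H164.Sp4

open Matrix Vale.Agent.P240.R2.AS Vale.Agent.P240.R2.H387 Vale.Agent.P240.R2.H296.O
open Vale.Agent.P240.R2.H715 (Sy)
open scoped Classical

universe u

noncomputable section

variable {K : Type u} [Field K] {s t : K} [StarRing K]

lemma m1 (h2 : (2 : K) ≠ 0) : (-1 : K) ≠ 1 := by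
  intro h
  apply h2
  linear_combination (-1 : K) * h

/-- scalars are central, and conversely -/
lemma cen5 (h2 : (2 : K) ≠ 0) (g : GU K 5) :
    g ∈ Subgroup.center (GU K 5) ↔
      ∃ c : K, (g : Matrix (Fin 5) (Fin 5) K) = c • (1 : Matrix (Fin 5) (Fin 5) K) :=
  H296.mem_center_iff (m1 h2) neg_one_star g

/-- the class of `rho` -/
def phi (hs : ∀ x : K, star x = x) (h2 : (2 : K) ≠ 0) (hst : s ^ 2 + t ^ 2 = -1) :
    GS K →* PGU K 5 :=
  (QuotientGroup.mk' (Subgroup.center (GU K 5))).comp (rho hs h2 hst)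

lemma phi_Tu (hs : ∀ x : K, star x = x) (h2 : (2 : K) ≠ 0) (hst : s ^ 2 + t ^ 2 = -1)
    {v : Fin 5 → K} (hv : v ⬝ᵥ v ≠ 0) :
    phi hs h2 hst ⟨Tu hst hv, Tu_mem hst hv⟩ = QuotientGroup.mk (rf v) := by
  have hsv : star v = v := funext fun i => hs _
  have hv' : hf v v ≠ 0 := by rw [hf, hsv]; exact hv
  have h1 : (rho hs h2 hst ⟨Tu hst hv, Tu_mem hst hv⟩).1 = -(rf v).1 := by
    refine Matrix.ext_of_mulVec_single fun i => ?_
    rw [rho_mulVec, Lg_Tu h2, Matrix.neg_mulVec, rf_mulVec hv', hf, hf, hsv]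
    abel
  change (QuotientGroup.mk _ : PGU K 5) = _
  rw [QuotientGroup.eq, cen5 h2]
  refine ⟨-1, ?_⟩
  change star (rho hs h2 hst ⟨Tu hst hv, Tu_mem hst hv⟩).1 * (rf v).1 = _
  rw [h1, star_neg, Matrix.neg_mul, Matrix.mem_unitaryGroup_iff'.1 (rf v).2, neg_one_smul]

lemma phi_surj (hs : ∀ x : K, star x = x) (h2 : (2 : K) ≠ 0) (hst : s ^ 2 + t ^ 2 = -1) :
    (phi hs h2 hst).range = ⊤ := by
  have h1 : (Rg K 5).map (QuotientGroup.mk' (Subgroup.center (GU K 5))) ≤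
      (phi hs h2 hst).range := by
    rw [Rg, MonoidHom.map_closure, Subgroup.closure_le]
    rintro _ ⟨_, ⟨v, hv, rfl⟩, rfl⟩
    have hsv : star v = v := funext fun i => hs _
    have hv' : v ⬝ᵥ v ≠ 0 := by rw [hf, hsv] at hv; exact hv
    exact ⟨_, phi_Tu hs h2 hst hv'⟩
  rw [Rg_top hs h2, ← MonoidHom.range_eq_map,
    MonoidHom.range_eq_top.2 (QuotientGroup.mk'_surjective _)] at h1
  exact top_le_iff.1 h1

variable (K) in
/-- `Sp_4 → GSp_4` -/
def inc : Sy K 2 →* GS K :=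
  ((Matrix.symplecticGroup (Fin 2) K).subtype.toHomUnits).codRestrict (GS K) fun g =>
    ⟨1, one_ne_zero, by
      rw [one_smul]
      exact SymplecticGroup.mem_iff.1 g.2⟩

lemma inc_coe (g : Sy K 2) : ((inc K g).1 : M4 K) = g.1 := rfl

lemma comm_le : commutator (GS K) ≤ (inc K).range := by
  have hmul : ∀ {X Y : M4 K} {a b : K}, X * J (Fin 2) K * Xᵀ = a • J (Fin 2) K →
      Y * J (Fin 2) K * Yᵀ = b • J (Fin 2) K →
      (X * Y) * J (Fin 2) K * (X * Y)ᵀ = (b * a) • J (Fin 2) K := by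
    intro X Y a b hX hY
    calc (X * Y) * J (Fin 2) K * (X * Y)ᵀ = X * (Y * J (Fin 2) K * Yᵀ) * Xᵀ := by
          rw [transpose_mul]
          simp only [Matrix.mul_assoc]
      _ = _ := by rw [hY, Matrix.mul_smul, Matrix.smul_mul, hX, smul_smul]
  rw [commutator_def, Subgroup.commutator_le]
  intro g _ h _
  obtain ⟨a, ha, h1⟩ := g.2
  obtain ⟨b, hb, h3⟩ := h.2
  have h4 := gs_inv ha h1 (Units.inv_mul g.1)
  have h5 := gs_inv hb h3 (Units.inv_mul h.1)
  have h6 := hmul (hmul (hmul h1 h3) h4) h5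
  have h7 : b⁻¹ * (a⁻¹ * (b * a)) = 1 := by field_simp
  rw [h7, one_smul] at h6
  refine ⟨⟨_, SymplecticGroup.mem_iff.2 h6⟩, ?_⟩
  apply Subtype.ext
  apply Units.ext
  rfl

/-- `Sp_4(K) → PGU K 5` -/
def psi (hs : ∀ x : K, star x = x) (h2 : (2 : K) ≠ 0) (hst : s ^ 2 + t ^ 2 = -1) :
    Sy K 2 →* PGU K 5 := (phi hs h2 hst).comp (inc K)

lemma comm_le_psi (hs : ∀ x : K, star x = x) (h2 : (2 : K) ≠ 0) (hst : s ^ 2 + t ^ 2 = -1) :
    commutator (PGU K 5) ≤ (psi hs h2 hst).range := by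
  rw [commutator_def, ← phi_surj hs h2 hst, MonoidHom.range_eq_map, ← Subgroup.map_commutator,
    psi, MonoidHom.range_comp, ← commutator_def]
  exact Subgroup.map_mono comm_le

lemma psi_eq_one (hs : ∀ x : K, star x = x) (h2 : (2 : K) ≠ 0) (hst : s ^ 2 + t ^ 2 = -1)
    (g : Sy K 2) : psi hs h2 hst g = 1 ↔ ∃ c : K, g.1 = c • (1 : M4 K) := by
  change (QuotientGroup.mk (rho hs h2 hst (inc K g)) : PGU K 5) = 1 ↔ _
  rw [QuotientGroup.eq_one_iff, cen5 h2]
  constructor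
  · rintro ⟨c, hc⟩
    have h1 : ∀ v : Fin 5 → K, Lg s t (inc K g).1 v = c • v := by
      intro v
      rw [← rho_mulVec hs h2 hst, hc, Matrix.smul_mulVec, Matrix.one_mulVec]
    have h3 : ∀ v : Fin 5 → K, g.1 * T s t v * ((inc K g).1⁻¹).1 = c • T s t v := by
      intro v
      rw [← T_smul, ← h1, T_Lg h2 hst (inc K g).2]
      rfl
    have hcc : c * c = 1 := by
      have h4 := Lg_dot h2 hst (inc K g).2 (Pi.single 0 1) (Pi.single 0 1)
      rw [h1, smul_dotProduct, dotProduct_smul, single_one_dotProduct, Pi.single_eq_same,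
        smul_eq_mul, smul_eq_mul, mul_one] at h4
      exact h4
    have hinv : ((inc K g).1⁻¹).1 * g.1 = 1 := Units.inv_mul (inc K g).1
    have hinv' : g.1 * ((inc K g).1⁻¹).1 = 1 := Units.mul_inv (inc K g).1
    have hmul : ∀ A B : M4 K, g.1 * (A * B) * ((inc K g).1⁻¹).1 =
        (g.1 * A * ((inc K g).1⁻¹).1) * (g.1 * B * ((inc K g).1⁻¹).1) := by
      intro A B
      calc _ = g.1 * A * (((inc K g).1⁻¹).1 * g.1) * B * ((inc K g).1⁻¹).1 := by
            rw [hinv, Matrix.mul_one]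
            simp only [Matrix.mul_assoc]
        _ = _ := by simp only [Matrix.mul_assoc]
    have hc1 : c = 1 := by
      have h5 := congrArg (fun X => g.1 * X * ((inc K g).1⁻¹).1) (T_prod hst)
      simp only [hmul, h3, Matrix.mul_one, hinv', Matrix.smul_mul, Matrix.mul_smul] at h5
      rw [T_prod hst] at h5
      simp only [smul_smul] at h5
      have h6 : c * (c * (c * (c * c))) = 1 := by
        apply smul_one_inj
        rw [one_smul]
        exact h5
      rw [hcc, mul_one, hcc, mul_one] at h6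
      exact h6
    refine scalar_of_comm h2 hst fun v => ?_
    have h5 := h3 v
    rw [hc1, one_smul] at h5
    calc g.1 * T s t v = g.1 * T s t v * (((inc K g).1⁻¹).1 * g.1) := by rw [hinv, Matrix.mul_one]
      _ = (g.1 * T s t v * ((inc K g).1⁻¹).1) * g.1 := by simp only [Matrix.mul_assoc]
      _ = _ := by rw [h5]
  · rintro ⟨c, hc⟩
    refine ⟨1, ?_⟩
    rw [one_smul]
    refine Matrix.ext_of_mulVec_single fun i => ?_
    rw [rho_mulVec, Matrix.one_mulVec]
    apply T_inj h2 hst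
    rw [T_Lg h2 hst (inc K g).2]
    have hinv' : g.1 * ((inc K g).1⁻¹).1 = 1 := Units.mul_inv (inc K g).1
    calc g.1 * T s t (Pi.single i 1) * ((inc K g).1⁻¹).1 =
        T s t (Pi.single i 1) * (g.1 * ((inc K g).1⁻¹).1) := by
          rw [hc]
          simp
      _ = _ := by rw [hinv', Matrix.mul_one]

end

end Vale.Agent.P240.R2.H164.Sp4
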