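import Vale.Agent.P240.R2.H164.Sp4d
import Vale.Agent.P240.R2.H296.OFin
import Vale.Agent.P240.R2.H715.SpTF

/-!
`PSp_4(K) ≅ Ω_5(K)`, `LocTopF` for `PSp_4(q)` at the prime `2`.
-/

set_option autoImplicit false

namespace Vale.Agent.P240.R2.H164.Sp4

open Matrix Vale.Agent.P240.R2.AS Vale.Agent.P240.R2.H387 Vale.Agent.P240.R2.H296.O
open Vale.Agent.P240.R2.H715 (Sy S2 hS hM ts PSpFac)
open Vale.Agent.P240.R2.H487 (LocTopF TopFac)
open scoped Classical commutatorElement

universe u v w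

noncomputable section

/-- `PSp_4(K)` -/
abbrev PS4 (K : Type u) [Field K] : Type u := Sy K 2 ⧸ Subgroup.center (Sy K 2)

lemma ps4_nonab {K : Type u} [Field K] [Fintype K] : ∃ x y : PS4 K, x * y ≠ y * x := by
  set a : S2 K := ⟨!![1, 1; 0, 1], by rw [Matrix.det_fin_two]; simp⟩ with ha
  set b : S2 K := ⟨!![1, 0; 1, 1], by rw [Matrix.det_fin_two]; simp⟩ with hb
  refine ⟨QuotientGroup.mk (hS a), QuotientGroup.mk (hS b), fun h => ?_⟩
  rw [← QuotientGroup.mk_mul, ← QuotientGroup.mk_mul, QuotientGroup.eq, ← map_mul, ← map_mul,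
    ← map_inv, ← map_mul, H112.mem_center_sy (by norm_num)] at h
  obtain ⟨c, hc⟩ := h
  have h1 : hM 2 ((b * a).1) = c • hM 2 ((a * b).1) := by
    have h2 : (hS (m := 2) (b * a)).1 = (hS (m := 2) (a * b)).1 * (hS (m := 2) ((a * b)⁻¹ * (b * a))).1 := by
      have : b * a = (a * b) * ((a * b)⁻¹ * (b * a)) := by group
      conv_lhs => rw [this, map_mul]
      rfl
    change (hS (m := 2) (b * a)).1 = _
    rw [h2, hc, Matrix.mul_smul, Matrix.mul_one]
    rfl
  have e1 := congrFun (congrFun h1 (Sum.inl 0)) (Sum.inr 0)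
  have e2 := congrFun (congrFun h1 (Sum.inl 0)) (Sum.inl 0)
  have hba : (b * a).1 = !![1, 1; 1, 2] := by
    change b.1 * a.1 = _
    rw [ha, hb]
    ext i j
    fin_cases i <;> fin_cases j <;> simp [Matrix.mul_apply, Fin.sum_univ_two]
    norm_num
  have hab : (a * b).1 = !![2, 1; 1, 1] := by
    change a.1 * b.1 = _
    rw [ha, hb]
    ext i j
    fin_cases i <;> fin_cases j <;> simp [Matrix.mul_apply, Fin.sum_univ_two]
    norm_num
  rw [hba, hab] at e1 e2
  simp [hM] at e1 e2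
  rw [← e1] at e2
  exact one_ne_zero (α := K) (by linear_combination -e2)

/-- **`PSp_4(K) ≅ Ω_5(K)`** -/
theorem psp4_iso {K : Type u} [Field K] [Fintype K] [StarRing K] (hs : ∀ x : K, star x = x)
    (h2 : (2 : K) ≠ 0) (hsim : IsSimpleGroup (PS4 K)) :
    Nonempty (PS4 K ≃* ↥(commutator (PGU K 5))) := by
  obtain ⟨s, t, hst⟩ := TY1.two_sq h2 (-1)
  set ψ : PS4 K →* PGU K 5 := QuotientGroup.lift _ (psi hs h2 hst) (by
    intro g hg
    exact (psi_eq_one hs h2 hst g).2 ((H112.mem_center_sy (by norm_num) g).1 hg)) with hψ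
  have hinj : Function.Injective ψ := by
    rw [injective_iff_map_eq_one]
    intro x hx
    obtain ⟨g, rfl⟩ := QuotientGroup.mk_surjective x
    have hx' : psi hs h2 hst g = 1 := hx
    rw [QuotientGroup.eq_one_iff, H112.mem_center_sy (by norm_num)]
    exact (psi_eq_one hs h2 hst g).1 hx'
  have hle : commutator (PGU K 5) ≤ ψ.range := by
    refine (comm_le_psi hs h2 hst).trans ?_
    rintro _ ⟨g, rfl⟩
    exact ⟨QuotientGroup.mk g, rfl⟩
  have hperf : commutator (PS4 K) = ⊤ := by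
    rcases hsim.eq_bot_or_eq_top_of_normal (commutator (PS4 K)) inferInstance with h | h
    · exfalso
      obtain ⟨x, y, hxy⟩ := ps4_nonab (K := K)
      apply hxy
      have h1 : ⁅x, y⁆ ∈ commutator (PS4 K) :=
        Subgroup.commutator_mem_commutator (Subgroup.mem_top x) (Subgroup.mem_top y)
      rw [h, Subgroup.mem_bot] at h1
      exact commutatorElement_eq_one_iff_mul_comm.1 h1
    · exact h
  have hge : ψ.range ≤ commutator (PGU K 5) := by
    rw [MonoidHom.range_eq_map, ← hperf, commutator_def, Subgroup.map_commutator, commutator_def]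
    exact Subgroup.commutator_mono le_top le_top
  exact ⟨(MonoidHom.ofInjective hinj).trans (MulEquiv.subgroupCongr (le_antisymm hge hle))⟩

/-- `L` is isomorphic to `PSp_{2m}(F)`, where `m ≥ 2` and `|F|` is odd and not `3`, `5`, `9`, `25` -/
def PSpFac2 (L : Type u) [Group L] : Prop :=
  ∃ (m : ℕ) (F : Type) (_ : Field F) (_ : Finite F), 2 ≤ m ∧ Nat.card F % 2 = 1 ∧
    Nat.card F ∉ ({3, 5, 9, 25} : Set ℕ) ∧
    Nonempty (L ≃* (Matrix.symplecticGroup (Fin m) F ⧸
      Subgroup.center (Matrix.symplecticGroup (Fin m) F)))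

theorem PSpFac2.topFac (𝕜 : Type v) [Field 𝕜] {L : Type u} [Group L] [IsSimpleGroup L]
    (h : PSpFac2 L) : TopFac 𝕜 2 L := by
  obtain ⟨m, F, hF1, hF2, hm, hodd, hex, ⟨e⟩⟩ := h
  rcases Nat.lt_or_ge m 3 with h3 | h3
  · have hm2 : m = 2 := by omega
    subst hm2
    have : Fintype F := Fintype.ofFinite F
    let _ : StarRing F := ts F
    have hs : ∀ x : F, star x = x := fun _ => rfl
    simp only [Set.mem_insert_iff, Set.mem_singleton_iff, not_or] at hex
    obtain ⟨h3, h5, h9, h25⟩ := hex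
    have ho : Odd (Nat.card F) := Nat.odd_iff.2 hodd
    have h1 : Nat.card F ≠ 1 := by
      intro h1
      exact not_subsingleton F ((Nat.card_eq_one_iff_unique.1 h1).1)
    have hsim : IsSimpleGroup (PS4 F) := e.symm.isSimpleGroup
    obtain ⟨f⟩ := psp4_iso hs (H221.two_ne ho) hsim
    exact topFac_Om 𝕜 hs ho (by omega) h9 h25 (by decide) (by norm_num) (e.trans f)
  · exact PSpFac.topFac 𝕜 ⟨m, F, hF1, hF2, h3, hodd, hex, ⟨e⟩⟩

end

end Vale.Agent.P240.R2.H164.Sp4
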