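import Vale.Agent.P240.R2.H945.W.X3
import Vale.Agent.P240.R2.H164.EX2

/-!
Twisted groups: few automorphisms of order `p`.
-/

set_option autoImplicit false

namespace Vale.Agent.P240.R2.H164.TW

open Subgroup Vale.Agent.P240.K Vale.Agent.P240.H195 Vale.Agent.P240.R2.H997
  Vale.Agent.P240.R2.H945.W
open Vale.Agent.P240.R2.H986.X (RC nn nl wl SS)
open Vale.Agent.P240.R2.H164.EX (eq_one_of_conj mem_zpowers_cyc mem_of_two exists_e)

universe u

section
variable {ι : Type*} {F : Type*} [Field F] {L : Type*} [Group L] {C : RC ι} {K : ι → Subfield F}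
  {x : ι → F → L}

/-- the automorphism `e` acts on the root elements of the simple roots and their negatives by the
field automorphism `σ` and the scalars `c` -/
def AlT (C : RC ι) (K : ι → Subfield F) (x : ι → F → L) (e : MulAut L) (σ : F ≃+* F) (c : ι → F) :
    Prop :=
  ∀ i, C.simp i → c i ∈ K i ∧ c i ≠ 0 ∧ ∀ t ∈ K i, σ t ∈ K i ∧ e (x i t) = x i (c i * σ t) ∧
    e (x (C.neg i) t) = x (C.neg i) ((c i)⁻¹ * σ t)

/-- the root elements of the simple roots and their negatives generate `L` -/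
lemma gen_simple (h : TS C K x) {H : Subgroup L}
    (hH : ∀ i, C.simp i → ∀ t ∈ K i, x i t ∈ H ∧ x (C.neg i) t ∈ H) : H = ⊤ := by
  have hn : ∀ i, C.simp i → nn C.neg x i 1 ∈ H := fun i hi =>
    mul_mem (mul_mem (hH i hi 1 (one_mem _)).1 (hH i hi _ (neg_mem (inv_mem (one_mem _)))).2)
      (hH i hi 1 (one_mem _)).1
  have key : ∀ j, ∀ t ∈ K j, x j t ∈ H := by
    intro j
    refine C.gen (fun j => ∀ t ∈ K j, x j t ∈ H) (fun i hi t ht => (hH i hi t ht).1) ?_ j
    intro i j hi hj t ht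
    obtain ⟨τ, hτ, h1⟩ := h.refl i j
    obtain ⟨c, hc, hc0, h2⟩ := h1 1 (one_mem _) one_ne_zero
    rw [h.K_s] at ht
    have h3 : τ (τ.symm (c⁻¹ * t)) = c⁻¹ * t := τ.apply_symm_apply _
    have h4 : τ.symm (c⁻¹ * t) ∈ K j := by
      rw [← hτ, h3]
      exact mul_mem (inv_mem hc) ht
    have h5 := (h2 _ h4).1
    rw [h3, mul_inv_cancel_left₀ hc0] at h5
    rw [← h5]
    exact mul_mem (mul_mem (hn i hi) (hj _ h4)) (inv_mem (hn i hi))
  rw [eq_top_iff, ← h.gen, gr, closure_le]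
  rintro _ ⟨i, t, -, ht, rfl⟩
  exact key i t ht

/-- automorphisms that agree on these root elements are equal -/
lemma ext_simple (h : TS C K x) {e e' : MulAut L}
    (he : ∀ i, C.simp i → ∀ t ∈ K i, e (x i t) = e' (x i t) ∧
      e (x (C.neg i) t) = e' (x (C.neg i) t)) : e = e' := by
  have h1 : (e.toMonoidHom.eqLocus e'.toMonoidHom) = ⊤ :=
    gen_simple h fun i hi t ht => ⟨(he i hi t ht).1, (he i hi t ht).2⟩
  ext y
  have h2 : y ∈ (e.toMonoidHom.eqLocus e'.toMonoidHom) := h1 ▸ mem_top y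
  exact h2

lemma AlT_one : AlT C K x 1 (1 : RingAut F) (fun _ => 1) :=
  fun i _ => ⟨one_mem _, one_ne_zero, fun t ht => by simpa using ht⟩

lemma AlT_mul {e e' : MulAut L} {σ σ' : RingAut F} {c c' : ι → F} (h : AlT C K x e σ c)
    (h' : AlT C K x e' σ' c') : AlT C K x (e * e') (σ * σ') (fun i => c i * σ (c' i)) := by
  intro i hi
  obtain ⟨hK, h0, h1⟩ := h i hi
  obtain ⟨hK', h0', h1'⟩ := h' i hi
  refine ⟨mul_mem hK (h1 _ hK').1, mul_ne_zero h0 ((map_ne_zero σ).2 h0'), fun t ht => ?_⟩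
  obtain ⟨a1, a2, a3⟩ := h1' t ht
  have b1 := h1 _ (mul_mem hK' a1)
  have b2 := h1 _ (mul_mem (inv_mem hK') a1)
  refine ⟨(h1 _ a1).1, ?_, ?_⟩
  · rw [MulAut.mul_apply, a2, b1.2.1, map_mul, RingAut.mul_apply, mul_assoc]
  · rw [MulAut.mul_apply, a3, b2.2.2, map_mul, map_inv₀, RingAut.mul_apply, mul_inv, mul_assoc]

lemma AlT_inv [Finite F] {e : MulAut L} {σ : RingAut F} {c : ι → F} (h : AlT C K x e σ c) :
    AlT C K x e⁻¹ σ⁻¹ (fun i => σ⁻¹ (c i)⁻¹) := by
  intro i hi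
  obtain ⟨hK, h0, h1⟩ := h i hi
  have e0 : ∀ t, σ (σ⁻¹ t) = t := fun t => by
    rw [← RingAut.mul_apply, mul_inv_cancel, RingAut.one_apply]
  have e1 : ∀ y z : L, e y = z → e⁻¹ z = y := by
    rintro y _ rfl
    rw [← MulAut.mul_apply, inv_mul_cancel, MulAut.one_apply]
  have e2 : ∀ t ∈ K i, σ⁻¹ t ∈ K i := by
    intro t ht
    let φ : K i → K i := fun s => ⟨σ s.1, (h1 s.1 s.2).1⟩
    have hφ : Function.Injective φ := by
      intro a b hab
      have := congrArg Subtype.val hab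
      exact Subtype.ext (σ.injective this)
    obtain ⟨s, hs⟩ := Finite.surjective_of_injective hφ ⟨t, ht⟩
    have hs' : σ s.1 = t := congrArg Subtype.val hs
    have : σ⁻¹ t = s.1 := by
      rw [← hs', ← RingAut.mul_apply, inv_mul_cancel, RingAut.one_apply]
    rw [this]
    exact s.2
  refine ⟨e2 _ (inv_mem hK), (map_ne_zero σ⁻¹).2 (inv_ne_zero h0), fun t ht => ⟨e2 _ ht, ?_, ?_⟩⟩
  · apply e1
    rw [(h1 _ (mul_mem (e2 _ (inv_mem hK)) (e2 _ ht))).2.1, map_mul, e0, e0,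
      mul_inv_cancel_left₀ h0]
  · apply e1
    rw [(h1 _ (mul_mem (inv_mem (e2 _ (inv_mem hK))) (e2 _ ht))).2.2, map_mul, map_inv₀, e0, e0,
      inv_inv, inv_mul_cancel_left₀ h0]

/-- the automorphisms of this form with their field automorphisms -/
def AG [Finite F] (C : RC ι) (K : ι → Subfield F) (x : ι → F → L) :
    Subgroup (MulAut L × RingAut F) where
  carrier := {y | ∃ c, AlT C K x y.1 y.2 c}
  one_mem' := ⟨_, AlT_one⟩
  mul_mem' := by
    rintro a b ⟨c, hc⟩ ⟨c', hc'⟩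
    exact ⟨_, AlT_mul hc hc'⟩
  inv_mem' := by
    rintro a ⟨c, hc⟩
    exact ⟨_, AlT_inv hc⟩

lemma AlT_pow {e : MulAut L} {c : ι → F} (h : AlT C K x e (1 : RingAut F) c) (k : ℕ) :
    AlT C K x (e ^ k) (1 : RingAut F) (fun i => c i ^ k) := by
  induction k with
  | zero =>
    intro i hi
    refine ⟨by simp, by simp, fun t ht => by simpa using ht⟩
  | succ k ih =>
    have h1 := AlT_mul ih h
    rw [← pow_succ, mul_one] at h1
    intro i hi
    have h2 := h1 i hi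
    simp only [RingAut.one_apply, ← pow_succ] at h2
    exact h2

/-- the relation `e δ e⁻¹ = δ ^ m` -/
lemma AlT_conj (h : TS C K x) {e δ : MulAut L} {σ : RingAut F} {c c' : ι → F}
    (he : AlT C K x e σ c) (hδ : AlT C K x δ (1 : RingAut F) c') {m : ℕ} (hσ : ∀ y, σ y = y ^ m) :
    e * δ * e⁻¹ = δ ^ m := by
  have h1 : e * δ = δ ^ m * e := by
    have h2 := AlT_mul he hδ
    have h3 := AlT_mul (AlT_pow hδ m) he
    apply ext_simple h
    intro i hi t ht
    rw [((h2 i hi).2.2 t ht).2.1, ((h3 i hi).2.2 t ht).2.1, ((h2 i hi).2.2 t ht).2.2,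
      ((h3 i hi).2.2 t ht).2.2]
    simp only [mul_one, one_mul, RingAut.one_apply, hσ (c' i), mul_comm (c i), and_self]
  rw [h1, mul_inv_cancel_right]

/-- `c ^ d` is the character of an element of `L`, for all `c` -/
def SurT (C : RC ι) (K : ι → Subfield F) (x : ι → F → L) (d : ℕ) : Prop :=
  ∀ c : ι → F, (∀ i, C.simp i → c i ∈ K i ∧ c i ≠ 0) → ∃ g : L, ∀ i, C.simp i → ∀ u ∈ K i,
    g * x i u * g⁻¹ = x i (c i ^ d * u) ∧ g * x (C.neg i) u * g⁻¹ = x (C.neg i) ((c i ^ d)⁻¹ * u)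

/-- the `d`-th power of an automorphism that acts by scalars is inner -/
lemma inner_pow (h : TS C K x) {d : ℕ} (hD : SurT C K x d) {e : MulAut L} {c : ι → F}
    (he : AlT C K x e (1 : RingAut F) c) : e ^ d ∈ (MulAut.conj (G := L)).range := by
  obtain ⟨g, hg⟩ := hD c fun i hi => ⟨(he i hi).1, (he i hi).2.1⟩
  refine ⟨g, (ext_simple h fun i hi t ht => ?_).symm⟩
  obtain ⟨-, -, h1⟩ := AlT_pow he d i hi
  rw [MulAut.conj_apply, MulAut.conj_apply, (hg i hi t ht).1, (hg i hi t ht).2, (h1 t ht).2.1,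
    (h1 t ht).2.2, RingAut.one_apply]
  exact ⟨rfl, rfl⟩

end

section
variable {ι : Type*} {F : Type*} [Field F] {L : Type u} [Group L] {C : RC ι} {K : ι → Subfield F}
  {x : ι → F → L}

/-- `n₀` maps `U` to the opposite group -/
lemma opp_nl (h : TS C K x) {l : List ι} (hl : ∀ j, 0 < C.ht j → C.ht (wl C l j) < 0) :
    ∀ y ∈ UU C K x, nl C x l * y * (nl C x l)⁻¹ ∈ UU C K x → y = 1 := by
  intro y hy hny
  have h1 : nl C x l * y * (nl C x l)⁻¹ ∈ UM C K x :=
    h.nl_conj_gr (p := fun i => 0 < C.ht i) (q := fun i => C.ht i < 0) hl hy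
  have h2 : nl C x l * y * (nl C x l)⁻¹ ∈ UU C K x ⊓ UM C K x := ⟨hny, h1⟩
  rw [show UU C K x ⊓ UM C K x = ⊥ from h.opp, mem_bot] at h2
  exact conj_eq_one_iff.1 h2

/-- an inner automorphism of this form has trivial field automorphism -/
lemma sigma_one [Finite L] {r : ℕ} (hr : r.Prime) (h : TS C K x)
    (hSB : SB r (BB C K x) (NN C K x) (UU C K x) (SS C x)) {l : List ι}
    (hls : ∀ i ∈ l, C.simp i) (hl : ∀ j, 0 < C.ht j → C.ht (wl C l j) < 0)
    (hK : ∃ i, C.simp i ∧ K i = ⊤) {e : MulAut L}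
    (heI : e ∈ (MulAut.conj (G := L)).range) (heB : am e (BB C K x) = BB C K x)
    (heC : am e (cj (nl C x l) (BB C K x)) = cj (nl C x l) (BB C K x)) {σ : RingAut F} {c : ι → F}
    (he : AlT C K x e σ c) : σ = 1 := by
  obtain ⟨y, rfl⟩ := heI
  rw [am_conj] at heB heC
  have hyB : y ∈ BB C K x := by
    have h1 := (hSB.cj_B_eq_iff hr (g := 1) (g' := y)).1 (by rw [heB, cj_one])
    simpa using h1
  obtain ⟨v, hv, t, ht, rfl⟩ := h.mem_BB hyB
  have hn₀ : nl C x l ∈ NN C K x := TS.nl_mem hls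
  have ht' : (nl C x l)⁻¹ * t * (nl C x l)⁻¹⁻¹ ∈ BB C K x :=
    hSB.norm _ (inv_mem hn₀) t (TS.TT_le_BB ht) (TS.TT_le ht)
  have h2 : cj (v * nl C x l) (BB C K x) = cj (1 * nl C x l) (BB C K x) := by
    rw [one_mul, ← heC, ← cj_mul]
    have e1 : v * t * nl C x l = v * nl C x l * ((nl C x l)⁻¹ * t * (nl C x l)⁻¹⁻¹) := by group
    have e2 : cj (v * nl C x l * ((nl C x l)⁻¹ * t * (nl C x l)⁻¹⁻¹)) (BB C K x) =
        cj (v * nl C x l) (BB C K x) := by rw [cj_mul, cj_self ht']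
    rw [e1, e2]
  have h3 : v = 1 := hSB.opp_free hr (opp_nl h hl) hv (one_mem _) h2
  subst h3
  obtain ⟨i, hi, hiK⟩ := hK
  have hall : ∀ s : F, s ∈ K i := fun s => by rw [hiK]; trivial
  obtain ⟨c', -, hc', h4⟩ := h.T_act ht i
  obtain ⟨-, h5, h6⟩ := he i hi
  have h7 : ∀ s, c i * σ s = c' * s := by
    intro s
    apply h.x_inj (i := i) (hall _) (hall _)
    rw [← (h6 s (hall s)).2.1, MulAut.conj_apply, one_mul, h4 s (hall s)]
  have h8 : c i = c' := by
    have := h7 1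
    rwa [map_one, mul_one, mul_one] at this
  ext s
  have h9 := h7 s
  rw [← h8] at h9
  rw [mul_left_cancel₀ h5 h9, RingAut.one_apply]

/-- **few automorphisms**: if the automorphisms of `p`-power order that stabilize `B` and the
opposite subgroup are of the form `AlT`, and all characters `c ^ d` come from `L`, `p` prime to `d`
and `φ(d)` -/
theorem fewAut_of [Finite ι] [Finite F] [Finite L] (h : TS C K x)
    (hcen : ∀ g : L, (∀ y, g * y = y * g) → g = 1) (r : ℕ) [Fact r.Prime] [CharP F r]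
    {l : List ι} (hls : ∀ i ∈ l, C.simp i) (hl : ∀ j, 0 < C.ht j → C.ht (wl C l j) < 0)
    (hK : ∃ i, C.simp i ∧ K i = ⊤) {d p : ℕ} (hp : p.Prime) (hpd : Nat.Coprime p d)
    (hpt : Nat.Coprime p (Nat.totient d)) (hD : SurT C K x d)
    (hN : ∀ e : MulAut L, (∃ a, e ^ p ^ a = 1) → am e (BB C K x) = BB C K x →
      am e (cj (nl C x l) (BB C K x)) = cj (nl C x l) (BB C K x) →
      ∃ (σ : F ≃+* F) (c : ι → F), AlT C K x e σ c) : FewAut p L := by
  have hr : r.Prime := Fact.out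
  have hSB : SB r (BB C K x) (NN C K x) (UU C K x) (SS C x) := (splitBN h hcen r).toSB
  have hn₀ : nl C x l ∈ NN C K x := TS.nl_mem hls
  have hopp := opp_nl h hl
  have hnI : (MulAut.conj (G := L)).range.Normal := normal_conj
  have hcyc : IsCyclic (RingAut F) := ff_cyclic
  have hfin : Finite (RingAut F) := Finite.of_injective (fun f : RingAut F => (f : F → F))
    DFunLike.coe_injective
  -- normal form of an outer automorphism of order `p`
  have norm : ∀ f : MulAut L, OutAut p f → ∃ (e : MulAut L) (σ : RingAut F),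
      (e, σ) ∈ AG C K x ∧ σ ^ p = 1 ∧ σ ≠ 1 ∧ e ∈ zpowers f ⊔ (MulAut.conj (G := L)).range ∧
      f ∈ zpowers e ⊔ (MulAut.conj (G := L)).range ∧ e ^ p ∈ (MulAut.conj (G := L)).range := by
    intro f hf
    obtain ⟨e, ⟨a, hea⟩, heB, heC, hef, hfe, hep, heI⟩ := exists_e hSB hr hp hn₀ hopp hf
    obtain ⟨σ, c, hc⟩ := hN e ⟨a, hea⟩ heB heC
    have hAG : (e, (σ : RingAut F)) ∈ AG C K x := ⟨c, hc⟩
    have hAGp : (e ^ p, (σ : RingAut F) ^ p) ∈ AG C K x := pow_mem hAG p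
    obtain ⟨c', hc'⟩ := hAGp
    have hσp : (σ : RingAut F) ^ p = 1 :=
      sigma_one hr h hSB hls hl hK hep (am_pow_eq heB p) (am_pow_eq heC p) hc'
    refine ⟨e, σ, hAG, hσp, ?_, hef, hfe, hep⟩
    rintro rfl
    exact heI (mem_of_two hpd hep (inner_pow h hD hc))
  have key : ∀ f g : MulAut L, OutAut p f → OutAut p g →
      g ∈ zpowers f ⊔ (MulAut.conj (G := L)).range := by
    intro f g hf hg
    obtain ⟨e, σ, hAG, hσp, hσ1, hef, -, hep⟩ := norm f hf
    obtain ⟨e', σ', hAG', hσp', -, -, hge, hep'⟩ := norm g hg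
    obtain ⟨k, hk⟩ := mem_zpowers_cyc hp hσp hσ1 hσp'
    have hk' : σ ^ k = σ' := hk
    -- the difference
    have hδ : (e' * (e ^ k)⁻¹, (1 : RingAut F)) ∈ AG C K x := by
      have h1 := mul_mem hAG' (inv_mem (zpow_mem hAG k))
      have h2 : (e', σ') * ((e, σ) ^ k)⁻¹ = (e' * (e ^ k)⁻¹, (1 : RingAut F)) := by
        rw [Prod.ext_iff]
        refine ⟨rfl, ?_⟩
        change σ' * (σ ^ k)⁻¹ = 1
        rw [hk', mul_inv_cancel]
      rwa [h2] at h1
    obtain ⟨c, hc⟩ := hAG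
    obtain ⟨c', hc'⟩ := hδ
    have hδd := inner_pow h hD hc'
    obtain ⟨m, hm⟩ := ff_aut (r := r) σ
    have hconj := AlT_conj h hc hc' hm
    set I := (MulAut.conj (G := L)).range with hI
    have hδ1 : ((e' * (e ^ k)⁻¹ : MulAut L) : MulAut L ⧸ I) = 1 := by
      refine eq_one_of_conj (a := (e : MulAut L ⧸ I)) (m := r ^ m) (k := k) hp ?_ ?_ ?_ ?_ hpd hpt
      · rw [← QuotientGroup.mk_pow]
        exact (QuotientGroup.eq_one_iff _).2 hep
      · rw [← QuotientGroup.mk_pow]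
        exact (QuotientGroup.eq_one_iff _).2 hδd
      · rw [← QuotientGroup.mk_mul, ← QuotientGroup.mk_inv, ← QuotientGroup.mk_mul,
          ← QuotientGroup.mk_pow, hconj]
      · rw [← QuotientGroup.mk_zpow, ← QuotientGroup.mk_mul, inv_mul_cancel_right,
          ← QuotientGroup.mk_pow]
        exact (QuotientGroup.eq_one_iff _).2 hep'
    have hδI := (QuotientGroup.eq_one_iff _).1 hδ1
    have he'e : e' ∈ zpowers e ⊔ I := by
      have h1 : e' = (e' * (e ^ k)⁻¹) * e ^ k := by rw [inv_mul_cancel_right]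
      rw [h1]
      exact mul_mem ((le_sup_right : I ≤ _) hδI)
        ((le_sup_left : zpowers e ≤ _) (zpow_mem (mem_zpowers e) k))
    have h1 : zpowers e ⊔ I ≤ zpowers f ⊔ I :=
      sup_le (by rw [zpowers_le]; exact hef) le_sup_right
    have h2 : zpowers e' ⊔ I ≤ zpowers f ⊔ I :=
      sup_le (by rw [zpowers_le]; exact h1 he'e) le_sup_right
    exact h2 hge
  exact ⟨fun f g _ hf hg _ => Or.inl (key f g hf hg), Or.inl fun f g hf hg => key f g hf hg⟩

end

end Vale.Agent.P240.R2.H164.TW
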