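import Vale.Agent.P240.R2.H164.TW1

/-!
Twisted groups: the torus of `³D₄(q)`.
-/

set_option autoImplicit false

namespace Vale.Agent.P240.R2.H164.TW

open Subgroup Vale.Agent.P240.K Vale.Agent.P240.H195 Vale.Agent.P240.R2.H997
  Vale.Agent.P240.R2.H945.W
open Vale.Agent.P240.R2.H986.X (RC nn nl wl SS)

universe u

section
variable {ι : Type*} {F : Type*} [Field F] {L : Type*} [Group L] {C : RC ι} {K : ι → Subfield F}
  {x : ι → F → L}

/-- `h_i(t) = n_i(t) n_i(1)⁻¹` -/
def hh (C : RC ι) (x : ι → F → L) (i : ι) (t : F) : L := nn C.neg x i t * (nn C.neg x i 1)⁻¹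

/-- the action of `h_i(t)` on `x_j` and `x_{-j}` -/
lemma h_act2 (h : TS C K x) (i j : ι) {t : F} (ht : t ∈ K i) (ht0 : t ≠ 0) :
    ∃ c, c ∈ K j ∧ c ≠ 0 ∧ ∀ u, u ∈ K j →
    hh C x i t * x j u * (hh C x i t)⁻¹ = x j (c * u) ∧
    hh C x i t * x (C.neg j) u * (hh C x i t)⁻¹ = x (C.neg j) (c⁻¹ * u) := by
  obtain ⟨τ, hτ, h1⟩ := h.refl i (C.s i j)
  obtain ⟨c, hc, hc0, h2⟩ := h1 1 (one_mem _) one_ne_zero
  obtain ⟨d, hd, hd0, h3⟩ := h1 t ht ht0
  rw [h.K_s] at hτ hc hd h2 h3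
  rw [C.s_s] at h2 h3
  refine ⟨d * c⁻¹, mul_mem hd (inv_mem hc), mul_ne_zero hd0 (inv_ne_zero hc0), fun u hu => ⟨?_, ?_⟩⟩
  · have hv : τ.symm (c⁻¹ * u) ∈ K j := by
      rw [← hτ, τ.apply_symm_apply]
      exact mul_mem (inv_mem hc) hu
    have h4 := (h2 _ hv).1
    have h5 := (h3 _ hv).1
    rw [τ.apply_symm_apply, mul_inv_cancel_left₀ hc0] at h4
    rw [τ.apply_symm_apply, ← mul_assoc] at h5
    rw [← h5, ← h4, hh]
    group
  · have hv : τ.symm (c * u) ∈ K j := by
      rw [← hτ, τ.apply_symm_apply]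
      exact mul_mem hc hu
    have h4 := (h2 _ hv).2
    have h5 := (h3 _ hv).2
    rw [τ.apply_symm_apply, inv_mul_cancel_left₀ hc0] at h4
    rw [τ.apply_symm_apply, ← mul_assoc] at h5
    rw [mul_inv, inv_inv, ← h5, ← h4, hh]
    group

lemma T_act2 (h : TS C K x) {g : L} (hg : g ∈ TT C K x) (j : ι) : ∃ c, c ∈ K j ∧ c ≠ 0 ∧
    ∀ u, u ∈ K j → g * x j u * g⁻¹ = x j (c * u) ∧
      g * x (C.neg j) u * g⁻¹ = x (C.neg j) (c⁻¹ * u) := by
  refine closure_induction (p := fun g _ => ∃ c, c ∈ K j ∧ c ≠ 0 ∧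
    ∀ u, u ∈ K j → g * x j u * g⁻¹ = x j (c * u) ∧
      g * x (C.neg j) u * g⁻¹ = x (C.neg j) (c⁻¹ * u)) ?_ ?_ ?_ ?_ hg
  · rintro _ ⟨i, t, ht, ht0, rfl⟩
    exact h_act2 h i j ht ht0
  · exact ⟨1, one_mem _, one_ne_zero, fun u _ => by simp⟩
  · rintro a b _ _ ⟨c, hcK, hc, h1⟩ ⟨d, hdK, hd, h2⟩
    refine ⟨c * d, mul_mem hcK hdK, mul_ne_zero hc hd, fun u hu => ⟨?_, ?_⟩⟩
    · calc a * b * x j u * (a * b)⁻¹ = a * (b * x j u * b⁻¹) * a⁻¹ := by group
        _ = _ := by rw [(h2 u hu).1, (h1 _ (mul_mem hdK hu)).1, mul_assoc]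
    · calc a * b * x (C.neg j) u * (a * b)⁻¹ = a * (b * x (C.neg j) u * b⁻¹) * a⁻¹ := by group
        _ = _ := by
          rw [(h2 u hu).2, (h1 _ (mul_mem (inv_mem hdK) hu)).2, mul_inv, mul_assoc]
  · rintro a _ ⟨c, hcK, hc, h1⟩
    refine ⟨c⁻¹, inv_mem hcK, inv_ne_zero hc, fun u hu => ⟨?_, ?_⟩⟩
    · have h2 := (h1 (c⁻¹ * u) (mul_mem (inv_mem hcK) hu)).1
      rw [mul_inv_cancel_left₀ hc] at h2
      rw [← h2]
      group
    · have h2 := (h1 (c * u) (mul_mem hcK hu)).2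
      rw [inv_mul_cancel_left₀ hc] at h2
      rw [inv_inv, ← h2]
      group

/-- it is enough to look at the positive roots -/
lemma surT_of (h : TS C K x) {d : ℕ}
    (hs : ∀ c : ι → F, (∀ i, C.simp i → c i ∈ K i ∧ c i ≠ 0) → ∃ g ∈ TT C K x,
      ∀ i, C.simp i → ∀ u ∈ K i, g * x i u * g⁻¹ = x i (c i ^ d * u)) : SurT C K x d := by
  intro c hc
  obtain ⟨g, hg, h1⟩ := hs c hc
  refine ⟨g, fun i hi u hu => ⟨h1 i hi u hu, ?_⟩⟩
  obtain ⟨c', hc'K, hc', h2⟩ := T_act2 h hg i
  have h3 : c' = c i ^ d := by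
    have h4 := (h2 1 (one_mem _)).1
    rw [h1 i hi 1 (one_mem _), mul_one, mul_one] at h4
    exact (h.x_inj (pow_mem (hc i hi).1 d) hc'K h4).symm
  rw [(h2 u hu).2, h3]

/-- the torus of a group of rank two, where `⟨b, a^∨⟩ = -3` is replaced by the norm -/
lemma surT_two [Finite F] (h : TS C K x) {a b : ι} (hab : ∀ i, C.simp i → i = a ∨ i = b)
    (haK : K a = ⊤) (N : F →* K b) (hN3 : ∀ s : K b, N (s : F) = s ^ 3)
    (hN1 : N (-1) = -1)
    (T1 : ∀ t ∈ K b, t ≠ 0 → ∀ u, hh C x b t * x a u * (hh C x b t)⁻¹ = x a (t⁻¹ * u))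
    (T2 : ∀ t, t ≠ 0 → ∀ u ∈ K b, hh C x a t * x b u * (hh C x a t)⁻¹ = x b ((N t : F)⁻¹ * u)) :
    SurT C K x 1 := by
  have hall : ∀ s : F, s ∈ K a := fun s => by rw [haK]; trivial
  let Nu : Fˣ →* (K b)ˣ := Units.map N
  let j : (K b)ˣ →* Fˣ := Units.map (K b).subtype.toMonoidHom
  let φ : Fˣ × (K b)ˣ →* Fˣ × (K b)ˣ :=
    { toFun := fun y => (y.1 ^ 2 * (j y.2)⁻¹, y.2 ^ 2 * (Nu y.1)⁻¹)
      map_one' := by simp
      map_mul' := fun y z => by
        refine Prod.ext ?_ ?_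
        · change (y.1 * z.1) ^ 2 * (j (y.2 * z.2))⁻¹ =
            (y.1 ^ 2 * (j y.2)⁻¹) * (z.1 ^ 2 * (j z.2)⁻¹)
          rw [map_mul, mul_pow, mul_inv, mul_mul_mul_comm]
        · change (y.2 * z.2) ^ 2 * (Nu (y.1 * z.1))⁻¹ =
            (y.2 ^ 2 * (Nu y.1)⁻¹) * (z.2 ^ 2 * (Nu z.1)⁻¹)
          rw [map_mul, mul_pow, mul_inv, mul_mul_mul_comm] }
  have hNj : ∀ s, Nu (j s) = s ^ 3 := by
    intro s
    ext
    simp [Nu, j, hN3]
  have hinj : Function.Injective φ := by
    rw [injective_iff_map_eq_one]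
    rintro ⟨t, s⟩ hts
    have h1 : t ^ 2 * (j s)⁻¹ = 1 := congrArg Prod.fst hts
    have h2 : s ^ 2 * (Nu t)⁻¹ = 1 := congrArg Prod.snd hts
    rw [mul_inv_eq_one] at h1 h2
    have h3 : s ^ 4 = s ^ 3 := by
      rw [← hNj, ← h1, map_pow, ← h2, ← pow_mul]
    have h4 : s = 1 := by
      have : s ^ 3 * s = s ^ 3 * 1 := by rw [mul_one, ← pow_succ]; exact h3
      exact mul_left_cancel this
    subst h4
    rw [map_one] at h1
    rw [one_pow] at h2
    have h5 : ((t : F) - 1) * ((t : F) + 1) = 0 := by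
      have : (t : F) ^ 2 = 1 := by
        have := congrArg Units.val h1
        rwa [Units.val_pow_eq_pow_val, Units.val_one] at this
      linear_combination this
    rcases mul_eq_zero.1 h5 with h6 | h6
    · have : t = 1 := Units.ext (sub_eq_zero.1 h6)
      rw [this]
      rfl
    · have h7 : (t : F) = -1 := eq_neg_of_add_eq_zero_left h6
      have h8 : N (t : F) = 1 := congrArg Units.val h2.symm
      rw [h7, hN1] at h8
      have h9 : (-1 : F) = 1 := congrArg Subtype.val h8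
      have : t = 1 := Units.ext (by rw [h7, h9]; rfl)
      rw [this]
      rfl
  have hsurj : Function.Surjective φ := Finite.surjective_of_injective hinj
  apply surT_of h
  intro c hc
  by_cases hsa : C.simp a
  · by_cases hsb : C.simp b
    · obtain ⟨hcb, hcb0⟩ := hc b hsb
      obtain ⟨⟨t, s⟩, hts⟩ := hsurj (Units.mk0 (c a) (hc a hsa).2,
        Units.mk0 ⟨c b, hcb⟩ (fun h0 => hcb0 (congrArg Subtype.val h0)))
      have h1 : (t : F) ^ 2 * ((s : K b) : F)⁻¹ = c a := by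
        have := congrArg (fun y => ((y.1 : Fˣ) : F)) hts
        simpa [φ, j] using this
      have h2 : ((s : K b) : F) ^ 2 * (N (t : F) : F)⁻¹ = c b := by
        have := congrArg (fun y => (((y.2 : (K b)ˣ) : K b) : F)) hts
        simpa [φ, Nu] using this
      have hs0 : ((s : K b) : F) ≠ 0 := fun h0 => s.ne_zero (Subtype.ext h0)
      refine ⟨hh C x a t * hh C x b (s : K b), mul_mem (h.h_mem (hall _) t.ne_zero)
        (h.h_mem (s : K b).2 hs0), ?_⟩
      intro i hi u hu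
      rw [pow_one]
      have e1 : ∀ g k y : L, g * k * y * (g * k)⁻¹ = g * (k * y * k⁻¹) * g⁻¹ := by
        intro g k y; group
      rw [e1]
      rcases hab i hi with rfl | rfl
      · rw [T1 _ (s : K b).2 hs0]
        have h3 := h.h_self i (hall (t : F)) t.ne_zero (hall ((((s : K b) : F))⁻¹ * u))
        rw [hh, h3, ← h1]
        congr 1
        ring
      · have h3 := h.h_self i (s : K i).2 hs0 hu
        rw [hh, hh, h3]
        have h4 := T2 (t : F) t.ne_zero (((s : K i) : F) * ((s : K i) : F) * u)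
          (mul_mem (mul_mem (s : K i).2 (s : K i).2) hu)
        rw [hh] at h4
        rw [h4, ← h2]
        congr 1
        ring
    · -- only `a`: the first coordinate with `s` arbitrary
      obtain ⟨⟨t, s⟩, hts⟩ := hsurj (Units.mk0 (c a) (hc a hsa).2, 1)
      have h1 : (t : F) ^ 2 * ((s : K b) : F)⁻¹ = c a := by
        have := congrArg (fun y => ((y.1 : Fˣ) : F)) hts
        simpa [φ, j] using this
      have hs0 : ((s : K b) : F) ≠ 0 := fun h0 => s.ne_zero (Subtype.ext h0)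
      refine ⟨hh C x a t * hh C x b (s : K b), mul_mem (h.h_mem (hall _) t.ne_zero)
        (h.h_mem (s : K b).2 hs0), ?_⟩
      intro i hi u hu
      have hia : i = a := by
        rcases hab i hi with h0 | h0
        · exact h0
        · exact absurd (h0 ▸ hi) hsb
      subst hia
      rw [pow_one]
      have e1 : ∀ g k y : L, g * k * y * (g * k)⁻¹ = g * (k * y * k⁻¹) * g⁻¹ := by
        intro g k y; group
      rw [e1, T1 _ (s : K b).2 hs0]
      have h3 := h.h_self i (hall (t : F)) t.ne_zero (hall ((((s : K b) : F))⁻¹ * u))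
      rw [hh, h3, ← h1]
      congr 1
      ring
  · by_cases hsb : C.simp b
    · obtain ⟨hcb, hcb0⟩ := hc b hsb
      obtain ⟨⟨t, s⟩, hts⟩ := hsurj (1,
        Units.mk0 ⟨c b, hcb⟩ (fun h0 => hcb0 (congrArg Subtype.val h0)))
      have h2 : ((s : K b) : F) ^ 2 * (N (t : F) : F)⁻¹ = c b := by
        have := congrArg (fun y => (((y.2 : (K b)ˣ) : K b) : F)) hts
        simpa [φ, Nu] using this
      have hs0 : ((s : K b) : F) ≠ 0 := fun h0 => s.ne_zero (Subtype.ext h0)
      refine ⟨hh C x a t * hh C x b (s : K b), mul_mem (h.h_mem (hall _) t.ne_zero)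
        (h.h_mem (s : K b).2 hs0), ?_⟩
      intro i hi u hu
      have hib : i = b := by
        rcases hab i hi with h0 | h0
        · exact absurd (h0 ▸ hi) hsa
        · exact h0
      subst hib
      rw [pow_one]
      have e1 : ∀ g k y : L, g * k * y * (g * k)⁻¹ = g * (k * y * k⁻¹) * g⁻¹ := by
        intro g k y; group
      rw [e1]
      have h3 := h.h_self i (s : K i).2 hs0 hu
      rw [hh, hh, h3]
      have h4 := T2 (t : F) t.ne_zero (((s : K i) : F) * ((s : K i) : F) * u)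
        (mul_mem (mul_mem (s : K i).2 (s : K i).2) hu)
      rw [hh] at h4
      rw [h4, ← h2]
      congr 1
      ring
    · exact ⟨1, one_mem _, fun i hi => by
        rcases hab i hi with rfl | rfl
        · exact absurd hi hsa
        · exact absurd hi hsb⟩

end

/-- the norm to a subfield of index `3`, as a power -/
lemma exists_norm {F : Type*} [Field F] [Finite F] {K₀ : Subfield F}
    (hc : Nat.card F = Nat.card K₀ ^ 3) : ∃ N : F →* K₀,
    (∀ t : F, (N t : F) = t ^ ((Nat.card F - 1) / (Nat.card K₀ - 1))) ∧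
    (∀ s : K₀, N (s : F) = s ^ 3) ∧ N (-1) = -1 := by
  classical
  have := Fintype.ofFinite F
  have := Fintype.ofFinite K₀
  set q := Nat.card K₀ with hq
  have hq1 : 1 < q := Finite.one_lt_card
  obtain ⟨k, hk⟩ : ∃ k, q = k + 2 := ⟨q - 2, by omega⟩
  have hdiv : (Nat.card F - 1) / (q - 1) = q ^ 2 + q + 1 := by
    rw [hc]
    have e1 : q ^ 3 - 1 = (q - 1) * (q ^ 2 + q + 1) := by
      rw [hk]
      have : k + 2 - 1 = k + 1 := by omega
      rw [this]
      have h2 : (k + 2) ^ 3 = (k + 1) * ((k + 2) ^ 2 + (k + 2) + 1) + 1 := by ring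
      omega
    rw [e1, Nat.mul_div_cancel_left _ (by omega)]
  have hsK : ∀ s : K₀, s ^ q = s := fun s => by
    rw [hq, Nat.card_eq_fintype_card]
    exact FiniteField.pow_card s
  -- elements fixed by `y ↦ y ^ q` lie in `K₀`
  have hfix : ∀ y : F, y ^ q = y → y ∈ K₀ := by
    intro y hy
    have hpoly : (Polynomial.X ^ q - Polynomial.X : Polynomial F) ≠ 0 :=
      FiniteField.X_pow_card_sub_X_ne_zero F hq1
    have hsub : (Finset.univ.image fun s : K₀ => (s : F)) ⊆
        (Polynomial.X ^ q - Polynomial.X : Polynomial F).roots.toFinset := by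
      intro z hz
      obtain ⟨s, -, rfl⟩ := Finset.mem_image.1 hz
      rw [Multiset.mem_toFinset, Polynomial.mem_roots hpoly, Polynomial.IsRoot.def,
        Polynomial.eval_sub, Polynomial.eval_pow, Polynomial.eval_X, sub_eq_zero]
      exact congrArg Subtype.val (hsK s)
    have hcard : (Polynomial.X ^ q - Polynomial.X : Polynomial F).roots.toFinset.card ≤
        (Finset.univ.image fun s : K₀ => (s : F)).card := by
      rw [Finset.card_image_of_injective _ Subtype.val_injective, Finset.card_univ,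
        ← Nat.card_eq_fintype_card, ← hq]
      refine (Multiset.toFinset_card_le _).trans ((Polynomial.card_roots' _).trans ?_)
      rw [FiniteField.X_pow_card_sub_X_natDegree_eq F hq1]
    have heq := Finset.eq_of_subset_of_card_le hsub hcard
    have hy' : y ∈ (Polynomial.X ^ q - Polynomial.X : Polynomial F).roots.toFinset := by
      rw [Multiset.mem_toFinset, Polynomial.mem_roots hpoly, Polynomial.IsRoot.def,
        Polynomial.eval_sub, Polynomial.eval_pow, Polynomial.eval_X, sub_eq_zero, hy]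
    rw [← heq] at hy'
    obtain ⟨s, -, rfl⟩ := Finset.mem_image.1 hy'
    exact s.2
  have hF : ∀ t : F, t ^ q ^ 3 = t := fun t => by
    rw [← hc, Nat.card_eq_fintype_card]
    exact FiniteField.pow_card t
  have hmem : ∀ t : F, t ^ (q ^ 2 + q + 1) ∈ K₀ := by
    intro t
    apply hfix
    rw [← pow_mul]
    have e1 : (q ^ 2 + q + 1) * q = q ^ 3 + (q ^ 2 + q) := by ring
    rw [e1, pow_add, hF, ← pow_succ']
  refine ⟨{ toFun := fun t => ⟨t ^ (q ^ 2 + q + 1), hmem t⟩
            map_one' := Subtype.ext (one_pow _)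
            map_mul' := fun a b => Subtype.ext (mul_pow _ _ _) }, ?_, ?_, ?_⟩
  · intro t
    rw [hdiv]
    rfl
  · intro s
    apply Subtype.ext
    change (s : F) ^ (q ^ 2 + q + 1) = ((s ^ 3 : K₀) : F)
    have e1 : s ^ (q ^ 2 + q + 1) = s ^ 3 := by
      rw [pow_add, pow_add, pow_one, hsK, pow_two q, pow_mul, hsK, hsK]
      ring
    rw [← e1]
    rfl
  · apply Subtype.ext
    change (-1 : F) ^ (q ^ 2 + q + 1) = ((-1 : K₀) : F)
    have hodd : Odd (q ^ 2 + q + 1) := by
      have : q ^ 2 + q + 1 = q * (q + 1) + 1 := by ring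
      rw [this]
      exact (Nat.even_mul_succ_self q).add_one
    rw [hodd.neg_one_pow]
    rfl

end Vale.Agent.P240.R2.H164.TW
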