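import Vale.Agent.P240.R2.H164.TW2
import Vale.Agent.P240.R2.H945.W.Tw

/-!
The groups `³D₄(q)`: few automorphisms of order `p`, from the normal form.
-/

set_option autoImplicit false

namespace Vale.Agent.P240.R2.H164.TW

open Subgroup Vale.Agent.P240.K Vale.Agent.P240.H195 Vale.Agent.P240.R2.H997 CartanMatrix
  Vale.Agent.P240.R2.H945.W
open Vale.Agent.P240.R2.H986.X (RC nn nl wl SS)

universe u

section
variable {ι : Type} {F : Type} [Field F] {L : Type u} [Group L] {C : RC ι} {K : ι → Subfield F}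
  {x : ι → F → L}

/-- the normal form: automorphisms of `p`-power order that stabilize `B` and the opposite subgroup
are field automorphisms times scalars -/
def NF (C : RC ι) (K : ι → Subfield F) (x : ι → F → L) (p : ℕ) : Prop :=
  ∀ l : List ι, (∀ i ∈ l, C.simp i) → (∀ j, 0 < C.ht j → C.ht (wl C l j) < 0) →
    ∀ e : MulAut L, (∃ a, e ^ p ^ a = 1) → am e (BB C K x) = BB C K x →
      am e (cj (nl C x l) (BB C K x)) = cj (nl C x l) (BB C K x) →
      ∃ (σ : F ≃+* F) (c : ι → F), AlT C K x e σ c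

lemma few_of_NF [Finite ι] [Finite F] [Finite L] (h : TS C K x)
    (hcen : ∀ g : L, (∀ y, g * y = y * g) → g = 1) (r : ℕ) [Fact r.Prime] [CharP F r]
    (hK : ∃ i, C.simp i ∧ K i = ⊤) {d p : ℕ} (hp : p.Prime) (hpd : Nat.Coprime p d)
    (hpt : Nat.Coprime p (Nat.totient d)) (hD : SurT C K x d) (hN : NF C K x p) : FewAut p L := by
  obtain ⟨l, hls, hl⟩ := C.long
  exact fewAut_of h hcen r hls hl hK hp hpd hpt hD (hN l hls hl)

/-- the torus of `³D₄(q)` -/
lemma surT_3D4 [Finite F] {e : Fin 2 → ι} {K₀ : Subfield F} (h : TD G₂ 3 C e K₀ K x) :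
    SurT C K x 1 := by
  have h01 : (G₂ : Matrix (Fin 2) (Fin 2) ℤ) 0 1 = -(3 : ℕ) := by decide
  have h10 : (G₂ : Matrix (Fin 2) (Fin 2) ℤ) 1 0 = -1 := by decide
  have hs : K (e 1) = ⊤ := h.K_short 1 0 h01
  have hl : K (e 0) = K₀ := h.K_long 1 0 h01
  subst hl
  obtain ⟨N, hN1, hN3, hN2⟩ := exists_norm h.card
  refine surT_two h.ts (a := e 1) (b := e 0) ?_ hs N hN3 hN2 ?_ ?_
  · intro i hi
    obtain ⟨k, rfl⟩ := (h.simp i).1 hi
    fin_cases k
    · exact Or.inr rfl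
    · exact Or.inl rfl
  · intro t ht ht0 u
    exact h.h_long (i := 1) (j := 0) h01 (by decide) h10 (by decide) t u ht0 ht
  · intro t ht0 u hu
    rw [hN1]
    exact h.h_short (i := 1) (j := 0) h01 (by decide) t u ht0 hu

/-- **the groups `³D₄(q)`** -/
theorem few_3D4 [Finite ι] [Finite F] [Finite L] {e : Fin 2 → ι} {K₀ : Subfield F}
    (h : TD G₂ 3 C e K₀ K x) (hcen : ∀ g : L, (∀ y, g * y = y * g) → g = 1) (r : ℕ)
    [Fact r.Prime] [CharP F r] {p : ℕ} (hp : p.Prime) (hN : NF C K x p) : FewAut p L := by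
  have h01 : (G₂ : Matrix (Fin 2) (Fin 2) ℤ) 0 1 = -(3 : ℕ) := by decide
  refine few_of_NF h.ts hcen r ⟨e 1, (h.simp _).2 ⟨1, rfl⟩, h.K_short 1 0 h01⟩ hp
    (Nat.coprime_one_right p) ?_ (surT_3D4 h) hN
  rw [Nat.totient_one]
  exact Nat.coprime_one_right p

end

end Vale.Agent.P240.R2.H164.TW
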