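import Vale.Agent.P240.R2.H164.TW3
import Vale.Agent.P240.R2.H986.W.X4

/-!
Twisted groups: few automorphisms of order `p`.
-/

set_option autoImplicit false

namespace Vale.Agent.P240.R2.H164.TW

open Subgroup Vale.Agent.P240.K Vale.Agent.P240.H195 Vale.Agent.P240.R2.H997
  Vale.Agent.P240.R2.H945.W
open Vale.Agent.P240.R2.H986.X (RC nn nl wl SS)

universe u

/-- **TW5** from **TW4** -/
theorem stmtT5_of (h4 : StmtT4.{u}) : StmtT5.{u} := by
  intro ι _ F _ _ L _ _ r _ _ C K x h hcen hLC hPC d hD p hp _ hpd hpt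
  obtain ⟨i₀, hi₀, hK, -⟩ := id hLC
  refine few_of_NF h hcen r ⟨i₀, hi₀, hK⟩ hp hpd hpt hD ?_
  intro l hls hl e _ heB heC
  exact h4 ι F L r C K x h hcen hLC hPC l hls hl e heB heC

/-- **TW5** -/
theorem stmtT5 : StmtT5.{u} := stmtT5_of stmtT4

end Vale.Agent.P240.R2.H164.TW
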