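import Vale.Agent.P240.R2.H986.X.Stm

/-!
The combinatorics of a root system with a base (Mathlib's `RootPairing.Base`) in the form `RC`.
-/

set_option autoImplicit false

namespace Vale.Agent.P240.R2.H164.X1

open Vale.Agent.P240.R2.H986.X RootPairing

section
variable {ι M N : Type*} [AddCommGroup M] [Module ℚ M] [AddCommGroup N] [Module ℚ N]
  {P : RootPairing ι ℚ M N}

lemma root_neg (i : ι) : P.root (P.reflectionPerm i i) = - P.root i := by
  rw [root_reflectionPerm, reflection_apply_self]

lemma root_inj {i j : ι} (h : P.root i = P.root j) : i = j := P.root.injective h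

lemma neg_neg' (i : ι) :
    P.reflectionPerm (P.reflectionPerm i i) (P.reflectionPerm i i) = i := by
  apply root_inj (P := P)
  rw [root_neg, root_neg, neg_neg]

lemma s_neg' (i j : ι) : P.reflectionPerm i (P.reflectionPerm j j) =
    P.reflectionPerm (P.reflectionPerm i j) (P.reflectionPerm i j) := by
  apply root_inj (P := P)
  rw [root_reflectionPerm, root_neg, map_neg, root_neg, root_reflectionPerm]

lemma neg_s' (i j : ι) : P.reflectionPerm (P.reflectionPerm i i) j = P.reflectionPerm i j := by
  apply root_inj (P := P)
  rw [root_reflectionPerm, root_reflectionPerm, reflection_reflectionPerm]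
  change P.reflection i (P.reflection i (P.reflection i (P.root j))) = _
  rw [reflection_same]

lemma s_conj' (i j k : ι) : P.reflectionPerm (P.reflectionPerm i j) k =
    P.reflectionPerm i (P.reflectionPerm j (P.reflectionPerm i k)) := by
  apply root_inj (P := P)
  rw [root_reflectionPerm, reflection_reflectionPerm, root_reflectionPerm, root_reflectionPerm,
    root_reflectionPerm]
  rfl

/-- the height of `m i + n j` -/
lemma height_nsmul (b : P.Base) {i j k : ι} {m n : ℕ}
    (hk : P.root k = m • P.root i + n • P.root j) :
    b.height k = m * b.height i + n * b.height j := by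
  obtain ⟨f, -, -, hf⟩ := b.exists_root_eq_sum_int i
  obtain ⟨g, -, -, hg⟩ := b.exists_root_eq_sum_int j
  have hfg : P.root k = ∑ l ∈ b.support, ((m : ℤ) * f l + (n : ℤ) * g l) • P.root l := by
    rw [hk, hf, hg, Finset.smul_sum, Finset.smul_sum, ← Finset.sum_add_distrib]
    refine Finset.sum_congr rfl fun l _ => ?_
    rw [add_smul, mul_smul, mul_smul, natCast_zsmul, natCast_zsmul]
  rw [Base.height_eq_sum hf, Base.height_eq_sum hg, Base.height_eq_sum hfg, Finset.mul_sum,
    Finset.mul_sum, ← Finset.sum_add_distrib]

/-- a word acts on the roots, additively -/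
lemma foldr_add (l : List ι) {i j k : ι} (hk : P.root k = P.root i + P.root j) :
    P.root (l.foldr (fun a b => P.reflectionPerm a b) k) =
      P.root (l.foldr (fun a b => P.reflectionPerm a b) i) +
        P.root (l.foldr (fun a b => P.reflectionPerm a b) j) := by
  induction l with
  | nil => exact hk
  | cons a l ih =>
    rw [List.foldr_cons, List.foldr_cons, List.foldr_cons, root_reflectionPerm, ih, map_add,
      ← root_reflectionPerm, ← root_reflectionPerm]

lemma foldr_neg (l : List ι) (i : ι) :
    l.foldr (fun a b => P.reflectionPerm a b) (P.reflectionPerm i i) =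
      P.reflectionPerm (l.foldr (fun a b => P.reflectionPerm a b) i)
        (l.foldr (fun a b => P.reflectionPerm a b) i) := by
  induction l with
  | nil => rfl
  | cons a l ih => rw [List.foldr_cons, ih, List.foldr_cons, s_neg']

lemma foldr_rev (l : List ι) (i : ι) :
    l.reverse.foldr (fun a b => P.reflectionPerm a b)
      (l.foldr (fun a b => P.reflectionPerm a b) i) = i := by
  induction l with
  | nil => rfl
  | cons a l ih =>
    rw [List.reverse_cons, List.foldr_append, List.foldr_cons, List.foldr_cons, List.foldr_nil,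
      reflectionPerm_self, ih]

lemma foldr_rev' (l : List ι) (i : ι) :
    l.foldr (fun a b => P.reflectionPerm a b)
      (l.reverse.foldr (fun a b => P.reflectionPerm a b) i) = i := by
  have := foldr_rev (P := P) l.reverse i
  rwa [List.reverse_reverse] at this

lemma height_neg (b : P.Base) (i : ι) : b.height (P.reflectionPerm i i) = - b.height i :=
  b.height_reflectionPerm_self i

variable [Finite ι] [P.IsCrystallographic] [P.IsReduced]

/-- the longest word -/
lemma exists_long (b : P.Base) : ∃ l : List ι, (∀ i ∈ l, i ∈ b.support) ∧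
    ∀ j, 0 < b.height j → b.height (l.foldr (fun a b => P.reflectionPerm a b) j) < 0 := by
  classical
  have := Fintype.ofFinite ι
  -- minimize the number of positive roots that stay positive
  let c : List ι → ℕ := fun l => (Finset.univ.filter fun j => 0 < b.height j ∧
    0 < b.height (l.foldr (fun a b => P.reflectionPerm a b) j)).card
  have hex : ∃ n, ∃ l : List ι, (∀ i ∈ l, i ∈ b.support) ∧ c l = n := ⟨_, [], by simp, rfl⟩
  obtain ⟨l, hl, hn⟩ := Nat.find_spec hex
  have hmin : ∀ l' : List ι, (∀ i ∈ l', i ∈ b.support) → c l ≤ c l' := fun l' hl' => by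
    rw [hn]
    exact Nat.find_min' hex ⟨l', hl', rfl⟩
  refine ⟨l, hl, ?_⟩
  -- the inverse word makes all simple roots negative
  have hinv : ∀ i ∈ b.support, b.height (l.reverse.foldr (fun a b => P.reflectionPerm a b) i) < 0 := by
    intro i hi
    by_contra hcon
    have hpos : 0 < b.height (l.reverse.foldr (fun a b => P.reflectionPerm a b) i) :=
      lt_of_le_of_ne (not_lt.1 hcon) (b.height_ne_zero _).symm
    set j₀ := l.reverse.foldr (fun a b => P.reflectionPerm a b) i with hj₀
    have hj₀l : l.foldr (fun a b => P.reflectionPerm a b) j₀ = i := foldr_rev' l i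
    have hlt : c (i :: l) < c l := by
      apply Finset.card_lt_card
      refine Finset.ssubset_iff_of_subset ?_ |>.2 ⟨j₀, ?_, ?_⟩
      · intro j hj
        rw [Finset.mem_filter] at hj ⊢
        refine ⟨Finset.mem_univ _, hj.2.1, ?_⟩
        have h1 := hj.2.2
        rw [List.foldr_cons] at h1
        by_contra h2
        set k := l.foldr (fun a b => P.reflectionPerm a b) j with hk
        have hneg : 0 < b.height (P.reflectionPerm k k) := by
          rw [height_neg]
          have := b.height_ne_zero k
          lia
        have hne : P.reflectionPerm k k ≠ i := by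
          intro he
          -- then `j₀ = - j`
          have h3 : j₀ = P.reflectionPerm j j := by
            rw [hj₀, ← he, foldr_neg, hk, foldr_rev]
          have h4 : b.height j₀ = - b.height j := by rw [h3, height_neg]
          have := hj.2.1
          lia
        have h5 : 0 < b.height (P.reflectionPerm i (P.reflectionPerm k k)) :=
          Base.IsPos.reflectionPerm (b := b) (i := P.reflectionPerm k k) (j := i) hneg hi hne
        rw [s_neg', height_neg] at h5
        lia
      · rw [Finset.mem_filter]
        refine ⟨Finset.mem_univ _, hpos, ?_⟩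
        rw [hj₀l]
        exact Base.isPos_of_mem_support hi
      · rw [Finset.mem_filter]
        rintro ⟨-, -, h1⟩
        rw [List.foldr_cons, hj₀l, height_neg] at h1
        have h2 : 0 < b.height i := Base.isPos_of_mem_support hi
        lia
    have h2 := hmin (i :: l) (by
      intro a ha
      rcases List.mem_cons.1 ha with rfl | ha
      · exact hi
      · exact hl a ha)
    lia
  have hinv' : ∀ k, 0 < b.height k →
      b.height (l.reverse.foldr (fun a b => P.reflectionPerm a b) k) < 0 := by
    intro k hk
    refine Base.IsPos.induction_on_add (b := b) (i := k) hk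
      (p := fun k => b.height (l.reverse.foldr (fun a b => P.reflectionPerm a b) k) < 0) hinv ?_
    intro i j k hk hi hj
    have h1 := b.height_add (foldr_add l.reverse hk)
    have h2 := hinv j hj
    have h3 : b.height (l.reverse.foldr (fun a b => P.reflectionPerm a b) i) < 0 := hi
    change b.height (l.reverse.foldr (fun a b => P.reflectionPerm a b) k) < 0
    lia
  intro j hj
  by_contra hcon
  have hpos : 0 < b.height (l.foldr (fun a b => P.reflectionPerm a b) j) :=
    lt_of_le_of_ne (not_lt.1 hcon) (b.height_ne_zero _).symm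
  have := hinv' _ hpos
  rw [foldr_rev] at this
  lia

/-- induction over all roots -/
lemma gen_ind (b : P.Base) (p : ι → Prop) (h1 : ∀ i, i ∈ b.support → p i)
    (h2 : ∀ i j, i ∈ b.support → p j → p (P.reflectionPerm i j)) (j : ι) : p j := by
  have key : ∀ i, 0 < b.height i → p i ∧ p (P.reflectionPerm i i) := by
    intro i hi
    refine Base.IsPos.induction_on_reflect (b := b) (i := i) hi
      (p := fun i => p i ∧ p (P.reflectionPerm i i)) (fun i hi => ⟨h1 i hi, h2 i i hi (h1 i hi)⟩) ?_
    intro i j hp hj
    refine ⟨h2 j i hj hp.1, ?_⟩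
    rw [← s_neg']
    exact h2 j _ hj hp.2
  rcases lt_or_gt_of_ne (b.height_ne_zero j) with h | h
  · have := (key (P.reflectionPerm j j) (by rw [height_neg]; lia)).2
    rwa [neg_neg'] at this
  · exact (key j h).1

omit [Finite ι] [P.IsCrystallographic] in
/-- `k = m i + n j`, `j > 0`, `j ≠ i` simple: `k ≠ i` -/
lemma cone_simp' (b : P.Base) {i j k : ι} (hi : i ∈ b.support) (hj : 0 < b.height j) (hji : j ≠ i)
    {m n : ℕ} (hn : 0 < n) (hk : P.root k = m • P.root i + n • P.root j) : k ≠ i := by
  rintro rfl
  have hlin : LinearIndependent ℚ ![P.root k, P.root j] := by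
    refine IsReduced.linearIndependent P hji.symm fun h => ?_
    have h1 : k = P.reflectionPerm j j := by
      apply root_inj (P := P)
      rw [h, root_neg]
    have h2 := height_neg b j
    rw [← h1, Base.height_one_of_mem_support hi] at h2
    lia
  have h1 := LinearIndependent.pair_iff.1 hlin ((m : ℚ) - 1) (n : ℚ) (by
    have e1 : ((m : ℚ)) • P.root k = m • P.root k := Nat.cast_smul_eq_nsmul ℚ m _
    have e2 : ((n : ℚ)) • P.root j = n • P.root j := Nat.cast_smul_eq_nsmul ℚ n _
    rw [sub_smul, one_smul, e1, e2]
    rw [sub_add_eq_add_sub, ← hk, sub_self])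
  have h2 : (n : ℚ) = 0 := h1.2
  have h3 : n = 0 := by exact_mod_cast h2
  lia

omit [Finite ι] [P.IsCrystallographic] [P.IsReduced] in
/-- no root is of the form `- m i + n j` with different simple roots `i`, `j` and `m, n > 0` -/
lemma cone_mixed' (b : P.Base) {i j k : ι} (hi : i ∈ b.support) (hj : j ∈ b.support) (hij : i ≠ j)
    {m n : ℕ} (hm : 0 < m) (hn : 0 < n)
    (hk : P.root k = m • P.root (P.reflectionPerm i i) + n • P.root j) : False := by
  classical
  let f : ι → ℤ := fun l => if l = i then -(m : ℤ) else if l = j then (n : ℤ) else 0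
  have hf : ∑ l ∈ b.support, f l • P.root l = P.root k := by
    have hsub : {i, j} ⊆ b.support := by
      intro a ha
      rcases Finset.mem_insert.1 ha with rfl | ha
      · exact hi
      · rw [Finset.mem_singleton.1 ha]
        exact hj
    rw [← Finset.sum_subset hsub, Finset.sum_insert (by simpa using hij), Finset.sum_singleton, hk,
      root_neg]
    · simp [f, hij.symm]
    · intro l _ hl
      have h1 : l ≠ i := fun h => hl (by simp [h])
      have h2 : l ≠ j := fun h => hl (by simp [h])
      simp [f, h1, h2]
  have hs : Function.support f ⊆ b.support := by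
    intro l hl
    by_cases h1 : l = i
    · rw [h1]; exact hi
    · by_cases h2 : l = j
      · rw [h2]; exact hj
      · exact absurd (by simp [f, h1, h2]) hl
  have hfi : f i = -(m : ℤ) := by simp [f]
  have hfj : f j = (n : ℤ) := by simp [f, hij.symm]
  rcases b.pos_or_neg_of_sum_smul_root_mem f (by rw [hf]; exact ⟨k, rfl⟩) hs with h | h
  · have h1 : (0 : ℤ) ≤ f i := h.le i
    omega
  · have h1 : f j ≤ 0 := h.le j
    omega

/-- two different simple roots -/
lemma simp_pair (b : P.Base) {i j : ι} (hi : i ∈ b.support) (hj : j ∈ b.support) (hij : i ≠ j) :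
    -3 ≤ P.pairingIn ℤ j i ∧ P.pairingIn ℤ j i ≤ 0 ∧
      (P.pairingIn ℤ j i ≠ 0 → P.pairingIn ℤ j i = -1 ∨ P.pairingIn ℤ i j = -1) := by
  have h0 : P.pairingIn ℤ j i ≤ 0 := b.pairingIn_le_zero_of_ne hij.symm hj hi
  have h0' : P.pairingIn ℤ i j ≤ 0 := b.pairingIn_le_zero_of_ne hij hi hj
  have h1 := P.pairingIn_pairingIn_mem_set_of_isCrystal_of_isRed' (i := j) (j := i)
    (fun h => hij (root_inj h).symm) (b.root_ne_neg_of_ne hj hi hij.symm)
  simp only [Set.mem_insert_iff, Set.mem_singleton_iff, Prod.mk.injEq] at h1
  refine ⟨by omega, h0, fun h2 => by omega⟩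

/-- **X1** -/
theorem stmtX1 : StmtX1 := by
  intro ι M N _ _ _ _ _ P _ _ b hne hconn
  refine ⟨{
    ht := b.height
    neg := fun i => P.reflectionPerm i i
    s := fun i j => P.reflectionPerm i j
    simp := fun i => i ∈ b.support
    pr := fun j i => P.pairingIn ℤ j i
    cone := fun i j k => ∃ m n : ℕ, 0 < m ∧ 0 < n ∧ P.root k = m • P.root i + n • P.root j
    ht_ne := b.height_ne_zero
    ht_neg := height_neg b
    neg_neg := neg_neg'
    s_s := fun i j => reflectionPerm_self P i j
    s_self := fun i => rfl
    s_neg := s_neg'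
    neg_s := neg_s'
    s_conj := s_conj'
    simp_pos := fun i hi => Base.isPos_of_mem_support hi
    s_pos := fun i j hi hj hji => Base.IsPos.reflectionPerm (b := b) (i := j) (j := i) hj hi hji
    cone_ht := ?_
    cone_simp := ?_
    cone_symm := ?_
    cone_neg := ?_
    cone_mixed := ?_
    pr_self := fun i => P.pairingIn_same ℤ i
    pr_neg := fun i j => P.pairingIn_reflectionPerm_self_left ℤ j i
    neg_pr := fun i j => P.pairingIn_reflectionPerm_self_right ℤ j i
    pr_s := ?_
    long := exists_long b
    gen := fun p h1 h2 j => gen_ind b p h1 h2 j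
    conn := hconn
    adj := ?_
    pr_bd := fun i j hi hj hij => ⟨(simp_pair b hi hj hij).1, (simp_pair b hi hj hij).2.1⟩
    pr_zero := fun i j => P.pairingIn_eq_zero_iff
    s_fix := ?_
    ex := hne }, rfl, fun i => rfl, fun i j => rfl, fun i => Iff.rfl, fun i j => rfl,
    fun i j k => Iff.rfl⟩
  · rintro i j k ⟨m, n, hm, hn, hk⟩ hi hj
    have h1 := height_nsmul b hk
    have hm' : (1 : ℤ) ≤ m := by exact_mod_cast hm
    have hn' : (1 : ℤ) ≤ n := by exact_mod_cast hn
    constructor <;> nlinarith
  · rintro i j k hi hj hji ⟨m, n, hm, hn, hk⟩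
    exact cone_simp' b hi hj hji hn hk
  · rintro i j k ⟨m, n, hm, hn, hk⟩
    exact ⟨n, m, hn, hm, by rw [hk, add_comm]⟩
  · rintro i j k ⟨m, n, hm, hn, hk⟩
    refine ⟨m, n, hm, hn, ?_⟩
    rw [root_neg, root_neg, root_neg, hk, smul_neg, smul_neg, neg_add]
  · rintro i j k hi hj hij ⟨m, n, hm, hn, hk⟩
    exact cone_mixed' b hi hj hij hm hn hk
  · intro i j
    have h1 := P.pairingIn_reflectionPerm ℤ i j i
    rw [P.pairingIn_reflectionPerm_self_right] at h1
    exact h1.symm
  · intro i j hi hj hij h0
    refine ⟨fun h => ?_, (simp_pair b hi hj hij).2.2 h0⟩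
    have h1 := P.pairingIn_reflectionPerm ℤ i j i
    rw [P.pairingIn_reflectionPerm_self_right, h] at h1
    lia
  · intro i j h0
    have h0' : P.pairingIn ℤ j i = 0 := h0
    apply root_inj (P := P)
    rw [root_reflectionPerm, reflection_apply_root, ← P.algebraMap_pairingIn ℤ, h0', map_zero,
      zero_smul, sub_zero]

end

end Vale.Agent.P240.R2.H164.X1
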